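import Mathlib

/-! Internal definitions for the proof of the Laughlin gap (not used in the statement). -/

namespace Vale.Agent.P359

open Finset

/-- raising coefficient `(D - i) / x` -/
noncomputable def ee (D : ℕ) (x : ℝ) (i : ℕ) : ℝ := ((D : ℝ) - i) / x

/-- squared norm of the scaled monomial `z ^ i` in the spin `D / 2` representation -/
noncomputable def wt (D : ℕ) (x : ℝ) (i : ℕ) : ℝ := x ^ i / (D.choose i : ℝ)

/-- inverse weight, zero for `i > D` -/
noncomputable def uu (D : ℕ) (x : ℝ) (i : ℕ) : ℝ := (D.choose i : ℝ) / x ^ i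

/-- coefficient of `z0 ^ m * z1 ^ a` in `Jplus ^ j (z0 - z1) ^ n` -/
def wv {K : Type} [CommRing K] (e0 e1 : ℕ → K) (n : ℕ) : ℕ → ℕ → ℕ → K
  | 0, m, a => if m + a = n then (-1) ^ a * (n.choose m : K) else 0
  | j + 1, m, a =>
      (if m = 0 then 0 else e0 (m - 1) * wv e0 e1 n j (m - 1) a) +
        (if a = 0 then 0 else e1 (a - 1) * wv e0 e1 n j m (a - 1))

/-- squared norm of `wv n j` -/
noncomputable def nu (D0 D1 : ℕ) (x : ℝ) (n j : ℕ) : ℝ :=
  ∑ m ∈ range (D0 + 1), ∑ a ∈ range (D1 + 1),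
    wt D0 x m * wt D1 x a * wv (ee D0 x) (ee D1 x) n j m a ^ 2

/-- eigenvalue of an invariant tensor on the `n`-th irreducible component -/
noncomputable def tau (D0 D1 : ℕ) (x : ℝ) (T : ℕ → ℕ → ℕ → ℕ → ℝ) (n : ℕ) : ℝ :=
  (∑ m ∈ range (D0 + 1), ∑ a ∈ range (D1 + 1), ∑ m' ∈ range (D0 + 1), ∑ b ∈ range (D1 + 1),
    wt D0 x m * wt D1 x a * wv (ee D0 x) (ee D1 x) n 0 m a *
      (wt D0 x m' * wt D1 x b * wv (ee D0 x) (ee D1 x) n 0 m' b) * T m a m' b) / nu D0 D1 x n 0

/-- symmetric `sl2`-invariant tensors on the product of two irreducible representations -/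
structure InvT (D0 D1 : ℕ) (x : ℝ) (T : ℕ → ℕ → ℕ → ℕ → ℝ) : Prop where
  symm : ∀ m a n b, T m a n b = T n b m a
  supp : ∀ m a n b, D0 < m ∨ D1 < a → T m a n b = 0
  rel : ∀ m a n b : ℕ, ((m : ℝ) + 1) * T (m + 1) a n b + ((a : ℝ) + 1) * T m (a + 1) n b =
    (if n = 0 then 0 else ee D0 x (n - 1) * T m a (n - 1) b) +
      (if b = 0 then 0 else ee D1 x (b - 1) * T m a n (b - 1))

section CAR

variable {H : Type} [NormedAddCommGroup H] [InnerProductSpace ℝ H] [FiniteDimensional ℝ H]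

/-- weighted canonical anticommutation relations -/
structure IsCAR (Q : ℕ) (c : ℕ → Module.End ℝ H) : Prop where
  anti : ∀ a b, c a * c b = -(c b * c a)
  mixed : ∀ a b, c a * LinearMap.adjoint (c b) + LinearMap.adjoint (c b) * c a =
    if a = b then uu Q Q a • (1 : Module.End ℝ H) else 0

end CAR

/-- pair annihilation operator -/
noncomputable def pairA {H : Type} [AddCommGroup H] [Module ℝ H] (c : ℕ → Module.End ℝ H)
    (m : ℕ) : Module.End ℝ H :=
  ∑ p ∈ antidiagonal (m + 1), ((p.1 : ℝ) - p.2) • (c p.2 * c p.1)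

/-- the fermionic Fock space over `Q + 1` orbitals -/
abbrev Fock (Q : ℕ) : Type := EuclideanSpace ℝ (Finset (Fin (Q + 1)))

/-- annihilation operator -/
noncomputable def ann (Q : ℕ) (a : Fin (Q + 1)) : Module.End ℝ (Fock Q) where
  toFun f := WithLp.toLp 2 fun S =>
    if a ∈ S then 0 else (-1) ^ (S.filter (· < a)).card * f (insert a S)
  map_add' f g := by
    ext S
    by_cases h : a ∈ S <;> simp [h, mul_add]
  map_smul' r f := by
    ext S
    by_cases h : a ∈ S <;> simp [h]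
    ring

/-- rescaled annihilation operators, indexed by the natural numbers -/
noncomputable def chat (Q : ℕ) (a : ℕ) : Module.End ℝ (Fock Q) :=
  if h : a < Q + 1 then Real.sqrt (uu Q Q a) • ann Q ⟨a, h⟩ else 0

/-- number of set bits of `i` below position `a` -/
def cnt (a i : ℕ) : ℕ := ((range a).filter fun b => i.testBit b).card

/-- plain annihilation operator on functions of bitmasks -/
noncomputable def pc (a : ℕ) : Module.End ℝ (ℕ → ℝ) where
  toFun g := fun i => if i.testBit a then 0 else (-1) ^ cnt a i * g (i + 2 ^ a)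
  map_add' f g := by
    ext i
    by_cases h : i.testBit a <;> simp [h, mul_add]
  map_smul' r f := by
    ext i
    by_cases h : i.testBit a <;> simp [h]
    ring

/-- real antisymmetric functions -/
def Anti {Q N : ℕ} (φ : (Fin N → Fin (Q + 1)) → ℝ) : Prop :=
  ∀ (σ : Equiv.Perm (Fin N)) (x : Fin N → Fin (Q + 1)),
    φ (x ∘ σ) = ((Equiv.Perm.sign σ : ℤ) : ℝ) * φ x

/-- unnormalised pair amplitude of the first two particles, real version -/
noncomputable def amp {Q n : ℕ} (φ : (Fin (n + 2) → Fin (Q + 1)) → ℝ) (s : ℕ)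
    (x : Fin n → Fin (Q + 1)) : ℝ :=
  ∑ a : Fin (Q + 1), ∑ b : Fin (Q + 1),
    if (a : ℕ) + (b : ℕ) = s then
      (((a : ℕ) : ℝ) - ((b : ℕ) : ℝ)) * Real.sqrt (Q.choose a) * Real.sqrt (Q.choose b) *
        φ (Fin.cons a (Fin.cons b x))
    else 0

/-- the energy of a real antisymmetric function -/
noncomputable def energy {Q n : ℕ} (φ : (Fin (n + 2) → Fin (Q + 1)) → ℝ) : ℝ :=
  ((n + 2).choose 2 : ℝ) * ∑ m ∈ range (2 * Q - 1), ∑ x : Fin n → Fin (Q + 1),
    amp φ (m + 1) x ^ 2 / (2 * Q * ((2 * Q - 2).choose m : ℝ))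

end Vale.Agent.P359
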