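import Vale.Agent.P359.Cert

/-! Soundness of the certificate checker. -/

namespace Vale.Agent.P359

open Finset

theorem tb_eq (i a : ℕ) : tb i a = i.testBit a := by
  unfold tb Nat.testBit
  change Nat.beq (1 &&& (i >>> a)) 1 = _
  rw [Nat.one_and_eq_mod_two]
  rcases Nat.mod_two_eq_zero_or_one (i >>> a) with h | h <;> rw [h] <;> rfl

@[simp] theorem forceN_eq {α : Type} (n : ℕ) (k : ℕ → α) : forceN n k = k n := by
  cases n <;> rfl

@[simp] theorem forceZ_eq {α : Type} (z : ℤ) (k : ℤ → α) : forceZ z k = k z := by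
  cases z <;> simp [forceZ]

theorem cnt_succ (a i : ℕ) : cnt (a + 1) i = cnt a i + if i.testBit a then 1 else 0 := by
  unfold cnt
  rw [Finset.range_add_one, Finset.filter_insert]
  split_ifs with h
  · rw [Finset.card_insert_of_notMem (by simp)]
  · simp

theorem par_succ (a i : ℕ) : par (a + 1) i = bif tb i a then not (par a i) else par a i := rfl

theorem par_eq (a i : ℕ) : ((bif par a i then -1 else 1 : ℝ)) = (-1) ^ cnt a i := by
  induction a with
  | zero => simp [par, cnt]
  | succ a ih =>
    rw [par_succ, cnt_succ, tb_eq, pow_add, ← ih]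
    cases i.testBit a <;> cases par a i <;> simp

theorem wF_succ (a i : ℕ) :
    wF (a + 1) i = bif tb i a then Int.mul (Int.ofNat a.factorial) (wF a i) else wF a i := rfl

theorem wF_eq (n i : ℕ) :
    (wF n i : ℝ) = ∏ a ∈ range n, if i.testBit a then (a.factorial : ℝ) else 1 := by
  induction n with
  | zero => simp [wF]
  | succ a ih =>
    rw [wF_succ, Finset.prod_range_succ, ← ih, tb_eq]
    cases i.testBit a <;> simp [mul_comm]

/-- the function described by a sparse vector -/
noncomputable def den : SV → ℕ → ℝ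
  | [] => 0
  | p :: l => Pi.single p.1 (p.2 : ℝ) + den l

theorem cnt_add_two_pow (a i : ℕ) : cnt a (i + 2 ^ a) = cnt a i := by
  unfold cnt
  congr 1
  apply Finset.filter_congr
  intro b hb
  rw [add_comm, Nat.testBit_two_pow_add_gt (Finset.mem_range.mp hb)]

theorem pc_apply (a : ℕ) (g : ℕ → ℝ) (i : ℕ) :
    pc a g i = if i.testBit a then 0 else (-1) ^ cnt a i * g (i + 2 ^ a) := rfl

theorem pc_single (a j : ℕ) (x : ℝ) :
    pc a (Pi.single j x) =
      if j.testBit a then Pi.single (j - 2 ^ a) ((-1) ^ cnt a j * x) else 0 := by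
  ext i
  rw [pc_apply]
  by_cases hj : j.testBit a
  · have hle : 2 ^ a ≤ j := Nat.ge_two_pow_of_testBit hj
    obtain ⟨k, rfl⟩ : ∃ k, j = k + 2 ^ a := ⟨j - 2 ^ a, by omega⟩
    have hk : k.testBit a = false := by
      rw [add_comm, Nat.testBit_two_pow_add_eq] at hj
      simpa using hj
    rw [if_pos hj, Nat.add_sub_cancel, cnt_add_two_pow]
    by_cases hik : i = k
    · subst hik
      simp [hk]
    · have : i + 2 ^ a ≠ k + 2 ^ a := by omega
      simp [hik]
  · rw [if_neg hj]
    by_cases hi : i.testBit a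
    · simp [hi]
    · have : i + 2 ^ a ≠ j := by
        rintro rfl
        rw [add_comm, Nat.testBit_two_pow_add_eq] at hj
        simp_all
      simp [hi, this]

theorem pushC_cons (a : ℕ) (p : ℕ × ℤ) (l : SV) :
    pushC a (p :: l) = bif tb p.1 a then
      (p.1 - 2 ^ a, bif par a p.1 then -p.2 else p.2) :: pushC a l else pushC a l := by
  have : pushC a (p :: l) = bif tb p.1 a then
      forceN (p.1 - 2 ^ a) fun j =>
        forceZ (bif par a p.1 then -p.2 else p.2) fun x => (j, x) :: pushC a l
      else pushC a l := rfl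
  rw [this, forceN_eq, forceZ_eq]

theorem den_pushC (a : ℕ) (l : SV) : den (pushC a l) = pc a (den l) := by
  induction l with
  | nil => simp [pushC, den]
  | cons p l ih =>
    rw [pushC_cons, tb_eq, den, map_add, pc_single, ← ih, ← par_eq]
    cases p.1.testBit a
    · simp
    · cases par a p.1 <;> simp [den]

theorem insAdd_cons (j : ℕ) (x : ℤ) (p : ℕ × ℤ) (l : SV) :
    insAdd j x (p :: l) = bif Nat.beq j p.1 then (j, x + p.2) :: l else p :: insAdd j x l := by
  have : insAdd j x (p :: l) = bif Nat.beq j p.1 then forceZ (x + p.2) fun y => (j, y) :: l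
    else p :: insAdd j x l := rfl
  rw [this, forceZ_eq]

theorem den_insAdd (j : ℕ) (x : ℤ) (l : SV) :
    den (insAdd j x l) = Pi.single j (x : ℝ) + den l := by
  induction l with
  | nil => simp [insAdd, den]
  | cons p l ih =>
    rw [insAdd_cons]
    cases h : Nat.beq j p.1
    · simp only [cond_false, den, ih]
      abel
    · have : j = p.1 := Nat.eq_of_beq_eq_true h
      subst this
      simp only [cond_true, den, Int.cast_add, Pi.single_add]
      abel

theorem addTo_cons (r : ℤ) (p : ℕ × ℤ) (l acc : SV) :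
    addTo r (p :: l) acc = insAdd p.1 (r * p.2) (addTo r l acc) := by
  have : addTo r (p :: l) acc = forceZ (r * p.2) fun y => insAdd p.1 y (addTo r l acc) := rfl
  rw [this, forceZ_eq]

theorem den_addTo (r : ℤ) (l acc : SV) : den (addTo r l acc) = (r : ℝ) • den l + den acc := by
  induction l with
  | nil => simp [addTo, den]
  | cons p l ih =>
    rw [addTo_cons, den_insAdd, ih, den, smul_add, ← Pi.single_smul]
    simp only [Int.cast_mul, smul_eq_mul]
    abel

theorem pushAux_succ (m : ℕ) (l : SV) (a : ℕ) :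
    pushAux m l (a + 1) = addTo ((a : ℤ) - ((m + 1 - a : ℕ) : ℤ))
      (pushC (m + 1 - a) (pushC a l)) (pushAux m l a) := by
  have : pushAux m l (a + 1) = forceN (m + 1 - a) fun b =>
    addTo ((a : ℤ) - (b : ℤ)) (pushC b (pushC a l)) (pushAux m l a) := rfl
  rw [this, forceN_eq]

theorem den_pushAux (m : ℕ) (l : SV) (n : ℕ) :
    den (pushAux m l n) =
      ∑ a ∈ range n, ((a : ℝ) - ((m + 1 - a : ℕ) : ℝ)) • pc (m + 1 - a) (pc a (den l)) := by
  induction n with
  | zero => simp [pushAux, den]
  | succ a ih =>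
    rw [pushAux_succ, den_addTo, ih, Finset.sum_range_succ, den_pushC, den_pushC, add_comm]
    simp

theorem den_pushA (m : ℕ) (l : SV) : den (pushA m l) = pairA pc m (den l) := by
  change den (pushAux m l (m + 2)) = _
  rw [den_pushAux, pairA, Finset.Nat.sum_antidiagonal_eq_sum_range_succ_mk]
  simp [LinearMap.sum_apply]

/-- sums over lists of entries -/
noncomputable def sumE (F : ℕ → ℕ → ℕ → ℤ → ℝ) (l : List Ent) : ℝ :=
  (l.map fun u => F u.m u.a u.j u.x).sum

theorem tag_cons (m a : ℕ) (p : ℕ × ℤ) (l : SV) (acc : List Ent) :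
    tag m a (p :: l) acc = ⟨m, a, p.1, p.2⟩ :: tag m a l acc := by
  have : tag m a (p :: l) acc = forceN p.1 fun j => forceZ p.2 fun x =>
    ⟨m, a, j, x⟩ :: tag m a l acc := rfl
  rw [this, forceN_eq, forceZ_eq]

theorem sumE_tag (F : ℕ → ℕ → ℕ → ℤ → ℝ) (m a : ℕ) (l : SV) (acc : List Ent) :
    sumE F (tag m a l acc) = (l.map fun p => F m a p.1 p.2).sum + sumE F acc := by
  induction l with
  | nil => simp [tag]
  | cons p l ih =>
    rw [tag_cons]
    simp only [sumE, List.map_cons, List.sum_cons] at ih ⊢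
    rw [ih, add_assoc]

theorem sumE_flatA (F : ℕ → ℕ → ℕ → ℤ → ℝ) (L : ℕ → SV) (m A : ℕ) (acc : List Ent) :
    sumE F (flatA L m A acc) =
      ∑ a ∈ range A, ((L a).map fun p => F m a p.1 p.2).sum + sumE F acc := by
  induction A with
  | zero => simp [flatA]
  | succ a ih =>
    change sumE F (tag m a (L a) (flatA L m a acc)) = _
    rw [sumE_tag, ih, Finset.sum_range_succ]
    ring

theorem sumE_flatM (F : ℕ → ℕ → ℕ → ℤ → ℝ) (L : ℕ → ℕ → SV) (A n : ℕ) :
    sumE F (flatM L A n) =
      ∑ m ∈ range n, ∑ a ∈ range A, ((L m a).map fun p => F m a p.1 p.2).sum := by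
  induction n with
  | zero => simp [flatM, sumE]
  | succ m ih =>
    change sumE F (flatA (L m) m A (flatM L A m)) = _
    rw [sumE_flatA, ih, Finset.sum_range_succ]
    ring

theorem ipRow_eq (C : ℕ → ℕ → ℕ → ℕ → ℤ) (m a j : ℕ) (l : List Ent) :
    (ipRow C m a j l : ℝ) =
      sumE (fun n b k y => if j = k then (C m a n b : ℝ) * y else 0) l := by
  induction l with
  | nil => simp [ipRow, sumE]
  | cons v l ih =>
    obtain ⟨n, b, k, y⟩ := v
    have : ipRow C m a j (⟨n, b, k, y⟩ :: l) =
        bif Nat.beq j k then C m a n b * y + ipRow C m a j l else ipRow C m a j l := rfl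
    rw [this]
    simp only [sumE, List.map_cons, List.sum_cons] at ih ⊢
    cases h : Nat.beq j k
    · have : j ≠ k := Nat.ne_of_beq_eq_false h
      simp [this, ih]
    · have : j = k := Nat.eq_of_beq_eq_true h
      subst this
      simp [ih]

theorem ipAll_eq (C : ℕ → ℕ → ℕ → ℕ → ℤ) (r l : List Ent) :
    (ipAll C r l : ℝ) = sumE (fun m a j x => (wF 9 j : ℝ) * x * ipRow C m a j r) l := by
  induction l with
  | nil => simp [ipAll, sumE]
  | cons v l ih =>
    obtain ⟨m, a, j, x⟩ := v
    have : ipAll C r (⟨m, a, j, x⟩ :: l) =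
        wF 9 j * x * ipRow C m a j r + ipAll C r l := rfl
    rw [this]
    simp only [sumE, List.map_cons, List.sum_cons] at ih ⊢
    simp [ih]

theorem den_apply (l : SV) (j : ℕ) (c : ℝ) :
    c * den l j = (l.map fun q => if j = q.1 then c * (q.2 : ℝ) else 0).sum := by
  induction l with
  | nil => simp [den]
  | cons p l ih =>
    simp only [den, Pi.add_apply, mul_add, ih, List.map_cons, List.sum_cons, Pi.single_apply]
    split_ifs <;> simp

theorem sum_den (K : ℕ) (l : SV) (hl : ∀ p ∈ l, p.1 < K) (h : ℕ → ℝ) :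
    ∑ i ∈ range K, den l i * h i = (l.map fun p => (p.2 : ℝ) * h p.1).sum := by
  induction l with
  | nil => simp [den]
  | cons p l ih =>
    have hp := hl p (by simp)
    simp only [den, Pi.add_apply, add_mul, Finset.sum_add_distrib, List.map_cons, List.sum_cons]
    rw [ih fun q hq => hl q (by simp [hq])]
    congr 1
    rw [Finset.sum_eq_single p.1]
    · simp
    · intro b _ hb
      simp [hb]
    · intro h'
      exact absurd (Finset.mem_range.mpr hp) h'

/-- the basic bilinear expression -/
noncomputable def bf (w : ℕ → ℝ) (C : ℕ → ℕ → ℕ → ℕ → ℝ) (A : ℕ) (u v : ℕ → ℕ → ℕ → ℝ) : ℝ :=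
  ∑ i ∈ range 512, w i * ∑ m ∈ range 8, ∑ a ∈ range A, ∑ n ∈ range 8, ∑ b ∈ range A,
    C m a n b * (u m a i * v n b i)

theorem mem_flatA {L : ℕ → SV} {m A a : ℕ} {acc : List Ent} {p : ℕ × ℤ} :
    (a < A ∧ p ∈ L a → (⟨m, a, p.1, p.2⟩ : Ent) ∈ flatA L m A acc) ∧
      ∀ u ∈ acc, u ∈ flatA L m A acc := by
  have htag : ∀ (a : ℕ) (l : SV) (acc : List Ent),
      (∀ p ∈ l, (⟨m, a, p.1, p.2⟩ : Ent) ∈ tag m a l acc) ∧ ∀ u ∈ acc, u ∈ tag m a l acc := by
    intro a l acc
    induction l with
    | nil => exact ⟨by simp, fun u hu => hu⟩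
    | cons q l ih =>
      rw [tag_cons]
      refine ⟨fun p hp => ?_, fun u hu => List.mem_cons_of_mem _ (ih.2 u hu)⟩
      rcases List.mem_cons.mp hp with rfl | hp
      · exact List.mem_cons_self
      · exact List.mem_cons_of_mem _ (ih.1 p hp)
  induction A with
  | zero => exact ⟨by simp, fun u hu => hu⟩
  | succ A ih =>
    have e : flatA L m (A + 1) acc = tag m A (L A) (flatA L m A acc) := rfl
    rw [e]
    refine ⟨fun h => ?_, fun u hu => (htag _ _ _).2 u (ih.2 u hu)⟩
    rcases Nat.lt_succ_iff_lt_or_eq.mp h.1 with h1 | h1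
    · exact (htag _ _ _).2 _ (ih.1 ⟨h1, h.2⟩)
    · subst h1
      exact (htag _ _ _).1 p h.2

theorem mem_flatM {L : ℕ → ℕ → SV} {A n m a : ℕ} {p : ℕ × ℤ} (hm : m < n) (ha : a < A)
    (hp : p ∈ L m a) : (⟨m, a, p.1, p.2⟩ : Ent) ∈ flatM L A n := by
  induction n with
  | zero => omega
  | succ n ih =>
    have e : flatM L A (n + 1) = flatA (L n) n A (flatM L A n) := rfl
    rw [e]
    rcases Nat.lt_succ_iff_lt_or_eq.mp hm with h1 | h1
    · exact (mem_flatA (a := a) (p := p)).2 _ (ih h1)
    · subst h1
      exact mem_flatA.1 ⟨ha, hp⟩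

theorem bf_den (C : ℕ → ℕ → ℕ → ℕ → ℤ) (A : ℕ) (L L' : ℕ → ℕ → SV)
    (hL : ∀ u ∈ flatM L A 8, u.j < 512) :
    bf (fun i => (wF 9 i : ℝ)) (fun m a n b => (C m a n b : ℝ)) A
      (fun m a => den (L m a)) (fun m a => den (L' m a)) =
      ipAll C (flatM L' A 8) (flatM L A 8) := by
  rw [ipAll_eq, sumE_flatM, bf]
  simp only [Finset.mul_sum]
  rw [Finset.sum_comm]
  refine Finset.sum_congr rfl fun m hm => ?_
  rw [Finset.sum_comm]
  refine Finset.sum_congr rfl fun a ha => ?_
  have h1 := sum_den 512 (L m a)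
    (fun p hp => hL _ (mem_flatM (Finset.mem_range.mp hm) (Finset.mem_range.mp ha) hp))
    (fun i => (wF 9 i : ℝ) * ipRow C m a i (flatM L' A 8))
  have h2 : ((L m a).map fun p => (wF 9 p.1 : ℝ) * p.2 * ipRow C m a p.1 (flatM L' A 8)) =
      (L m a).map fun p => (p.2 : ℝ) * ((wF 9 p.1 : ℝ) * ipRow C m a p.1 (flatM L' A 8)) := by
    apply List.map_congr_left
    intro p _
    ring
  rw [h2, ← h1]
  refine Finset.sum_congr rfl fun i _ => ?_
  rw [ipRow_eq, sumE_flatM]
  simp only [Finset.mul_sum]
  refine Finset.sum_congr rfl fun n _ => Finset.sum_congr rfl fun b _ => ?_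
  rw [← den_apply]
  ring

theorem ipAll_eq_zero (C : ℕ → ℕ → ℕ → ℕ → ℤ) (hC : ∀ m a n b, m + a ≠ n + b → C m a n b = 0)
    {k k' sh : ℕ} (hk : k ≠ k') {l l' : List Ent} (h : gradeOK k sh l = true)
    (h' : gradeOK k' sh l' = true) : (ipAll C l' l : ℝ) = 0 := by
  rw [ipAll_eq, sumE]
  apply List.sum_eq_zero
  intro t ht
  obtain ⟨u, hu, rfl⟩ := List.mem_map.mp ht
  rw [ipRow_eq, sumE, List.sum_eq_zero, mul_zero]
  intro t ht
  obtain ⟨v, hv, rfl⟩ := List.mem_map.mp ht
  have h1 := List.all_eq_true.mp h u hu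
  have h2 := List.all_eq_true.mp h' v hv
  simp only [Bool.and_eq_true, Nat.beq_eq] at h1 h2
  split_ifs with hj
  · rw [hC, Int.cast_zero, zero_mul]
    intro he
    apply hk
    rw [← h1.1, ← h2.1, hj]
    omega
  · rfl

theorem gradeOK_lt {k sh : ℕ} {l : List Ent} (h : gradeOK k sh l = true) : ∀ u ∈ l, u.j < 512 := by
  intro u hu
  have h1 := List.all_eq_true.mp h u hu
  simp only [Bool.and_eq_true, Nat.blt_eq] at h1
  exact h1.2

/-! The elimination. -/

noncomputable def dot : List ℤ → List ℝ → ℝ
  | r :: l, x :: y => r * x + dot l y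
  | _, _ => 0

noncomputable def quadAux (z : List ℝ) : List (List ℤ) → List ℝ → ℝ
  | r :: M, x :: y => x * dot r z + quadAux z M y
  | _, _ => 0

theorem dot_elimRow (p r : ℤ) (l b : List ℤ) (h : l.length = b.length) (z : List ℝ) :
    dot (elimRow p r l b) z = p * dot l z - r * dot b z := by
  induction l generalizing b z with
  | nil =>
    cases b with
    | nil => simp [elimRow, dot]
    | cons _ _ => simp at h
  | cons x l ih =>
    cases b with
    | nil => simp at h
    | cons y b =>
      cases z with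
      | nil => simp [elimRow, dot]
      | cons t z =>
        simp only [elimRow, dot, ih b (by simpa using h)]
        push_cast
        ring

theorem quadAux_shape (p : ℤ) (b : List ℤ) (x0 : ℝ) (z : List ℝ) (M : List (List ℤ))
    (c : List ℤ) (h : shapeOK b.length M c = true) (y : List ℝ) :
    quadAux (x0 :: z) M y = x0 * dot c y + quadAux z (M.map List.tail) y ∧
    quadAux z (M.map fun r => elimRow p (r.headD 0) r.tail b) y =
      p * quadAux z (M.map List.tail) y - dot c y * dot b z := by
  induction M generalizing c y with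
  | nil =>
    cases c with
    | nil => simp [quadAux, dot]
    | cons _ _ => simp [shapeOK] at h
  | cons r M ih =>
    cases r with
    | nil => simp [shapeOK] at h
    | cons r l =>
      cases c with
      | nil => simp [shapeOK] at h
      | cons s c =>
        simp only [shapeOK, Bool.and_eq_true, beq_iff_eq] at h
        obtain ⟨⟨rfl, hl⟩, h3⟩ := h
        cases y with
        | nil => simp [quadAux, dot]
        | cons t y =>
          obtain ⟨i1, i2⟩ := ih c h3 y
          simp only [quadAux, dot, List.map_cons, List.tail_cons, List.headD_cons, i1, i2,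
            dot_elimRow p r l b hl]
          constructor <;> ring

theorem dot_zero (b : List ℤ) (h : b.all (· == 0) = true) (z : List ℝ) : dot b z = 0 := by
  induction b generalizing z with
  | nil => simp [dot]
  | cons x b ih =>
    simp only [List.all_cons, Bool.and_eq_true, beq_iff_eq] at h
    cases z with
    | nil => simp [dot]
    | cons t z => simp [dot, h.1, ih h.2]

theorem psd_sound (n : ℕ) (M : List (List ℤ)) (h : psd n M = true) (x : List ℝ) :
    0 ≤ quadAux x M x := by
  induction n generalizing M x with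
  | zero =>
    cases M with
    | nil => simp [quadAux]
    | cons _ _ => simp [psd] at h
  | succ n ih =>
    cases M with
    | nil => simp [quadAux]
    | cons r M =>
      cases r with
      | nil => simp [psd] at h
      | cons p b =>
        cases x with
        | nil => simp [quadAux]
        | cons x0 z =>
          simp only [psd, Bool.and_eq_true] at h
          obtain ⟨h1, h2⟩ := h
          obtain ⟨e1, e2⟩ := quadAux_shape p b x0 z M b h1 z
          simp only [quadAux, dot, e1]
          split_ifs at h2 with hp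
          · have h3 := ih _ h2 z
            rw [e2] at h3
            have hp' : (0 : ℝ) < p := by exact_mod_cast hp
            have : 0 ≤ (p : ℝ) * (x0 * (p * x0 + dot b z) +
                (x0 * dot b z + quadAux z (M.map List.tail) z)) := by
              nlinarith [sq_nonneg ((p : ℝ) * x0 + dot b z)]
            exact nonneg_of_mul_nonneg_right this hp'
          · simp only [Bool.and_eq_true, beq_iff_eq] at h2
            obtain ⟨⟨rfl, h4⟩, h5⟩ := h2
            have h3 := ih _ h5 z
            rw [dot_zero b h4]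
            simpa using h3

theorem dot_map (F : ℕ → ℤ) (g : ℕ → ℝ) (B : List ℕ) :
    dot (B.map F) (B.map g) = (B.map fun T => (F T : ℝ) * g T).sum := by
  induction B with
  | nil => simp [dot]
  | cons T B ih => simp [dot, ih]

theorem quadAux_map (z : List ℝ) (R : ℕ → List ℤ) (g : ℕ → ℝ) (B : List ℕ) :
    quadAux z (B.map R) (B.map g) = (B.map fun S => g S * dot (R S) z).sum := by
  induction B with
  | nil => simp [quadAux]
  | cons T B ih => simp [quadAux, ih]

theorem sum_block (k : ℕ) (F : ℕ → ℝ) :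
    ((block k).map F).sum = ∑ i ∈ (range 512).filter (fun i => key i = k), F i := by
  have : (range 512).filter (fun i => key i = k) = (block k).toFinset := by
    ext i
    simp [block]
  rw [this, List.sum_toFinset]
  exact (List.nodup_range).filter _

theorem checkKey_sound {k : ℕ} (h : checkKey k = true) (g : ℕ → ℝ) :
    0 ≤ ∑ S ∈ (range 512).filter (fun i => key i = k),
      ∑ T ∈ (range 512).filter (fun i => key i = k), g S * g T * mEnt S T := by
  simp only [checkKey, Bool.and_eq_true] at h
  have := psd_sound _ _ h.2 ((block k).map g)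
  rw [quadAux_map, sum_block] at this
  convert this using 2 with S _
  rw [dot_map, sum_block, Finset.mul_sum]
  refine Finset.sum_congr rfl fun T _ => ?_
  ring

theorem checkKey_grade {S : ℕ} (hS : S < 512) (h : checkKey (key S) = true) :
    gradeOK (key S) 129 (fl1 S) = true ∧ gradeOK (key S) 193 (fl2 S) = true ∧
      gradeOK (key S) 258 (fl3 S) = true := by
  simp only [checkKey, Bool.and_eq_true] at h
  have := List.all_eq_true.mp h.1 S (by simp [block, hS])
  simpa [and_assoc] using this

theorem mEnt_nonneg (hall : ∀ S < 512, checkKey (key S) = true) (g : ℕ → ℝ) :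
    0 ≤ ∑ S ∈ range 512, ∑ T ∈ range 512, g S * g T * mEnt S T := by
  rw [← Finset.sum_fiberwise_of_maps_to (s := range 512) (t := (range 512).image key) (g := key)
    (fun x hx => Finset.mem_image_of_mem _ hx)]
  apply Finset.sum_nonneg
  intro k hk
  obtain ⟨S0, hS0, rfl⟩ := Finset.mem_image.mp hk
  have := checkKey_sound (hall S0 (Finset.mem_range.mp hS0)) g
  refine this.trans_eq (Finset.sum_congr rfl fun S hS => ?_)
  obtain ⟨hS1, hS2⟩ := Finset.mem_filter.mp hS
  rw [Finset.sum_filter]
  refine Finset.sum_congr rfl fun T hT => ?_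
  split_ifs with hT2
  · rfl
  · have g1 := checkKey_grade (Finset.mem_range.mp hS1) (hall S (Finset.mem_range.mp hS1))
    have g2 := checkKey_grade (Finset.mem_range.mp hT) (hall T (Finset.mem_range.mp hT))
    have hne : key S ≠ key T := by
      rw [hS2]
      exact fun h => hT2 h.symm
    have e : (mEnt S T : ℝ) = ipAll cc1 (fl1 T) (fl1 S) +
        (ipAll cc2 (fl2 T) (fl2 S) + ipAll cc3 (fl3 T) (fl3 S)) := by
      have : mEnt S T = ipAll cc1 (fl1 T) (fl1 S) +
        (ipAll cc2 (fl2 T) (fl2 S) + ipAll cc3 (fl3 T) (fl3 S)) := rfl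
      rw [this]
      push_cast
      rfl
    have hb : ∀ m a n b : ℕ, m + a ≠ n + b → Nat.beq (Nat.add m a) (Nat.add n b) = false := by
      intro m a n b h
      cases h' : Nat.beq (Nat.add m a) (Nat.add n b)
      · rfl
      · exact absurd (Nat.eq_of_beq_eq_true h') h
    rw [e, ipAll_eq_zero cc1 (fun m a n b h => by rw [cc1, hb m a n b h]; rfl) hne g1.1 g2.1,
      ipAll_eq_zero cc2 (fun m a n b h => by rw [cc2, hb m a n b h]; rfl) hne g1.2.1 g2.2.1,
      ipAll_eq_zero cc3 (fun m a n b h => by rw [cc3, hb m a n b h]; rfl) hne g1.2.2 g2.2.2]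
    simp

end Vale.Agent.P359
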