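import Vale.Agent.P359.Cert

namespace Vale.Agent.P359

set_option maxRecDepth 100000

theorem ck0 : checkKey 0 = true := by decide +kernel

theorem ck65 : checkKey 65 = true := by decide +kernel

theorem ck69 : checkKey 69 = true := by decide +kernel

theorem ck129 : checkKey 129 = true := by decide +kernel

theorem ck132 : checkKey 132 = true := by decide +kernel

theorem ck134 : checkKey 134 = true := by decide +kernel

theorem ck137 : checkKey 137 = true := by decide +kernel

theorem ck196 : checkKey 196 = true := by decide +kernel

theorem ck201 : checkKey 201 = true := by decide +kernel

theorem ck204 : checkKey 204 = true := by decide +kernel

theorem ck207 : checkKey 207 = true := by decide +kernel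

theorem ck210 : checkKey 210 = true := by decide +kernel

theorem ck265 : checkKey 265 = true := by decide +kernel

theorem ck271 : checkKey 271 = true := by decide +kernel

theorem ck275 : checkKey 275 = true := by decide +kernel

theorem ck276 : checkKey 276 = true := by decide +kernel

theorem ck278 : checkKey 278 = true := by decide +kernel

theorem ck282 : checkKey 282 = true := by decide +kernel

theorem ck330 : checkKey 330 = true := by decide +kernel

theorem ck336 : checkKey 336 = true := by decide +kernel

theorem ck339 : checkKey 339 = true := by decide +kernel

theorem ck345 : checkKey 345 = true := by decide +kernel

theorem ck350 : checkKey 350 = true := by decide +kernel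

theorem ck406 : checkKey 406 = true := by decide +kernel

theorem ck407 : checkKey 407 = true := by decide +kernel

theorem ck412 : checkKey 412 = true := by decide +kernel

theorem ck415 : checkKey 415 = true := by decide +kernel

theorem ck476 : checkKey 476 = true := by decide +kernel

theorem ck480 : checkKey 480 = true := by decide +kernel

theorem ck483 : checkKey 483 = true := by decide +kernel

theorem ck542 : checkKey 542 = true := by decide +kernel

theorem ck546 : checkKey 546 = true := by decide +kernel

theorem ck612 : checkKey 612 = true := by decide +kernel

end Vale.Agent.P359
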