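import Vale.Agent.P359.Cert

namespace Vale.Agent.P359

set_option maxRecDepth 100000

theorem ck64 : checkKey 64 = true := by decide +kernel

theorem ck66 : checkKey 66 = true := by decide +kernel

theorem ck70 : checkKey 70 = true := by decide +kernel

theorem ck130 : checkKey 130 = true := by decide +kernel

theorem ck139 : checkKey 139 = true := by decide +kernel

theorem ck141 : checkKey 141 = true := by decide +kernel

theorem ck203 : checkKey 203 = true := by decide +kernel

theorem ck209 : checkKey 209 = true := by decide +kernel

theorem ck211 : checkKey 211 = true := by decide +kernel

theorem ck263 : checkKey 263 = true := by decide +kernel

theorem ck264 : checkKey 264 = true := by decide +kernel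

theorem ck266 : checkKey 266 = true := by decide +kernel

theorem ck268 : checkKey 268 = true := by decide +kernel

theorem ck270 : checkKey 270 = true := by decide +kernel

theorem ck274 : checkKey 274 = true := by decide +kernel

theorem ck279 : checkKey 279 = true := by decide +kernel

theorem ck331 : checkKey 331 = true := by decide +kernel

theorem ck334 : checkKey 334 = true := by decide +kernel

theorem ck341 : checkKey 341 = true := by decide +kernel

theorem ck348 : checkKey 348 = true := by decide +kernel

theorem ck400 : checkKey 400 = true := by decide +kernel

theorem ck401 : checkKey 401 = true := by decide +kernel

theorem ck403 : checkKey 403 = true := by decide +kernel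

theorem ck408 : checkKey 408 = true := by decide +kernel

theorem ck410 : checkKey 410 = true := by decide +kernel

theorem ck473 : checkKey 473 = true := by decide +kernel

theorem ck477 : checkKey 477 = true := by decide +kernel

theorem ck479 : checkKey 479 = true := by decide +kernel

theorem ck481 : checkKey 481 = true := by decide +kernel

theorem ck482 : checkKey 482 = true := by decide +kernel

theorem ck541 : checkKey 541 = true := by decide +kernel

theorem ck545 : checkKey 545 = true := by decide +kernel

end Vale.Agent.P359
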