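import Vale.Agent.P359.Cert

namespace Vale.Agent.P359

set_option maxRecDepth 100000

theorem ck67 : checkKey 67 = true := by decide +kernel

theorem ck71 : checkKey 71 = true := by decide +kernel

theorem ck135 : checkKey 135 = true := by decide +kernel

theorem ck138 : checkKey 138 = true := by decide +kernel

theorem ck140 : checkKey 140 = true := by decide +kernel

theorem ck142 : checkKey 142 = true := by decide +kernel

theorem ck197 : checkKey 197 = true := by decide +kernel

theorem ck199 : checkKey 199 = true := by decide +kernel

theorem ck202 : checkKey 202 = true := by decide +kernel

theorem ck212 : checkKey 212 = true := by decide +kernel

theorem ck262 : checkKey 262 = true := by decide +kernel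

theorem ck269 : checkKey 269 = true := by decide +kernel

theorem ck272 : checkKey 272 = true := by decide +kernel

theorem ck277 : checkKey 277 = true := by decide +kernel

theorem ck332 : checkKey 332 = true := by decide +kernel

theorem ck335 : checkKey 335 = true := by decide +kernel

theorem ck337 : checkKey 337 = true := by decide +kernel

theorem ck342 : checkKey 342 = true := by decide +kernel

theorem ck343 : checkKey 343 = true := by decide +kernel

theorem ck347 : checkKey 347 = true := by decide +kernel

theorem ck349 : checkKey 349 = true := by decide +kernel

theorem ck399 : checkKey 399 = true := by decide +kernel

theorem ck409 : checkKey 409 = true := by decide +kernel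

theorem ck411 : checkKey 411 = true := by decide +kernel

theorem ck413 : checkKey 413 = true := by decide +kernel

theorem ck417 : checkKey 417 = true := by decide +kernel

theorem ck470 : checkKey 470 = true := by decide +kernel

theorem ck472 : checkKey 472 = true := by decide +kernel

theorem ck478 : checkKey 478 = true := by decide +kernel

theorem ck540 : checkKey 540 = true := by decide +kernel

theorem ck544 : checkKey 544 = true := by decide +kernel

theorem ck548 : checkKey 548 = true := by decide +kernel

end Vale.Agent.P359
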