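import Vale.Agent.P359.Cert

namespace Vale.Agent.P359

set_option maxRecDepth 100000

theorem ck68 : checkKey 68 = true := by decide +kernel

theorem ck72 : checkKey 72 = true := by decide +kernel

theorem ck131 : checkKey 131 = true := by decide +kernel

theorem ck133 : checkKey 133 = true := by decide +kernel

theorem ck136 : checkKey 136 = true := by decide +kernel

theorem ck143 : checkKey 143 = true := by decide +kernel

theorem ck195 : checkKey 195 = true := by decide +kernel

theorem ck198 : checkKey 198 = true := by decide +kernel

theorem ck200 : checkKey 200 = true := by decide +kernel

theorem ck205 : checkKey 205 = true := by decide +kernel

theorem ck206 : checkKey 206 = true := by decide +kernel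

theorem ck208 : checkKey 208 = true := by decide +kernel

theorem ck213 : checkKey 213 = true := by decide +kernel

theorem ck267 : checkKey 267 = true := by decide +kernel

theorem ck273 : checkKey 273 = true := by decide +kernel

theorem ck280 : checkKey 280 = true := by decide +kernel

theorem ck281 : checkKey 281 = true := by decide +kernel

theorem ck333 : checkKey 333 = true := by decide +kernel

theorem ck338 : checkKey 338 = true := by decide +kernel

theorem ck340 : checkKey 340 = true := by decide +kernel

theorem ck344 : checkKey 344 = true := by decide +kernel

theorem ck346 : checkKey 346 = true := by decide +kernel

theorem ck402 : checkKey 402 = true := by decide +kernel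

theorem ck404 : checkKey 404 = true := by decide +kernel

theorem ck405 : checkKey 405 = true := by decide +kernel

theorem ck414 : checkKey 414 = true := by decide +kernel

theorem ck416 : checkKey 416 = true := by decide +kernel

theorem ck469 : checkKey 469 = true := by decide +kernel

theorem ck471 : checkKey 471 = true := by decide +kernel

theorem ck474 : checkKey 474 = true := by decide +kernel

theorem ck475 : checkKey 475 = true := by decide +kernel

theorem ck543 : checkKey 543 = true := by decide +kernel

theorem ck547 : checkKey 547 = true := by decide +kernel

end Vale.Agent.P359
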