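import Vale.Agent.P359.Check0
import Vale.Agent.P359.Check1
import Vale.Agent.P359.Check2
import Vale.Agent.P359.Check3

namespace Vale.Agent.P359

set_option maxRecDepth 100000

def keyList : List ℕ :=
  [0, 64, 65, 66, 67, 68, 69, 70, 71, 72, 129, 130, 131, 132, 133, 134, 135, 136, 137, 138, 139, 140, 141, 142, 143, 195, 196, 197, 198, 199, 200, 201, 202, 203, 204, 205, 206, 207, 208, 209, 210, 211, 212, 213, 262, 263, 264, 265, 266, 267, 268, 269, 270, 271, 272, 273, 274, 275, 276, 277, 278, 279, 280, 281, 282, 330, 331, 332, 333, 334, 335, 336, 337, 338, 339, 340, 341, 342, 343, 344, 345, 346, 347, 348, 349, 350, 399, 400, 401, 402, 403, 404, 405, 406, 407, 408, 409, 410, 411, 412, 413, 414, 415, 416, 417, 469, 470, 471, 472, 473, 474, 475, 476, 477, 478, 479, 480, 481, 482, 483, 540, 541, 542, 543, 544, 545, 546, 547, 548, 612]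

theorem key_mem : ∀ S < 512, key S ∈ keyList := by decide +kernel

theorem keyList_ok : ∀ k ∈ keyList, checkKey k = true := by
  unfold keyList
  simp only [List.forall_mem_cons]
  exact ⟨ck0, ck64, ck65, ck66, ck67, ck68, ck69, ck70, ck71, ck72, ck129, ck130, ck131, ck132, ck133, ck134, ck135, ck136, ck137, ck138, ck139, ck140, ck141, ck142, ck143, ck195, ck196, ck197, ck198, ck199, ck200, ck201, ck202, ck203, ck204, ck205, ck206, ck207, ck208, ck209, ck210, ck211, ck212, ck213, ck262, ck263, ck264, ck265, ck266, ck267, ck268, ck269, ck270, ck271, ck272, ck273, ck274, ck275, ck276, ck277, ck278, ck279, ck280, ck281, ck282, ck330, ck331, ck332, ck333, ck334, ck335, ck336, ck337, ck338, ck339, ck340, ck341, ck342, ck343, ck344, ck345, ck346, ck347, ck348, ck349, ck350, ck399, ck400, ck401, ck402, ck403, ck404, ck405, ck406, ck407, ck408, ck409, ck410, ck411, ck412, ck413, ck414, ck415, ck416, ck417, ck469, ck470, ck471, ck472, ck473, ck474, ck475, ck476, ck477, ck478, ck479, ck480, ck481, ck482, ck483, ck540, ck541, ck542, ck543,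 ck544, ck545, ck546, ck547, ck548, ck612, by simp⟩

theorem check_all : ∀ S < 512, checkKey (key S) = true := fun S hS =>
  keyList_ok _ (key_mem S hS)

end Vale.Agent.P359
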