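import Mathlib

namespace Vale.Agent.P359

open Finset Polynomial

theorem sumSq_coeff_theta (P : ℝ[X]) (a : ℕ) :
    (X * derivative P).coeff a = (a : ℝ) * P.coeff a := by
  cases a with
  | zero => simp
  | succ a => rw [coeff_X_mul, coeff_derivative]; push_cast; ring

theorem sum_sq_choose (Q m : ℕ) (hQ : 1 ≤ Q) :
    ∑ p ∈ antidiagonal (m + 1), ((p.1 : ℝ) - p.2) ^ 2 * (Q.choose p.1 * Q.choose p.2)
      = 2 * Q * ((2 * Q - 2).choose m) := by
  obtain ⟨q, rfl⟩ : ∃ q, Q = q + 1 := ⟨Q - 1, by omega⟩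
  set B : ℝ[X] := (1 + X) ^ q with hB
  set A : ℝ[X] := (1 + X) ^ (q + 1) with hA
  have hD : (1 + X) * derivative B = (q : ℝ[X]) * B := by
    rw [hB, derivative_pow]
    cases q with
    | zero => simp
    | succ q => simp [pow_succ]; ring
  have hAB : A = (1 + X) * B := by rw [hA, hB, pow_succ]; ring
  have h1 : X * derivative A = X * (((q : ℝ[X]) + 1) * B) := by
    rw [hAB, derivative_mul]
    simp only [derivative_add, derivative_one, derivative_X, zero_add, one_mul, hD]
    ring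
  have h2 : X * derivative (X * derivative A) * A * 2 - X * derivative A * (X * derivative A) * 2
      = X * (C (2 * ((q : ℝ) + 1)) * (1 + X) ^ (2 * q)) := by
    rw [h1]
    have e : (1 + X : ℝ[X]) ^ (2 * q) = B * B := by rw [hB, two_mul, pow_add]
    rw [e, hAB]
    simp only [derivative_mul, derivative_add, derivative_one, derivative_X, derivative_natCast,
      map_mul, map_add, map_natCast, map_one, C_ofNat]
    linear_combination (2 * X ^ 2 * ((q : ℝ[X]) + 1) * B) * hD
  have h3 := congrArg (fun P => P.coeff (m + 1)) h2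
  simp only [coeff_sub, coeff_mul_ofNat, coeff_X_mul, coeff_C_mul, coeff_one_add_X_pow] at h3
  rw [coeff_mul, coeff_mul] at h3
  simp only [sumSq_coeff_theta, hA, coeff_one_add_X_pow] at h3
  have e2 : 2 * (q + 1) - 2 = 2 * q := by omega
  rw [e2]
  push_cast
  rw [← h3]
  have h4 : ∑ p ∈ antidiagonal (m + 1), (p.2 : ℝ) ^ 2 * ((q + 1).choose p.1 * (q + 1).choose p.2)
      = ∑ p ∈ antidiagonal (m + 1), (p.1 : ℝ) ^ 2 * ((q + 1).choose p.1 * (q + 1).choose p.2) := by
    rw [← Finset.Nat.sum_antidiagonal_swap]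
    exact Finset.sum_congr rfl (fun p _ => by simp [mul_comm])
  have h5 : ∀ p : ℕ × ℕ, ((p.1 : ℝ) - p.2) ^ 2 * ((q + 1).choose p.1 * (q + 1).choose p.2)
      = (p.1 : ℝ) ^ 2 * ((q + 1).choose p.1 * (q + 1).choose p.2)
        + (p.2 : ℝ) ^ 2 * ((q + 1).choose p.1 * (q + 1).choose p.2)
        - (p.1 * (q + 1).choose p.1 * (p.2 * (q + 1).choose p.2)) * 2 := fun p => by ring
  simp only [h5, Finset.sum_sub_distrib, Finset.sum_add_distrib, h4, ← Finset.sum_mul]
  congr 1
  rw [mul_two]
  congr 1 <;> exact Finset.sum_congr rfl (fun p _ => by ring)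

end Vale.Agent.P359
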