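import Vale.Agent.P359.Limits
import Vale.Agent.P359.SumSq

/-! Algebra of the canonical anticommutation relations. -/

namespace Vale.Agent.P359

open Finset

set_option linter.unusedSectionVars false

variable {H : Type} [NormedAddCommGroup H] [InnerProductSpace ℝ H] [FiniteDimensional ℝ H]
variable {Q : ℕ} {c : ℕ → Module.End ℝ H}

theorem inner_star_left (X : Module.End ℝ H) (f g : H) :
    inner ℝ (star X f) g = inner ℝ f (X g) := LinearMap.adjoint_inner_left X g f

theorem inner_star_right (X : Module.End ℝ H) (f g : H) :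
    inner ℝ f (star X g) = inner ℝ (X f) g := LinearMap.adjoint_inner_right X f g

theorem IsCAR.mixed' (hc : IsCAR Q c) (a b : ℕ) :
    c a * star (c b) = (if a = b then uu Q Q a else 0) • (1 : Module.End ℝ H) -
      star (c b) * c a := by
  have := hc.mixed a b
  rw [← LinearMap.star_eq_adjoint] at this
  rw [eq_sub_iff_add_eq, this]
  split_ifs <;> simp

theorem IsCAR.eq_zero (hc : IsCAR Q c) {a : ℕ} (ha : Q < a) : c a = 0 := by
  ext f
  have h := hc.mixed' a a
  rw [uu_eq_zero _ ha] at h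
  simp only [if_true, zero_smul, zero_sub] at h
  have h1 : inner ℝ f ((c a * star (c a)) f) = inner ℝ f ((-(star (c a) * c a)) f) := by rw [h]
  rw [Module.End.mul_apply, LinearMap.neg_apply, Module.End.mul_apply, inner_neg_right,
    inner_star_right, ← inner_star_left] at h1
  have h2 : 0 ≤ inner ℝ (star (c a) f) (star (c a) f) := real_inner_self_nonneg
  have h3 : 0 ≤ inner ℝ (c a f) (c a f) := real_inner_self_nonneg
  have h4 : inner ℝ (c a f) (c a f) = 0 := by linarith
  simpa using h4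

/-- commutator -/
def br (J X : Module.End ℝ H) : Module.End ℝ H := X * J - J * X

theorem br_mul (J X Y : Module.End ℝ H) : br J (X * Y) = X * br J Y + br J X * Y := by
  simp only [br]
  noncomm_ring

theorem br_smul (J X : Module.End ℝ H) (r : ℝ) : br J (r • X) = r • br J X := by
  simp only [br, smul_sub, smul_mul_assoc, mul_smul_comm]

theorem br_sum {ι : Type} (J : Module.End ℝ H) (s : Finset ι) (X : ι → Module.End ℝ H) :
    br J (∑ i ∈ s, X i) = ∑ i ∈ s, br J (X i) := by
  simp only [br, Finset.sum_mul, Finset.mul_sum, Finset.sum_sub_distrib]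

theorem br_zero (J : Module.End ℝ H) : br J 0 = 0 := by simp [br]

theorem br_star (J X : Module.End ℝ H) : br J (star X) = -star (br (star J) X) := by
  simp [br]

theorem br_sum_left {ι : Type} (X : Module.End ℝ H) (s : Finset ι) (r : ι → ℝ)
    (J : ι → Module.End ℝ H) :
    br (∑ i ∈ s, r i • J i) X = ∑ i ∈ s, r i • br (J i) X := by
  simp only [br, Finset.sum_mul, Finset.mul_sum, smul_sub, Finset.sum_sub_distrib,
    smul_mul_assoc, mul_smul_comm]

theorem IsCAR.br_basic (hc : IsCAR Q c) (a b e : ℕ) :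
    br (star (c a) * c e) (c b) = (if b = a then uu Q Q b else 0) • c e := by
  simp only [br]
  rw [← mul_assoc, hc.mixed' b a, sub_mul, smul_mul_assoc, one_mul, mul_assoc, hc.anti b e,
    mul_assoc]
  simp

/-- lowering operator -/
noncomputable def Jm (Q : ℕ) (c : ℕ → Module.End ℝ H) : Module.End ℝ H :=
  ∑ a ∈ range Q, (((a : ℝ) + 1) * wt Q Q a) • (star (c a) * c (a + 1))

theorem star_Jm : star (Jm Q c) =
    ∑ a ∈ range Q, (((a : ℝ) + 1) * wt Q Q a) • (star (c (a + 1)) * c a) := by
  simp [Jm, star_sum]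

theorem IsCAR.br_Jm_c (hc : IsCAR Q c) (hQ : 1 ≤ Q) (b : ℕ) :
    br (Jm Q c) (c b) = ((b : ℝ) + 1) • c (b + 1) := by
  have hx : (0 : ℝ) < Q := by exact_mod_cast hQ
  rw [Jm, br_sum_left]
  simp only [hc.br_basic]
  by_cases hb : b < Q
  · rw [Finset.sum_eq_single b]
    · rw [if_pos rfl, smul_smul, mul_assoc, wt_mul_uu hx hb.le, mul_one]
    · intro a _ ha
      simp [ha.symm]
    · intro h
      exact absurd (Finset.mem_range.mpr hb) h
  · rw [hc.eq_zero (by omega : Q < b + 1), smul_zero]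
    apply Finset.sum_eq_zero
    intro a ha
    have : b ≠ a := by
      have := Finset.mem_range.mp ha
      omega
    simp [this]

theorem IsCAR.br_Jp_c (hc : IsCAR Q c) (hQ : 1 ≤ Q) (b : ℕ) :
    br (star (Jm Q c)) (c b) = if b = 0 then 0 else ee Q Q (b - 1) • c (b - 1) := by
  have hx : (0 : ℝ) < Q := by exact_mod_cast hQ
  rw [star_Jm, br_sum_left]
  simp only [hc.br_basic]
  cases b with
  | zero => simp
  | succ b =>
    rw [if_neg (Nat.succ_ne_zero b), Nat.add_sub_cancel]
    by_cases hb : b < Q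
    · rw [Finset.sum_eq_single b]
      · rw [if_pos rfl, smul_smul]
        congr 1
        have h1 := uu_succ Q hx.ne' b
        have h2 := wt_mul_uu hx hb.le
        calc ((b : ℝ) + 1) * wt Q Q b * uu Q Q (b + 1)
            = wt Q Q b * (((b : ℝ) + 1) * uu Q Q (b + 1)) := by ring
          _ = ee Q Q b * (wt Q Q b * uu Q Q b) := by rw [h1]; ring
          _ = _ := by rw [h2, mul_one]
      · intro a _ ha
        simp [ha.symm]
      · intro h
        exact absurd (Finset.mem_range.mpr hb) h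
    · rw [Finset.sum_eq_zero]
      · rcases Nat.eq_or_lt_of_le (not_lt.mp hb) with h | h
        · subst h
          simp [ee]
        · rw [hc.eq_zero h, smul_zero]
      · intro a ha
        have : b ≠ a := by
          have := Finset.mem_range.mp ha
          omega
        simp [this]

theorem IsCAR.br_Jm_A (hc : IsCAR Q c) (hQ : 1 ≤ Q) (m : ℕ) :
    br (Jm Q c) (pairA c m) = ((m : ℝ) + 1) • pairA c (m + 1) := by
  have e : ((m : ℝ) + 1) • pairA c (m + 1) =
      ∑ p ∈ antidiagonal (m + 1 + 1), ((p.1 : ℝ) * (p.1 - 1 - p.2)) • (c p.2 * c p.1) +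
      ∑ p ∈ antidiagonal (m + 1 + 1), ((p.2 : ℝ) * (p.1 - p.2 + 1)) • (c p.2 * c p.1) := by
    rw [pairA, Finset.smul_sum, ← Finset.sum_add_distrib]
    refine Finset.sum_congr rfl fun p hp => ?_
    have h : p.1 + p.2 = m + 1 + 1 := by simpa using hp
    have h' : (m : ℝ) = p.1 + p.2 - 2 := by
      have : ((p.1 + p.2 : ℕ) : ℝ) = ((m + 1 + 1 : ℕ) : ℝ) := by rw [h]
      push_cast at this
      linarith
    rw [smul_smul, ← add_smul, h']
    congr 1
    ring
  rw [e, Finset.Nat.sum_antidiagonal_succ, Finset.Nat.sum_antidiagonal_succ' (n := m + 1), pairA,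
    br_sum]
  simp only [Nat.cast_zero, zero_mul, zero_smul, zero_add, ← Finset.sum_add_distrib]
  refine Finset.sum_congr rfl fun p _ => ?_
  rw [br_smul, br_mul, hc.br_Jm_c hQ, hc.br_Jm_c hQ, smul_add, mul_smul_comm, smul_mul_assoc,
    smul_smul, smul_smul]
  push_cast
  congr 2 <;> ring

theorem IsCAR.br_Jp_A (hc : IsCAR Q c) (hQ : 1 ≤ Q) (m : ℕ) :
    br (star (Jm Q c)) (pairA c m) =
      if m = 0 then 0 else ee (2 * Q - 2) Q (m - 1) • pairA c (m - 1) := by
  have hx : (0 : ℝ) < Q := by exact_mod_cast hQ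
  have e : br (star (Jm Q c)) (pairA c m) =
      ∑ p ∈ antidiagonal m, (((2 * Q - m - 1) / Q) * ((p.1 : ℝ) - p.2)) • (c p.2 * c p.1) := by
    rw [pairA, br_sum]
    simp only [br_smul, br_mul, hc.br_Jp_c hQ, smul_add, Finset.sum_add_distrib]
    rw [Finset.Nat.sum_antidiagonal_succ, Finset.Nat.sum_antidiagonal_succ' (n := m)]
    simp only [if_true, mul_zero, zero_mul, smul_zero, zero_add, Nat.succ_ne_zero, if_false,
      Nat.add_sub_cancel, ← Finset.sum_add_distrib]
    refine Finset.sum_congr rfl fun p hp => ?_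
    have h : p.1 + p.2 = m := by simpa using hp
    rw [mul_smul_comm, smul_mul_assoc, smul_smul, smul_smul, ← add_smul, ← h]
    congr 1
    unfold ee
    push_cast
    field_simp
    ring
  rw [e]
  cases m with
  | zero => simp
  | succ m =>
    rw [if_neg (Nat.succ_ne_zero m), Nat.add_sub_cancel, pairA, Finset.smul_sum]
    refine Finset.sum_congr rfl fun p _ => ?_
    rw [smul_smul]
    congr 2
    unfold ee
    rw [Nat.cast_sub (by omega)]
    push_cast
    ring

theorem IsCAR.pairA_eq_zero (hc : IsCAR Q c) (hQ : 1 ≤ Q) {m : ℕ} (hm : 2 * Q - 2 < m) :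
    pairA c m = 0 := by
  apply Finset.sum_eq_zero
  intro p hp
  have h : p.1 + p.2 = m + 1 := by simpa using hp
  by_cases h1 : Q < p.1
  · rw [hc.eq_zero h1, mul_zero, smul_zero]
  · by_cases h2 : Q < p.2
    · rw [hc.eq_zero h2, zero_mul, smul_zero]
    · have : p.1 = p.2 := by omega
      rw [this, sub_self, zero_smul]

theorem IsCAR.comm2 (hc : IsCAR Q c) (a b e f : ℕ) :
    c b * c a * (c f * c e) = c f * c e * (c b * c a) := by
  have h : ∀ x y (Z : Module.End ℝ H), c x * (c y * Z) = -(c y * (c x * Z)) := by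
    intro x y Z
    rw [← mul_assoc, hc.anti x y, neg_mul, mul_assoc]
  simp only [mul_assoc]
  rw [h a f, hc.anti a e]
  simp only [mul_neg, neg_neg]
  rw [h b f, h b e]
  simp only [mul_neg, neg_neg]

theorem IsCAR.pairA_comm (hc : IsCAR Q c) (m n : ℕ) :
    pairA c m * pairA c n = pairA c n * pairA c m := by
  simp only [pairA, Finset.sum_mul, Finset.mul_sum, smul_mul_assoc, mul_smul_comm,
    Finset.smul_sum]
  rw [Finset.sum_comm]
  refine Finset.sum_congr rfl fun p _ => Finset.sum_congr rfl fun q _ => ?_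
  rw [hc.comm2, smul_comm]

/-- the second quantised Hamiltonian -/
noncomputable def Hm (Q : ℕ) (c : ℕ → Module.End ℝ H) : Module.End ℝ H :=
  ∑ m ∈ range (2 * Q - 2 + 1), (wt (2 * Q - 2) Q m / 4) • (star (pairA c m) * pairA c m)

theorem star_Hm : star (Hm Q c) = Hm Q c := by
  simp [Hm, star_sum]

theorem IsCAR.br_Jm_Hm (hc : IsCAR Q c) (hQ : 1 ≤ Q) : br (Jm Q c) (Hm Q c) = 0 := by
  have hx : (0 : ℝ) < Q := by exact_mod_cast hQ
  rw [Hm, br_sum]
  simp only [br_smul, br_mul, br_star, hc.br_Jm_A hQ, hc.br_Jp_A hQ, smul_add,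
    Finset.sum_add_distrib]
  rw [Finset.sum_range_succ, Finset.sum_range_succ',
    hc.pairA_eq_zero hQ (Nat.lt_succ_self (2 * Q - 2))]
  simp only [smul_zero, mul_zero, add_zero, if_true, star_zero, neg_zero, zero_mul,
    Nat.succ_ne_zero, if_false, Nat.add_sub_cancel, ← Finset.sum_add_distrib]
  apply Finset.sum_eq_zero
  intro m hm
  have hm' := Finset.mem_range.mp hm
  rw [star_smul, star_trivial (ee (2 * Q - 2) Q m), neg_mul, smul_mul_assoc, mul_smul_comm, smul_neg, smul_smul,
    smul_smul, ← sub_eq_add_neg, ← sub_smul]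
  have h1 := uu_succ (2 * Q - 2) hx.ne' m
  have h2 := wt_mul_uu hx hm'.le
  have h3 := wt_mul_uu hx (Nat.succ_le_of_lt hm')
  have : wt (2 * Q - 2) Q m / 4 * ((m : ℝ) + 1) -
      wt (2 * Q - 2) Q (m + 1) / 4 * ee (2 * Q - 2) Q m = 0 := by
    have h4 : wt (2 * Q - 2) Q m * wt (2 * Q - 2) Q (m + 1) *
        (((m : ℝ) + 1) * uu (2 * Q - 2) Q (m + 1)) = wt (2 * Q - 2) Q m *
        wt (2 * Q - 2) Q (m + 1) * (ee (2 * Q - 2) Q m * uu (2 * Q - 2) Q m) := by rw [h1]
    linear_combination (1 / 4 : ℝ) * h4 - (wt (2 * Q - 2) Q m * ((m : ℝ) + 1) / 4) * h3 +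
      (wt (2 * Q - 2) Q (m + 1) * ee (2 * Q - 2) Q m / 4) * h2
  rw [this, zero_smul]

theorem star_pairA (n : ℕ) : star (pairA c n) =
    ∑ p ∈ antidiagonal (n + 1), ((p.1 : ℝ) - p.2) • (star (c p.1) * star (c p.2)) := by
  simp [pairA, star_sum]

theorem IsCAR.c_mul_star_pairA (hc : IsCAR Q c) (a n : ℕ) :
    c a * star (pairA c n) = star (pairA c n) * c a +
      (if a ≤ n + 1 then 2 * uu Q Q a * ((a : ℝ) - (n + 1 - a : ℕ)) else 0) •
        star (c (n + 1 - a)) := by
  have h : ∀ e f, c a * (star (c e) * star (c f)) = star (c e) * star (c f) * c a +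
      ((if a = e then uu Q Q a else 0) • star (c f) -
        (if a = f then uu Q Q a else 0) • star (c e)) := by
    intro e f
    rw [← mul_assoc, hc.mixed' a e, sub_mul, mul_assoc, hc.mixed' a f]
    simp only [smul_mul_assoc, one_mul, mul_sub, mul_smul_comm, mul_one, mul_assoc]
    abel
  rw [star_pairA]
  simp only [Finset.mul_sum, Finset.sum_mul, mul_smul_comm, smul_mul_assoc, h, smul_add,
    Finset.sum_add_distrib, smul_sub, Finset.sum_sub_distrib]
  congr 1
  by_cases ha : a ≤ n + 1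
  · rw [Finset.sum_eq_single (a, n + 1 - a), Finset.sum_eq_single (n + 1 - a, a)]
    · simp only [if_true, if_pos ha, smul_smul, ← sub_smul]
      congr 1
      ring
    · rintro ⟨e, f⟩ hp hne
      have h1 : e + f = n + 1 := by simpa using hp
      have : a ≠ f := by
        rintro rfl
        apply hne
        congr 1
        omega
      simp [this]
    · intro h1
      exact absurd (by simp; omega) h1
    · rintro ⟨e, f⟩ hp hne
      have h1 : e + f = n + 1 := by simpa using hp
      have : a ≠ e := by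
        rintro rfl
        apply hne
        congr 1
        omega
      simp [this]
    · intro h1
      exact absurd (by simp; omega) h1
  · rw [Finset.sum_eq_zero, Finset.sum_eq_zero]
    · simp [ha]
    · rintro ⟨e, f⟩ hp
      have h1 : e + f = n + 1 := by simpa using hp
      have : a ≠ f := by omega
      simp [this]
    · rintro ⟨e, f⟩ hp
      have h1 : e + f = n + 1 := by simpa using hp
      have : a ≠ e := by omega
      simp [this]

theorem IsCAR.pairA_mul_star (hc : IsCAR Q c) (m n : ℕ) :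
    pairA c m * star (pairA c n) = star (pairA c n) * pairA c m +
      (if m = n then 2 * ∑ p ∈ antidiagonal (m + 1),
        ((p.1 : ℝ) - p.2) ^ 2 * (uu Q Q p.1 * uu Q Q p.2) else 0) • (1 : Module.End ℝ H) -
      (4 : ℝ) • ∑ p ∈ antidiagonal (m + 1),
        (if p.1 ≤ n + 1 then ((p.1 : ℝ) - p.2) * ((p.1 : ℝ) - (n + 1 - p.1 : ℕ)) * uu Q Q p.1
          else 0) • (star (c (n + 1 - p.1)) * c p.2) := by
  set r : ℕ → ℝ := fun a => if a ≤ n + 1 then 2 * uu Q Q a * ((a : ℝ) - (n + 1 - a : ℕ)) else 0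
    with hr
  have h : ∀ a b, c b * c a * star (pairA c n) = star (pairA c n) * (c b * c a) +
      ((r a * if b = n + 1 - a then uu Q Q b else 0) • (1 : Module.End ℝ H) -
        r a • (star (c (n + 1 - a)) * c b) + r b • (star (c (n + 1 - b)) * c a)) := by
    intro a b
    rw [mul_assoc, hc.c_mul_star_pairA a n, mul_add, ← mul_assoc, hc.c_mul_star_pairA b n,
      mul_smul_comm, hc.mixed' b (n + 1 - a)]
    simp only [add_mul, smul_mul_assoc, mul_assoc, smul_sub, smul_smul, hr]
    abel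
  have e1 : ∑ p ∈ antidiagonal (m + 1), ((p.1 : ℝ) - p.2) •
      ((r p.1 * if p.2 = n + 1 - p.1 then uu Q Q p.2 else 0) • (1 : Module.End ℝ H)) =
      (if m = n then 2 * ∑ p ∈ antidiagonal (m + 1),
        ((p.1 : ℝ) - p.2) ^ 2 * (uu Q Q p.1 * uu Q Q p.2) else 0) • (1 : Module.End ℝ H) := by
    simp only [smul_smul, ← Finset.sum_smul]
    congr 1
    split_ifs with hmn
    · subst hmn
      rw [Finset.mul_sum]
      refine Finset.sum_congr rfl fun p hp => ?_
      have h1 : p.1 + p.2 = m + 1 := by simpa using hp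
      have h2 : m + 1 - p.1 = p.2 := by omega
      simp only [hr, h2, if_pos (show p.1 ≤ m + 1 by omega), if_true]
      ring
    · apply Finset.sum_eq_zero
      intro p hp
      have h1 : p.1 + p.2 = m + 1 := by simpa using hp
      by_cases h3 : p.1 ≤ n + 1
      · rw [if_neg (by omega)]
        simp
      · simp [hr, h3]
  have e2 : ∑ p ∈ antidiagonal (m + 1), ((p.1 : ℝ) - p.2) •
      (r p.2 • (star (c (n + 1 - p.2)) * c p.1)) =
      -∑ p ∈ antidiagonal (m + 1), ((p.1 : ℝ) - p.2) •
      (r p.1 • (star (c (n + 1 - p.1)) * c p.2)) := by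
    rw [← Finset.Nat.sum_antidiagonal_swap, ← Finset.sum_neg_distrib]
    refine Finset.sum_congr rfl fun p _ => ?_
    simp only [Prod.fst_swap, Prod.snd_swap]
    rw [← neg_smul, neg_sub]
  have e3 : (4 : ℝ) • ∑ p ∈ antidiagonal (m + 1),
        (if p.1 ≤ n + 1 then ((p.1 : ℝ) - p.2) * ((p.1 : ℝ) - (n + 1 - p.1 : ℕ)) * uu Q Q p.1
          else 0) • (star (c (n + 1 - p.1)) * c p.2) =
      (2 : ℝ) • ∑ p ∈ antidiagonal (m + 1), ((p.1 : ℝ) - p.2) •
      (r p.1 • (star (c (n + 1 - p.1)) * c p.2)) := by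
    simp only [Finset.smul_sum, smul_smul]
    refine Finset.sum_congr rfl fun p _ => ?_
    congr 1
    simp only [hr]
    split_ifs <;> ring
  have e4 : star (pairA c n) * pairA c m = ∑ p ∈ antidiagonal (m + 1), ((p.1 : ℝ) - p.2) •
      (star (pairA c n) * (c p.2 * c p.1)) := by
    conv_lhs => rw [pairA.eq_1 c m]
    simp only [Finset.mul_sum, mul_smul_comm]
  conv_lhs => rw [pairA.eq_1 c m]
  simp only [Finset.sum_mul, smul_mul_assoc, h, smul_add, smul_sub,
    Finset.sum_add_distrib, Finset.sum_sub_distrib]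
  rw [e1, e2, e3, e4, two_smul]
  abel

theorem sum_sq_uu (hQ : 1 ≤ Q) (m : ℕ) :
    2 * ∑ p ∈ antidiagonal (m + 1), ((p.1 : ℝ) - p.2) ^ 2 * (uu Q Q p.1 * uu Q Q p.2) =
      4 * uu (2 * Q - 2) Q m := by
  have hx : (0 : ℝ) < Q := by exact_mod_cast hQ
  have h := sum_sq_choose Q m hQ
  have e : ∑ p ∈ antidiagonal (m + 1), ((p.1 : ℝ) - p.2) ^ 2 * (uu Q Q p.1 * uu Q Q p.2) =
      (∑ p ∈ antidiagonal (m + 1), ((p.1 : ℝ) - p.2) ^ 2 * (Q.choose p.1 * Q.choose p.2)) /
        (Q : ℝ) ^ (m + 1) := by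
    rw [Finset.sum_div]
    refine Finset.sum_congr rfl fun p hp => ?_
    have h1 : p.1 + p.2 = m + 1 := by simpa using hp
    rw [← h1, pow_add]
    unfold uu
    field_simp
  rw [e, h, pow_succ]
  unfold uu
  field_simp
  ring

end Vale.Agent.P359
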