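import Mathlib

namespace Vale.Agent.P359

open MvPolynomial

/-- Orthogonal projection onto the linear span of a set of vectors. -/
noncomputable def projOn {E : Type} [NormedAddCommGroup E] [InnerProductSpace ℂ E]
    [FiniteDimensional ℂ E] (s : Set E) (v : E) : E :=
  (Submodule.span ℂ s).starProjection v

/-- Real part of the Hermitian inner product. -/
noncomputable def reInner {κ : Type} [Fintype κ] (v w : EuclideanSpace ℂ κ) : ℝ :=
  (∑ x, (starRingEnd ℂ) (v x) * w x).re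

/-- The tensor power of `U_Q` indexed by the particles `ι`, in coordinates with respect to the
orthonormal basis `∏ i, sqrt (Q.choose (x i)) * u_i ^ (x i) * v_i ^ (Q - x i)`. -/
abbrev Tens (Q : ℕ) (ι : Type) [Fintype ι] : Type := EuclideanSpace ℂ (ι → Fin (Q + 1))

/-- The exponent vector of the monomial `∏ i, u_i ^ (x i) * v_i ^ (Q - x i)`,
with `u_i = X (Sum.inl i)` and `v_i = X (Sum.inr i)`. -/
noncomputable def expo (Q : ℕ) {ι : Type} [Fintype ι] (x : ι → Fin (Q + 1)) : ι ⊕ ι →₀ ℕ :=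
  Finsupp.equivFunOnFinite.symm (Sum.elim (fun i => (x i : ℕ)) (fun i => Q - (x i : ℕ)))

/-- Coordinates, in the orthonormal basis, of a polynomial that is homogeneous of degree `Q`
in each spinor `(u_i, v_i)`. -/
noncomputable def ofPoly (Q : ℕ) {ι : Type} [Fintype ι] (p : MvPolynomial (ι ⊕ ι) ℂ) :
    Tens Q ι :=
  WithLp.toLp 2 fun x =>
    coeff (expo Q x) p / ∏ i, ((Real.sqrt (Q.choose (x i)) : ℝ) : ℂ)

/-- The invariant `u_i v_j - u_j v_i`. -/
noncomputable def wedge {ι : Type} (i j : ι) : MvPolynomial (ι ⊕ ι) ℂ :=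
  X (Sum.inl i) * X (Sum.inr j) - X (Sum.inl j) * X (Sum.inr i)

/-- The linear form `α u_i + β v_i`. -/
noncomputable def lin {ι : Type} (α β : ℂ) (i : ι) : MvPolynomial (ι ⊕ ι) ℂ :=
  C α * X (Sum.inl i) + C β * X (Sum.inr i)

/-- A spanning set of the irreducible component of total spin `Q - 1` in `U_Q ⊗ U_Q`. -/
def pairGen (Q : ℕ) : Set (Tens Q (Fin 2)) :=
  {v | ∃ α β : ℂ, v = ofPoly Q (wedge 0 1 * lin α β 0 ^ (Q - 1) * lin α β 1 ^ (Q - 1))}

/-- The orthogonal projection onto the spin `Q - 1` component, acting on the tensor factors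
`i` and `j`. -/
noncomputable def pairProj (Q N : ℕ) (i j : Fin N) (ψ : Tens Q (Fin N)) : Tens Q (Fin N) :=
  WithLp.toLp 2 fun x =>
    projOn (pairGen Q)
      (WithLp.toLp 2 fun y : Fin 2 → Fin (Q + 1) =>
        ψ (Function.update (Function.update x i (y 0)) j (y 1))) ![x i, x j]

/-- The Hamiltonian `H_{N,Q}` applied to `ψ`. -/
noncomputable def ham (Q N : ℕ) (ψ : Tens Q (Fin N)) : Tens Q (Fin N) :=
  ∑ i : Fin N, ∑ j : Fin N with i < j, pairProj Q N i j ψ

/-- Fermionic (totally antisymmetric) vectors. -/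
def IsFermionic {Q N : ℕ} (ψ : Tens Q (Fin N)) : Prop :=
  ∀ (σ : Equiv.Perm (Fin N)) (x : Fin N → Fin (Q + 1)),
    ψ (x ∘ σ) = ((Equiv.Perm.sign σ : ℤ) : ℂ) * ψ x

/-- The Laughlin vector at flux `Q = 3 (N - 1)`. -/
noncomputable def laughlin (N : ℕ) : Tens (3 * (N - 1)) (Fin N) :=
  ofPoly (3 * (N - 1)) (∏ i : Fin N, ∏ j : Fin N with i < j, wedge i j ^ 3)

end Vale.Agent.P359
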