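import Vale.Agent.P359.Defs
import Vale.Agent.P359.Basic
import Vale.Agent.P359.SumSq

namespace Vale.Agent.P359

open Finset MvPolynomial

/-- real coefficients of the pair states -/
noncomputable def hamFormPhi (Q m : ℕ) (a b : Fin (Q + 1)) : ℝ :=
  if (a : ℕ) + (b : ℕ) = m + 1 then
    (((a : ℕ) : ℝ) - ((b : ℕ) : ℝ)) * Real.sqrt (Q.choose a) * Real.sqrt (Q.choose b) else 0

/-- the pair states -/
noncomputable def hamFormVec (Q m : ℕ) : Tens Q (Fin 2) :=
  WithLp.toLp 2 fun y => (hamFormPhi Q m (y 0) (y 1) : ℂ)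

theorem hamForm_lin_pow (α β : ℂ) (i : Fin 2) (q : ℕ) : lin α β i ^ q =
    ∑ k ∈ range (q + 1), monomial (Finsupp.single (Sum.inl i) k + Finsupp.single (Sum.inr i) (q - k))
      (α ^ k * β ^ (q - k) * (q.choose k : ℂ)) := by
  rw [lin, add_pow]
  refine sum_congr rfl (fun k _ => ?_)
  rw [mul_pow, mul_pow, ← map_pow, ← map_pow, X_pow_eq_monomial, X_pow_eq_monomial,
    C_mul_monomial, C_mul_monomial, monomial_mul, ← map_natCast (C : ℂ →+* _), mul_comm,
    C_mul_monomial]
  congr 1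
  ring

theorem hamForm_coeff_prod (α β : ℂ) (q : ℕ) (e : Fin 2 ⊕ Fin 2 →₀ ℕ) (a b : ℕ)
    (h0 : e (Sum.inl 0) = a) (h1 : e (Sum.inl 1) = b) (h2 : e (Sum.inr 0) + a = q)
    (h3 : e (Sum.inr 1) + b = q) :
    coeff e (lin α β (0 : Fin 2) ^ q * lin α β 1 ^ q)
      = α ^ (a + b) * β ^ (2 * q - (a + b)) * (q.choose a * q.choose b) := by
  rw [hamForm_lin_pow, hamForm_lin_pow, sum_mul_sum]
  simp only [monomial_mul, coeff_sum, coeff_monomial]
  rw [sum_eq_single a, sum_eq_single b, if_pos]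
  · rw [show 2 * q - (a + b) = (q - a) + (q - b) by omega, pow_add, pow_add]
    ring
  · ext s
    rcases s with s | s <;> fin_cases s <;> simp <;> omega
  · intro l _ hl
    rw [if_neg]
    intro h
    have := DFunLike.congr_fun h (Sum.inl 1)
    simp at this
    omega
  · intro h; exact absurd (mem_range.mpr (by omega)) h
  · intro k _ hk
    refine sum_eq_zero (fun l _ => ?_)
    rw [if_neg]
    intro h
    have := DFunLike.congr_fun h (Sum.inl 0)
    simp at this
    omega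
  · intro h; exact absurd (mem_range.mpr (by omega)) h

theorem hamForm_coeff_gen (α β : ℂ) (q : ℕ) (y : Fin 2 → Fin (q + 1 + 1)) :
    coeff (expo (q + 1) y) (wedge 0 1 * lin α β (0 : Fin 2) ^ q * lin α β 1 ^ q)
      = α ^ ((y 0 : ℕ) + y 1 - 1) * β ^ (2 * q - ((y 0 : ℕ) + y 1 - 1)) / ((q : ℂ) + 1)
        * ((((y 0 : ℕ) : ℂ) - (y 1 : ℕ)) * ((q + 1).choose (y 0) * (q + 1).choose (y 1))) := by
  have e0 : expo (q + 1) y (Sum.inl 0) = y 0 := rfl
  have e1 : expo (q + 1) y (Sum.inl 1) = y 1 := rfl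
  have e2 : expo (q + 1) y (Sum.inr 0) = q + 1 - y 0 := rfl
  have e3 : expo (q + 1) y (Sum.inr 1) = q + 1 - y 1 := rfl
  have ha := (y 0).isLt
  have hb := (y 1).isLt
  generalize expo (q + 1) y = e at e0 e1 e2 e3
  generalize (y 0 : ℕ) = a at *
  generalize (y 1 : ℕ) = b at *
  have hq : (q : ℂ) + 1 ≠ 0 := by exact_mod_cast Nat.succ_ne_zero q
  have key : ∀ a b : ℕ, a ≤ q → b ≤ q →
      ((q.choose a : ℂ) * q.choose b) * ((q : ℂ) + 1) ^ 2
        = ((a : ℂ) + 1) * ((q : ℂ) + 1 - b) * ((q + 1).choose (a + 1) * (q + 1).choose b) := by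
    intro a b _ hb
    have h1 : ((q : ℂ) + 1) * q.choose a = (q + 1).choose (a + 1) * ((a : ℂ) + 1) := by
      exact_mod_cast Nat.add_one_mul_choose_eq q a
    have h2 : (q.choose b : ℂ) * ((q : ℂ) + 1) = (q + 1).choose b * ((q : ℂ) + 1 - b) := by
      have := Nat.choose_mul_succ_eq q b
      have e : ((q + 1 - b : ℕ) : ℂ) = (q : ℂ) + 1 - b := by
        rw [Nat.cast_sub (by omega)]; push_cast; ring
      rw [← e]
      exact_mod_cast this
    linear_combination (q.choose b * ((q : ℂ) + 1)) * h1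
      + ((q + 1).choose (a + 1) * ((a : ℂ) + 1)) * h2
  have t1 : coeff e (X (Sum.inl 0) * (X (Sum.inr 1) * (lin α β (0 : Fin 2) ^ q * lin α β 1 ^ q)))
      = α ^ (a + b - 1) * β ^ (2 * q - (a + b - 1)) / ((q : ℂ) + 1) ^ 2
        * ((a : ℂ) * ((q : ℂ) + 1 - b) * ((q + 1).choose a * (q + 1).choose b)) := by
    rw [coeff_X_mul', coeff_X_mul']
    split_ifs with h1 h2
    · simp only [Finsupp.mem_support_iff, Finsupp.coe_tsub, Pi.sub_apply, Finsupp.single_apply,
        reduceCtorEq, if_false] at h1 h2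
      obtain ⟨a', rfl⟩ : ∃ a', a = a' + 1 := ⟨a - 1, by omega⟩
      rw [hamForm_coeff_prod α β q _ a' b (by simp [e0]) (by simp [e1]) (by simp [e2]; omega)
        (by simp [e3]; omega), show a' + 1 + b - 1 = a' + b by omega]
      push_cast
      rw [← key a' b (by omega) (by omega)]
      field_simp
    · simp only [Finsupp.mem_support_iff, Finsupp.coe_tsub, Pi.sub_apply, Finsupp.single_apply,
        reduceCtorEq, if_false] at h2
      have : b = q + 1 := by omega
      subst this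
      simp
    · simp only [Finsupp.mem_support_iff] at h1
      have : a = 0 := by omega
      subst this
      simp
  have t2 : coeff e (X (Sum.inl 1) * (X (Sum.inr 0) * (lin α β (0 : Fin 2) ^ q * lin α β 1 ^ q)))
      = α ^ (a + b - 1) * β ^ (2 * q - (a + b - 1)) / ((q : ℂ) + 1) ^ 2
        * ((b : ℂ) * ((q : ℂ) + 1 - a) * ((q + 1).choose a * (q + 1).choose b)) := by
    rw [coeff_X_mul', coeff_X_mul']
    split_ifs with h1 h2
    · simp only [Finsupp.mem_support_iff, Finsupp.coe_tsub, Pi.sub_apply, Finsupp.single_apply,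
        reduceCtorEq, if_false] at h1 h2
      obtain ⟨b', rfl⟩ : ∃ b', b = b' + 1 := ⟨b - 1, by omega⟩
      rw [hamForm_coeff_prod α β q _ a b' (by simp [e0]) (by simp [e1]) (by simp [e2]; omega)
        (by simp [e3]; omega), show a + (b' + 1) - 1 = a + b' by omega]
      push_cast
      rw [mul_comm ((q + 1).choose a : ℂ), ← key b' a (by omega) (by omega)]
      field_simp
    · simp only [Finsupp.mem_support_iff, Finsupp.coe_tsub, Pi.sub_apply, Finsupp.single_apply,
        reduceCtorEq, if_false] at h2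
      have : a = q + 1 := by omega
      subst this
      simp
    · simp only [Finsupp.mem_support_iff] at h1
      have : b = 0 := by omega
      subst this
      simp
  rw [wedge, mul_assoc, sub_mul, coeff_sub, mul_assoc, mul_assoc, t1, t2]
  field_simp
  ring

theorem hamForm_gen (α β : ℂ) (q : ℕ) :
    ofPoly (q + 1) (wedge 0 1 * lin α β (0 : Fin 2) ^ q * lin α β 1 ^ q)
      = ∑ m ∈ range (2 * q + 1), (α ^ m * β ^ (2 * q - m) / ((q : ℂ) + 1)) • hamFormVec (q + 1) m := by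
  ext y
  have ha := (y 0).isLt
  have hb := (y 1).isLt
  simp only [ofPoly, hamForm_coeff_gen, WithLp.ofLp_sum, WithLp.ofLp_smul, Finset.sum_apply,
    Pi.smul_apply, hamFormVec, hamFormPhi, smul_eq_mul, Fin.prod_univ_two]
  have s0 : (Real.sqrt ((q + 1).choose (y 0)) : ℂ) * Real.sqrt ((q + 1).choose (y 0))
      = (q + 1).choose (y 0) := by
    rw [← Complex.ofReal_mul, Real.mul_self_sqrt (Nat.cast_nonneg _)]; simp
  have s1 : (Real.sqrt ((q + 1).choose (y 1)) : ℂ) * Real.sqrt ((q + 1).choose (y 1))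
      = (q + 1).choose (y 1) := by
    rw [← Complex.ofReal_mul, Real.mul_self_sqrt (Nat.cast_nonneg _)]; simp
  have n0 : (Real.sqrt ((q + 1).choose (y 0)) : ℂ) ≠ 0 := by
    have : 0 < (q + 1).choose (y 0) := Nat.choose_pos (by omega)
    have : (0 : ℝ) < Real.sqrt ((q + 1).choose (y 0)) := by positivity
    exact_mod_cast this.ne'
  have n1 : (Real.sqrt ((q + 1).choose (y 1)) : ℂ) ≠ 0 := by
    have : 0 < (q + 1).choose (y 1) := Nat.choose_pos (by omega)
    have : (0 : ℝ) < Real.sqrt ((q + 1).choose (y 1)) := by positivity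
    exact_mod_cast this.ne'
  by_cases hab : (y 0 : ℕ) = y 1
  · rw [sum_eq_zero]
    · simp [hab]
    · intro m _; simp [hab]
  · rw [sum_eq_single ((y 0 : ℕ) + y 1 - 1), if_pos (by omega), ← s0, ← s1]
    · push_cast
      field_simp
    · intro m _ hm
      rw [if_neg (by omega)]; simp
    · intro h; exact absurd (mem_range.mpr (by omega)) h

theorem hamForm_inner (Q m : ℕ) (v : Tens Q (Fin 2)) :
    inner ℂ (hamFormVec Q m) v = ∑ y : Fin 2 → Fin (Q + 1), (hamFormPhi Q m (y 0) (y 1) : ℂ) * v y := by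
  simp [PiLp.inner_apply, hamFormVec, mul_comm]

theorem hamForm_sum_two {Q : ℕ} {M : Type} [AddCommMonoid M] (F : Fin (Q + 1) → Fin (Q + 1) → M) :
    ∑ y : Fin 2 → Fin (Q + 1), F (y 0) (y 1) = ∑ a, ∑ b, F a b := by
  rw [← Fintype.sum_prod_type', ← (finTwoArrowEquiv (Fin (Q + 1))).symm.sum_comp]
  rfl

theorem hamForm_norm (Q m : ℕ) (hQ : 1 ≤ Q) :
    ∑ a, ∑ b, hamFormPhi Q m a b * hamFormPhi Q m a b = 2 * Q * ((2 * Q - 2).choose m : ℝ) := by
  rw [← sum_sq_choose Q m hQ]
  set F : ℕ × ℕ → ℝ := fun p => ((p.1 : ℝ) - p.2) ^ 2 * (Q.choose p.1 * Q.choose p.2) with hF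
  have h1 : ∀ a b : Fin (Q + 1), hamFormPhi Q m a b * hamFormPhi Q m a b
      = if (a : ℕ) + b = m + 1 then F (a, b) else 0 := by
    intro a b
    unfold hamFormPhi
    split_ifs
    · have s0 := Real.mul_self_sqrt (Nat.cast_nonneg (α := ℝ) (Q.choose a))
      have s1 := Real.mul_self_sqrt (Nat.cast_nonneg (α := ℝ) (Q.choose b))
      simp only [hF]
      rw [← s0, ← s1, Real.sqrt_mul_self (Real.sqrt_nonneg _),
        Real.sqrt_mul_self (Real.sqrt_nonneg _)]
      ring
    · simp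
  simp only [h1]
  rw [Fin.sum_univ_eq_sum_range
    (fun a => ∑ b : Fin (Q + 1), if a + b = m + 1 then F (a, b) else 0) (Q + 1)]
  rw [sum_congr rfl (fun a _ => Fin.sum_univ_eq_sum_range
    (fun b => if a + b = m + 1 then F (a, b) else 0) (Q + 1)), ← sum_product', ← sum_filter]
  refine sum_subset (fun p hp => ?_) (fun p hp hn => ?_)
  · exact HasAntidiagonal.mem_antidiagonal.mpr (mem_filter.mp hp).2
  · simp only [mem_filter, mem_product, mem_range, HasAntidiagonal.mem_antidiagonal] at hp hn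
    have : Q < p.1 ∨ Q < p.2 := by omega
    rcases this with h | h <;> simp [hF, Nat.choose_eq_zero_of_lt h]

theorem hamForm_orth (Q m k : ℕ) (hQ : 1 ≤ Q) : inner ℂ (hamFormVec Q m) (hamFormVec Q k)
    = if m = k then ((2 * Q * ((2 * Q - 2).choose m : ℝ) : ℝ) : ℂ) else 0 := by
  rw [hamForm_inner]
  simp only [hamFormVec]
  rw [hamForm_sum_two (fun a b => (hamFormPhi Q m a b : ℂ) * (hamFormPhi Q k a b : ℂ))]
  split_ifs with h
  · subst h
    rw [← hamForm_norm Q m hQ]
    push_cast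
    rfl
  · refine sum_eq_zero (fun a _ => sum_eq_zero (fun b _ => ?_))
    unfold hamFormPhi
    split_ifs <;> first | omega | simp

theorem hamForm_oo {E : Type} [NormedAddCommGroup E] [InnerProductSpace ℂ E]
    [FiniteDimensional ℂ E] (K : Submodule ℂ E) : Kᗮᗮ = K := K.orthogonal_orthogonal

theorem hamForm_mem (q m : ℕ) (hm : m < 2 * q + 1) :
    hamFormVec (q + 1) m ∈ Submodule.span ℂ (pairGen (q + 1)) := by
  rw [← hamForm_oo (Submodule.span ℂ (pairGen (q + 1))), Submodule.mem_orthogonal]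
  intro v hv
  have hq : (q : ℂ) + 1 ≠ 0 := by exact_mod_cast Nat.succ_ne_zero q
  let P : Polynomial ℂ := ∑ k ∈ range (2 * q + 1),
    Polynomial.monomial k (inner ℂ v (hamFormVec (q + 1) k))
  have hP : P = 0 := by
    refine Polynomial.funext (fun α => ?_)
    have h1 := (Submodule.mem_orthogonal' _ _).mp hv _
      (Submodule.subset_span ⟨α, 1, rfl⟩)
    rw [Nat.add_sub_cancel, hamForm_gen, inner_sum] at h1
    simp only [inner_smul_right, one_pow, mul_one] at h1
    simp only [P, Polynomial.eval_finsetSum, Polynomial.eval_monomial, Polynomial.eval_zero]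
    rw [← mul_zero ((q : ℂ) + 1), ← h1, mul_sum]
    refine sum_congr rfl (fun k _ => ?_)
    field_simp
  have := congrArg (fun P => Polynomial.coeff P m) hP
  simpa [P, Polynomial.coeff_monomial, hm] using this

theorem hamForm_proj (Q : ℕ) (hQ : 1 ≤ Q) (v : Tens Q (Fin 2)) :
    projOn (pairGen Q) v = ∑ m ∈ range (2 * Q - 1),
      (inner ℂ (hamFormVec Q m) v / ((2 * Q * ((2 * Q - 2).choose m : ℝ) : ℝ) : ℂ))
        • hamFormVec Q m := by
  obtain ⟨q, rfl⟩ : ∃ q, Q = q + 1 := ⟨Q - 1, by omega⟩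
  rw [show 2 * (q + 1) - 1 = 2 * q + 1 by omega]
  refine Submodule.eq_starProjection_of_mem_of_inner_eq_zero
    (Submodule.sum_mem _ (fun m hm => Submodule.smul_mem _ _ (hamForm_mem q m (mem_range.mp hm))))
    (fun w hw => ?_)
  have key : ∀ k, k < 2 * q + 1 → inner ℂ (hamFormVec (q + 1) k) (v - ∑ m ∈ range (2 * q + 1),
      (inner ℂ (hamFormVec (q + 1) m) v / ((2 * ((q + 1 : ℕ) : ℝ) *
        ((2 * (q + 1) - 2).choose m : ℝ) : ℝ) : ℂ)) • hamFormVec (q + 1) m) = 0 := by
    intro k hk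
    rw [inner_sub_right, inner_sum]
    simp only [inner_smul_right, hamForm_orth _ _ _ hQ, mul_ite, mul_zero]
    rw [sum_ite_eq, if_pos (mem_range.mpr hk), div_mul_cancel₀, sub_self]
    have : 0 < (2 * (q + 1) - 2).choose k := Nat.choose_pos (by omega)
    have : (0 : ℝ) < 2 * ((q + 1 : ℕ) : ℝ) * ((2 * (q + 1) - 2).choose k : ℝ) := by positivity
    exact_mod_cast this.ne'
  rw [← inner_conj_symm, map_eq_zero]
  induction hw using Submodule.span_induction with
  | mem w hw =>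
    obtain ⟨α, β, rfl⟩ := hw
    rw [Nat.add_sub_cancel, hamForm_gen, sum_inner]
    exact sum_eq_zero (fun k hk => by rw [inner_smul_left, key k (mem_range.mp hk), mul_zero])
  | zero => simp
  | add a b _ _ ha hb => rw [inner_add_left, ha, hb, add_zero]
  | smul c a _ ha => rw [inner_smul_left, ha, mul_zero]

theorem hamForm_pair (Q N : ℕ) (hQ : 1 ≤ Q) (i j : Fin N) (ψ : Tens Q (Fin N)) :
    inner ℂ ψ (pairProj Q N i j ψ) = ∑ x : Fin N → Fin (Q + 1), ∑ m ∈ range (2 * Q - 1),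
      (starRingEnd ℂ) (ψ x) * (hamFormPhi Q m (x i) (x j) : ℂ) *
        (∑ a, ∑ b, (hamFormPhi Q m a b : ℂ) * ψ (Function.update (Function.update x i a) j b))
        / ((2 * Q * ((2 * Q - 2).choose m : ℝ) : ℝ) : ℂ) := by
  rw [PiLp.inner_apply]
  refine sum_congr rfl (fun x _ => ?_)
  simp only [pairProj, hamForm_proj Q hQ, hamForm_inner, WithLp.ofLp_sum, WithLp.ofLp_smul,
    Finset.sum_apply, Pi.smul_apply, smul_eq_mul, RCLike.inner_apply, sum_mul]
  refine sum_congr rfl (fun m _ => ?_)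
  rw [hamForm_sum_two (fun a b => (hamFormPhi Q m a b : ℂ) *
    ψ (Function.update (Function.update x i a) j b))]
  simp only [hamFormVec, Matrix.cons_val_zero, Matrix.cons_val_one]
  ring

theorem hamForm_pair_eq (Q n : ℕ) (hQ : 1 ≤ Q) (ψ : Tens Q (Fin (n + 2))) (h : IsFermionic ψ)
    (i j : Fin (n + 2)) (hij : i ≠ j) :
    inner ℂ ψ (pairProj Q (n + 2) i j ψ) = inner ℂ ψ (pairProj Q (n + 2) 0 1 ψ) := by
  obtain ⟨σ, hσ⟩ := Equiv.Perm.exists_extending_pair (![i, j] : Fin 2 → Fin (n + 2)) ![0, 1]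
    (by
      intro a b hab
      fin_cases a <;> fin_cases b <;> simp_all)
    (by
      intro a b hab
      fin_cases a <;> fin_cases b <;> simp_all)
  have h0 : σ i = 0 := hσ 0
  have h1 : σ j = 1 := hσ 1
  rw [hamForm_pair Q _ hQ, hamForm_pair Q _ hQ,
    ← (Equiv.arrowCongr σ.symm (Equiv.refl (Fin (Q + 1)))).sum_comp]
  refine sum_congr rfl (fun x _ => sum_congr rfl (fun m _ => ?_))
  have e : (Equiv.arrowCongr σ.symm (Equiv.refl (Fin (Q + 1)))) x = x ∘ σ := rfl
  have e2 : ∀ a b, Function.update (Function.update (x ∘ σ) i a) j b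
      = Function.update (Function.update x 0 a) 1 b ∘ σ := by
    intro a b
    rw [Function.update_comp_equiv, Function.update_comp_equiv, ← h0, ← h1,
      Equiv.symm_apply_apply, Equiv.symm_apply_apply]
  simp only [e, e2, h σ, Function.comp_apply, h0, h1]
  rcases Int.units_eq_one_or (Equiv.Perm.sign σ) with hs | hs <;> simp [hs]

theorem hamForm_sum_cons {Q n : ℕ} {M : Type} [AddCommMonoid M]
    (F : (Fin (n + 2) → Fin (Q + 1)) → M) :
    ∑ x, F x = ∑ x : Fin n → Fin (Q + 1), ∑ a, ∑ b, F (Fin.cons a (Fin.cons b x)) := by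
  rw [← (Fin.consEquiv (fun _ : Fin (n + 2) => Fin (Q + 1))).sum_comp, Fintype.sum_prod_type]
  have : ∀ a, ∑ y : Fin (n + 1) → Fin (Q + 1),
      F ((Fin.consEquiv (fun _ : Fin (n + 2) => Fin (Q + 1))) (a, y))
      = ∑ x : Fin n → Fin (Q + 1), ∑ b, F (Fin.cons a (Fin.cons b x)) := by
    intro a
    rw [← (Fin.consEquiv (fun _ : Fin (n + 1) => Fin (Q + 1))).sum_comp, Fintype.sum_prod_type,
      sum_comm]
    rfl
  simp only [this]
  rw [sum_comm]

theorem hamForm_zero_one (Q n : ℕ) (hQ : 1 ≤ Q) (ψ : Tens Q (Fin (n + 2))) :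
    (inner ℂ ψ (pairProj Q (n + 2) 0 1 ψ)).re = ∑ m ∈ range (2 * Q - 1), ∑ x : Fin n → Fin (Q + 1),
      (amp (fun x => (ψ x).re) (m + 1) x ^ 2 + amp (fun x => (ψ x).im) (m + 1) x ^ 2)
        / (2 * Q * ((2 * Q - 2).choose m : ℝ)) := by
  rw [hamForm_pair Q _ hQ, sum_comm, Complex.re_sum]
  refine sum_congr rfl (fun m _ => ?_)
  rw [hamForm_sum_cons, Complex.re_sum]
  refine sum_congr rfl (fun x _ => ?_)
  have e : ∀ a b a' b' : Fin (Q + 1), Function.update (Function.update
      (Fin.cons a (Fin.cons b x) : Fin (n + 2) → Fin (Q + 1)) 0 a') 1 b'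
      = Fin.cons a' (Fin.cons b' x) := by
    intro a b a' b'
    rw [Fin.update_cons_zero, ← Fin.succ_zero_eq_one, ← Fin.cons_update, Fin.update_cons_zero]
  set A : ℂ := ∑ a, ∑ b, (hamFormPhi Q m a b : ℂ) * ψ (Fin.cons a (Fin.cons b x)) with hA
  have hre : A.re = amp (fun x => (ψ x).re) (m + 1) x := by
    simp only [hA, Complex.re_sum, Complex.re_ofReal_mul, amp, hamFormPhi, ite_mul, zero_mul]
  have him : A.im = amp (fun x => (ψ x).im) (m + 1) x := by
    simp only [hA, Complex.im_sum, Complex.im_ofReal_mul, amp, hamFormPhi, ite_mul, zero_mul]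
  simp only [e, ← hA, Fin.cons_zero, Fin.cons_one, ← sum_div, ← sum_mul]
  have hc : ∑ a, ∑ b, (starRingEnd ℂ) (ψ (Fin.cons a (Fin.cons b x))) * (hamFormPhi Q m a b : ℂ)
      = (starRingEnd ℂ) A := by
    simp only [hA, map_sum, map_mul, Complex.conj_ofReal, mul_comm]
  rw [hc, Complex.div_ofReal_re, ← hre, ← him]
  congr 1
  simp [sq]

theorem ham_form (Q n : ℕ) (hQ : 1 ≤ Q) (ψ : Tens Q (Fin (n + 2))) (h : IsFermionic ψ) :
    (inner ℂ ψ (ham Q (n + 2) ψ)).re =
      energy (fun x => (ψ x).re) + energy (fun x => (ψ x).im) := by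
  have h1 : inner ℂ ψ (ham Q (n + 2) ψ)
      = (((n + 2).choose 2 : ℝ) : ℂ) * inner ℂ ψ (pairProj Q (n + 2) 0 1 ψ) := by
    rw [ham, inner_sum]
    have : ∀ i : Fin (n + 2), inner ℂ ψ (∑ j : Fin (n + 2) with i < j, pairProj Q (n + 2) i j ψ)
        = ∑ j : Fin (n + 2), if i < j then inner ℂ ψ (pairProj Q (n + 2) 0 1 ψ) else 0 := by
      intro i
      rw [inner_sum, ← sum_filter]
      exact sum_congr rfl (fun j hj => hamForm_pair_eq Q n hQ ψ h i j (mem_filter.mp hj).2.ne)
    simp only [this]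
    rw [← Fintype.sum_prod_type', ← sum_filter, sum_const, Fintype.card_product_filter_lt,
      Fintype.card_fin, nsmul_eq_mul]
    simp
  rw [h1, Complex.re_ofReal_mul, hamForm_zero_one Q n hQ, energy, energy, ← mul_add,
    ← sum_add_distrib]
  congr 1
  refine sum_congr rfl (fun m _ => ?_)
  rw [← sum_add_distrib]
  exact sum_congr rfl (fun x _ => add_div _ _ _)

end Vale.Agent.P359
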