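import Vale.Agent.P359.Defs
import Vale.Agent.P359.Basic

namespace Vale.Agent.P359

open MvPolynomial Finset

section Div

variable {σ : Type} [DecidableEq σ]

theorem unique_sub_dvd (i j : σ) (P : MvPolynomial σ ℝ) :
    (X i - X j : MvPolynomial σ ℝ) ∣ P - rename (Function.update id i j) P := by
  induction P using MvPolynomial.induction_on with
  | C a => simp
  | add p q hp hq =>
    have : p + q - rename (Function.update id i j) (p + q) =
        (p - rename (Function.update id i j) p) + (q - rename (Function.update id i j) q) := by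
      rw [map_add]; ring
    rw [this]; exact dvd_add hp hq
  | mul_X p k hp =>
    have : p * X k - rename (Function.update id i j) (p * X k) =
        (p - rename (Function.update id i j) p) * X k +
          rename (Function.update id i j) p * (X k - X (Function.update id i j k)) := by
      rw [map_mul, rename_X]; ring
    rw [this]
    refine dvd_add (hp.mul_right _) (Dvd.dvd.mul_left ?_ _)
    by_cases h : k = i
    · subst h; simp
    · simp [Function.update_of_ne h]

theorem unique_ren_d (i j : σ) :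
    rename (Function.update id i j) (X i - X j : MvPolynomial σ ℝ) = 0 := by
  by_cases h : j = i
  · subst h; simp
  · simp [Function.update_of_ne h]

theorem unique_dvd_iff (i j : σ) (P : MvPolynomial σ ℝ) :
    (X i - X j : MvPolynomial σ ℝ) ∣ P ↔ rename (Function.update id i j) P = 0 := by
  constructor
  · rintro ⟨R, rfl⟩
    rw [map_mul, unique_ren_d, zero_mul]
  · intro h
    have := unique_sub_dvd i j P
    rwa [h, sub_zero] at this

omit [DecidableEq σ] in
theorem unique_d_ne {i j : σ} (h : i ≠ j) : (X i - X j : MvPolynomial σ ℝ) ≠ 0 :=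
  fun h0 => h (X_injective (sub_eq_zero.1 h0))

theorem unique_prime {i j : σ} (h : i ≠ j) : Prime (X i - X j : MvPolynomial σ ℝ) := by
  refine ⟨unique_d_ne h, fun hu => ?_, fun a b hab => ?_⟩
  · have := (unique_dvd_iff i j 1).1 hu.dvd
    simp at this
  · rw [unique_dvd_iff, map_mul, mul_eq_zero] at hab
    rwa [unique_dvd_iff, unique_dvd_iff]

theorem unique_ren_swap (i j : σ) (P : MvPolynomial σ ℝ) :
    rename (Function.update id i j) (rename (Equiv.swap i j) P) =
      rename (Function.update id i j) P := by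
  rw [rename_rename]
  congr 2
  funext k
  by_cases h1 : k = i
  · subst h1
    by_cases h : j = k
    · subst h; simp
    · simp [Function.update_of_ne h]
  by_cases h2 : k = j
  · subst h2; simp [Function.update_of_ne h1]
  simp [Equiv.swap_apply_of_ne_of_ne h1 h2]

theorem unique_anti_dvd (i j : σ) (P : MvPolynomial σ ℝ) (h : rename (Equiv.swap i j) P = -P) :
    (X i - X j : MvPolynomial σ ℝ) ∣ P := by
  rw [unique_dvd_iff]
  have h1 := unique_ren_swap i j P
  rw [h, map_neg] at h1
  have h2 : (2 : MvPolynomial σ ℝ) * rename (Function.update id i j) P = 0 := by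
    linear_combination -h1
  exact (mul_eq_zero.1 h2).resolve_left two_ne_zero

theorem unique_cube_dvd {i j : σ} (hij : i ≠ j) (P : MvPolynomial σ ℝ)
    (h : rename (Equiv.swap i j) P = -P)
    (hD : rename (Function.update id i j) (X i * pderiv i P - X j * pderiv j P) = 0) :
    (X i - X j : MvPolynomial σ ℝ) ^ 3 ∣ P := by
  have hd := unique_d_ne hij
  have hsw : rename (Equiv.swap i j) (X i - X j : MvPolynomial σ ℝ) = -(X i - X j) := by simp
  obtain ⟨R, rfl⟩ := unique_anti_dvd i j P h
  have hR : rename (Equiv.swap i j) R = R := by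
    rw [map_mul, hsw] at h
    exact mul_left_cancel₀ hd (by linear_combination -h)
  have e : X i * pderiv i ((X i - X j) * R) - X j * pderiv j ((X i - X j) * R) =
      (X i + X j) * R + (X i - X j) * (X i * pderiv i R - X j * pderiv j R) := by
    simp only [Derivation.leibniz, map_sub, pderiv_X_self, pderiv_X_of_ne hij,
      pderiv_X_of_ne hij.symm, smul_eq_mul]
    ring
  rw [e, map_add, map_mul, map_mul, unique_ren_d, zero_mul, add_zero] at hD
  have h2 : rename (Function.update id i j) (X i + X j : MvPolynomial σ ℝ) ≠ 0 := by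
    simp only [map_add, rename_X, Function.update_self, Function.update_of_ne hij.symm, id]
    rw [← two_mul]
    exact mul_ne_zero two_ne_zero (X_ne_zero _)
  obtain ⟨R', rfl⟩ := (unique_dvd_iff i j R).2 ((mul_eq_zero.1 hD).resolve_left h2)
  have hR' : rename (Equiv.swap i j) R' = -R' := by
    rw [map_mul, hsw] at hR
    exact mul_left_cancel₀ hd (by linear_combination -hR)
  obtain ⟨R'', rfl⟩ := unique_anti_dvd i j R' hR'
  exact ⟨R'', by ring⟩

end Div

theorem unique_count {N : ℕ} (i : Fin N) :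
    ∑ a : Fin N, ∑ b : Fin N with a < b,
      ((if a = i then 1 else 0) + (if b = i then 1 else 0) : ℕ) = N - 1 := by
  simp only [sum_add_distrib]
  have h1 : ∑ a : Fin N, ∑ b : Fin N with a < b, (if a = i then 1 else 0 : ℕ) =
      (Ioi i).card := by
    rw [Finset.sum_eq_single i]
    · simp only [if_true, sum_const, smul_eq_mul, mul_one]
      congr 1; ext b; simp
    · intro a _ ha; simp [ha]
    · simp
  have h2 : ∑ a : Fin N, ∑ b : Fin N with a < b, (if b = i then 1 else 0 : ℕ) =
      (Iio i).card := by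
    have : ∀ a : Fin N, ∑ b : Fin N with a < b, (if b = i then 1 else 0 : ℕ) =
        if a < i then 1 else 0 := by
      intro a; rw [Finset.sum_ite_eq']; simp
    simp only [this]
    rw [← card_filter]; congr 1; ext b; simp
  rw [h1, h2, Fin.card_Ioi, Fin.card_Iio]
  have := i.2
  omega

theorem unique_prod_dvd {N : ℕ} (P : MvPolynomial (Fin N) ℝ)
    (h : ∀ i j : Fin N, i ≠ j → (X i - X j : MvPolynomial (Fin N) ℝ) ^ 3 ∣ P) :
    (∏ i : Fin N, ∏ j : Fin N with i < j, (X i - X j : MvPolynomial (Fin N) ℝ) ^ 3) ∣ P := by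
  rw [Finset.prod_sigma']
  refine Finset.prod_dvd_of_isRelPrime ?_ ?_
  · rintro ⟨i, j⟩ hij ⟨k, l⟩ hkl hne
    simp only [coe_sigma, coe_univ, coe_filter, mem_univ, true_and, Set.mem_sigma_iff,
      Set.mem_univ, Set.mem_ofPred_eq] at hij hkl
    refine IsRelPrime.pow ?_
    rw [(unique_prime hij.ne).irreducible.isRelPrime_iff_not_dvd, unique_dvd_iff]
    intro h0
    rw [map_sub, rename_X, rename_X, sub_eq_zero] at h0
    have h1 := X_injective h0
    apply hne
    by_cases a1 : k = i <;> by_cases a2 : l = i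
    · omega
    · subst a1
      simp only [Function.update_self, Function.update_of_ne a2, id] at h1
      subst h1; rfl
    · subst a2
      simp only [Function.update_self, Function.update_of_ne a1, id] at h1
      omega
    · simp only [Function.update_of_ne a1, Function.update_of_ne a2, id] at h1
      omega
  · rintro ⟨i, j⟩ hij
    simp only [mem_sigma, mem_univ, mem_filter, true_and] at hij
    exact h i j hij.ne

theorem unique_degL {N : ℕ} (k : Fin N) :
    degreeOf k (∏ i : Fin N, ∏ j : Fin N with i < j, (X i - X j : MvPolynomial (Fin N) ℝ) ^ 3) =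
      3 * (N - 1) := by
  have hd : ∀ i j : Fin N, i ≠ j → degreeOf k (X i - X j : MvPolynomial (Fin N) ℝ) =
      (if i = k then 1 else 0) + (if j = k then 1 else 0) := by
    intro i j hij
    by_cases h1 : i = k
    · subst h1
      rw [sub_eq_add_neg, degreeOf_add_eq_of_degreeOf_lt]
      · simp [hij.symm]
      · rw [degreeOf_neg, degreeOf_X_of_ne hij]; simp
    by_cases h2 : j = k
    · subst h2
      rw [sub_eq_add_neg, add_comm, degreeOf_add_eq_of_degreeOf_lt]
      · simp [hij, degreeOf_neg]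
      · rw [degreeOf_neg, degreeOf_X_of_ne hij.symm]; simp
    · have := degreeOf_sub_le k (X i : MvPolynomial (Fin N) ℝ) (X j)
      rw [degreeOf_X_of_ne (Ne.symm h1), degreeOf_X_of_ne (Ne.symm h2)] at this
      simp only [h1, h2, if_false]
      omega
  rw [degreeOf_prod_eq, ← unique_count k, mul_sum]
  · refine sum_congr rfl fun i _ => ?_
    rw [degreeOf_prod_eq, mul_sum]
    · refine sum_congr rfl fun j hj => ?_
      have hij := (mem_filter.1 hj).2.ne
      rw [degreeOf_pow_eq _ _ _ (unique_d_ne hij), hd i j hij]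
    · intro j hj
      exact pow_ne_zero _ (unique_d_ne (mem_filter.1 hj).2.ne)
  · intro i _
    exact prod_ne_zero_iff.2 fun j hj => pow_ne_zero _ (unique_d_ne (mem_filter.1 hj).2.ne)

theorem unique_const {N : ℕ} (P : MvPolynomial (Fin N) ℝ)
    (h : ∀ i j : Fin N, i ≠ j → (X i - X j : MvPolynomial (Fin N) ℝ) ^ 3 ∣ P)
    (hdeg : ∀ k, degreeOf k P ≤ 3 * (N - 1)) : ∃ t : ℝ, P = C t *
      ∏ i : Fin N, ∏ j : Fin N with i < j, (X i - X j : MvPolynomial (Fin N) ℝ) ^ 3 := by
  obtain ⟨T, hT⟩ := unique_prod_dvd P h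
  by_cases h0 : T = 0
  · exact ⟨0, by rw [hT, h0]; simp⟩
  have hL : (∏ i : Fin N, ∏ j : Fin N with i < j, (X i - X j : MvPolynomial (Fin N) ℝ) ^ 3) ≠ 0 :=
    prod_ne_zero_iff.2 fun i _ =>
      prod_ne_zero_iff.2 fun j hj => pow_ne_zero _ (unique_d_ne (mem_filter.1 hj).2.ne)
  have hk : ∀ k, degreeOf k T = 0 := by
    intro k
    have := hdeg k
    rw [hT, degreeOf_mul_eq hL h0, unique_degL] at this
    omega
  refine ⟨coeff 0 T, ?_⟩
  have : T = C (coeff 0 T) := by
    ext m
    rw [coeff_C]
    split_ifs with hm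
    · rw [hm]
    · by_contra hne
      apply hm
      ext k
      have := monomial_le_degreeOf k (mem_support_iff.2 hne)
      rw [hk] at this
      simp only [Finsupp.coe_zero, Pi.zero_apply]
      omega
  rw [← this, hT, mul_comm]

/-- exponent vector of a configuration -/
noncomputable def uniqueE {Q N : ℕ} (x : Fin N → Fin (Q + 1)) : Fin N →₀ ℕ :=
  Finsupp.equivFunOnFinite.symm fun i => (x i : ℕ)

theorem uniqueE_apply {Q N : ℕ} (x : Fin N → Fin (Q + 1)) (i : Fin N) : uniqueE x i = x i := rfl

theorem uniqueE_inj {Q N : ℕ} : Function.Injective (uniqueE (Q := Q) (N := N)) := by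
  intro x y h
  funext i
  have := DFunLike.congr_fun h i
  exact Fin.ext this

theorem unique_dehom {Q N : ℕ} (W : MvPolynomial (Fin N ⊕ Fin N) ℂ)
    (hW : ∀ m ∈ W.support, ∀ i, m (Sum.inl i) + m (Sum.inr i) = Q) (x : Fin N → Fin (Q + 1)) :
    coeff (uniqueE x) (aeval (Sum.elim X (fun _ => 1)) W : MvPolynomial (Fin N) ℂ) =
      coeff (expo Q x) W := by
  classical
  have key : ∀ m ∈ W.support, coeff (uniqueE x) (aeval (Sum.elim X (fun _ => 1))
      (monomial m (coeff m W)) : MvPolynomial (Fin N) ℂ) =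
      if m = expo Q x then coeff m W else 0 := by
    intro m hm
    have e : (aeval (Sum.elim X (fun _ => 1)) (monomial m (coeff m W)) : MvPolynomial (Fin N) ℂ) =
        monomial (Finsupp.equivFunOnFinite.symm fun i => m (Sum.inl i)) (coeff m W) := by
      rw [aeval_monomial, monomial_eq, Finsupp.prod_fintype _ _ (by simp),
        Finsupp.prod_fintype _ _ (by simp), Fintype.prod_sum_type]
      simp
    rw [e, coeff_monomial]
    congr 1
    apply propext
    constructor
    · intro h
      have h1 : ∀ i, m (Sum.inl i) = x i := fun i => DFunLike.congr_fun h i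
      ext s
      rcases s with i | i
      · exact h1 i
      · have h2 := hW m hm i
        have h3 := h1 i
        show m (Sum.inr i) = Q - (x i : ℕ)
        omega
    · rintro rfl
      rfl
  conv_lhs => rw [W.as_sum, map_sum, coeff_sum]
  rw [sum_congr rfl key, sum_ite_eq']
  split_ifs with h
  · rfl
  · exact (notMem_support_iff.1 h).symm

theorem unique_hom {N : ℕ} (m : Fin N ⊕ Fin N →₀ ℕ)
    (hm : m ∈ (∏ i : Fin N, ∏ j : Fin N with i < j, wedge i j ^ 3).support) (k : Fin N) :
    m (Sum.inl k) + m (Sum.inr k) = 3 * (N - 1) := by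
  let w : Fin N ⊕ Fin N → ℕ :=
    Sum.elim (fun j => if j = k then 1 else 0) (fun j => if j = k then 1 else 0)
  have hw : ∀ i j : Fin N, IsWeightedHomogeneous w (wedge i j)
      ((if i = k then 1 else 0) + (if j = k then 1 else 0)) := by
    intro i j
    refine IsWeightedHomogeneous.sub ?_ ?_
    · exact (isWeightedHomogeneous_X ℂ w (Sum.inl i)).mul (isWeightedHomogeneous_X ℂ w (Sum.inr j))
    · rw [add_comm]
      exact (isWeightedHomogeneous_X ℂ w (Sum.inl j)).mul (isWeightedHomogeneous_X ℂ w (Sum.inr i))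
  have h := IsWeightedHomogeneous.prod univ (fun i : Fin N => ∏ j : Fin N with i < j, wedge i j ^ 3)
    (fun i => ∑ j : Fin N with i < j, 3 • ((if i = k then 1 else 0) + (if j = k then 1 else 0)))
    (w := w) (fun i _ => IsWeightedHomogeneous.prod _ _ _ fun j _ => (hw i j).pow 3)
  have h2 := h (mem_support_iff.1 hm)
  rw [Finsupp.weight_apply, Finsupp.sum_fintype _ _ (by simp), Fintype.sum_sum_type] at h2
  simp only [← smul_sum, unique_count] at h2
  simpa [w] using h2

theorem unique_coeff {N : ℕ} (x : Fin N → Fin (3 * (N - 1) + 1)) :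
    coeff (expo (3 * (N - 1)) x) (∏ i : Fin N, ∏ j : Fin N with i < j, wedge i j ^ 3) =
      ((coeff (uniqueE x) (∏ i : Fin N, ∏ j : Fin N with i < j,
        (X i - X j : MvPolynomial (Fin N) ℝ) ^ 3) : ℝ) : ℂ) := by
  rw [← unique_dehom _ (fun m hm k => unique_hom m hm k) x]
  have : (aeval (Sum.elim X (fun _ => 1)) (∏ i : Fin N, ∏ j : Fin N with i < j, wedge i j ^ 3) :
      MvPolynomial (Fin N) ℂ) = map Complex.ofRealHom (∏ i : Fin N, ∏ j : Fin N with i < j,
        (X i - X j : MvPolynomial (Fin N) ℝ) ^ 3) := by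
    simp [map_prod, wedge]
  rw [this, coeff_map]
  rfl

theorem unique_rename {Q N : ℕ} (p : (Fin N → Fin (Q + 1)) → ℝ) (hp : Anti p)
    (π : Equiv.Perm (Fin N)) :
    rename π (∑ x, monomial (uniqueE x) (p x)) =
      C ((Equiv.Perm.sign π : ℤ) : ℝ) * ∑ x, monomial (uniqueE x) (p x) := by
  rw [map_sum, mul_sum]
  refine (Fintype.sum_equiv (Equiv.arrowCongr π.symm (Equiv.refl _)) _ _ fun y => ?_).symm
  rw [rename_monomial, C_mul_monomial, ← hp π y]
  congr 2
  ext i
  rw [Finsupp.mapDomain_equiv_apply]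
  simp [uniqueE_apply]

theorem unique_ker {Q n : ℕ} (φ : (Fin (n + 2) → Fin (Q + 1)) → ℝ) (hker : ∀ s x, amp φ s x = 0) :
    rename (Function.update id (0 : Fin (n + 2)) 1)
      (X 0 * pderiv 0 (∑ x, monomial (uniqueE x) (φ x * ∏ i, Real.sqrt (Q.choose (x i)))) -
        X 1 * pderiv 1 (∑ x, monomial (uniqueE x) (φ x * ∏ i, Real.sqrt (Q.choose (x i))))) = 0 := by
  simp only [map_sum, mul_sum, X_mul_pderiv_monomial, ← sum_sub_distrib]
  have e : ∀ (a b : Fin (Q + 1)) (y : Fin n → Fin (Q + 1)) (c : ℝ),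
      rename (Function.update id (0 : Fin (n + 2)) 1)
        (monomial (uniqueE (Fin.cons a (Fin.cons b y) : Fin (n + 2) → Fin (Q + 1))) c) =
      C c * (X 1 ^ ((a : ℕ) + (b : ℕ)) * ∏ i : Fin n, X i.succ.succ ^ (y i : ℕ)) := by
    intro a b y c
    rw [monomial_eq, Finsupp.prod_fintype _ _ (by simp), Fin.prod_univ_succ, Fin.prod_univ_succ]
    simp only [map_mul, rename_C, map_pow, map_prod, rename_X, uniqueE_apply, Fin.cons_zero,
      Fin.cons_succ, Function.update_self, Function.update_of_ne (Fin.succ_ne_zero _), id,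
      Fin.succ_zero_eq_one, pow_add]
    rw [Function.update_of_ne (by simp)]
    simp only [Fin.cons_one, Fin.cons_zero, id]
    ring
  rw [← (Fin.consEquiv fun _ => Fin (Q + 1)).sum_comp, Fintype.sum_prod_type]
  simp only [← (Fin.consEquiv fun _ : Fin (n + 1) => Fin (Q + 1)).sum_comp, Fintype.sum_prod_type]
  simp only [Fin.consEquiv_apply]
  have e2 : ∀ (a b : Fin (Q + 1)) (y : Fin n → Fin (Q + 1)),
      rename (Function.update id (0 : Fin (n + 2)) 1)
        (uniqueE (Fin.cons a (Fin.cons b y) : Fin (n + 2) → Fin (Q + 1)) 0 •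
          monomial (uniqueE (Fin.cons a (Fin.cons b y) : Fin (n + 2) → Fin (Q + 1)))
            (φ (Fin.cons a (Fin.cons b y)) * ∏ i, Real.sqrt (Q.choose
              ((Fin.cons a (Fin.cons b y) : Fin (n + 2) → Fin (Q + 1)) i))) -
        uniqueE (Fin.cons a (Fin.cons b y) : Fin (n + 2) → Fin (Q + 1)) 1 •
          monomial (uniqueE (Fin.cons a (Fin.cons b y) : Fin (n + 2) → Fin (Q + 1)))
            (φ (Fin.cons a (Fin.cons b y)) * ∏ i, Real.sqrt (Q.choose
              ((Fin.cons a (Fin.cons b y) : Fin (n + 2) → Fin (Q + 1)) i)))) =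
      ∑ s ∈ range (2 * Q + 1), C (if (a : ℕ) + (b : ℕ) = s then
        (((a : ℕ) : ℝ) - ((b : ℕ) : ℝ)) * Real.sqrt (Q.choose a) * Real.sqrt (Q.choose b) *
          φ (Fin.cons a (Fin.cons b y)) else 0) *
        (C (∏ i : Fin n, Real.sqrt (Q.choose (y i))) *
          (X 1 ^ s * ∏ i : Fin n, X i.succ.succ ^ (y i : ℕ))) := by
    intro a b y
    rw [Finset.sum_eq_single ((a : ℕ) + (b : ℕ))]
    · rw [map_sub, map_nsmul, map_nsmul, e, if_pos rfl, Fin.prod_univ_succ, Fin.prod_univ_succ]
      simp only [uniqueE_apply, Fin.cons_zero, Fin.cons_succ, Fin.cons_one, nsmul_eq_mul, map_mul,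
        map_sub, map_natCast]
      ring
    · intro s _ hs
      rw [if_neg (Ne.symm hs)]; simp
    · intro h
      exfalso; apply h
      have := a.2; have := b.2
      rw [mem_range]; omega
  refine Eq.trans (sum_congr rfl fun a _ => sum_congr rfl fun b _ => sum_congr rfl fun y _ =>
    e2 a b y) ?_
  have e3 : ∀ (F : Fin (Q + 1) → Fin (Q + 1) → (Fin n → Fin (Q + 1)) → ℕ →
      MvPolynomial (Fin (n + 2)) ℝ), ∑ a, ∑ b, ∑ y, ∑ s ∈ range (2 * Q + 1), F a b y s =
      ∑ y, ∑ s ∈ range (2 * Q + 1), ∑ a, ∑ b, F a b y s := by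
    intro F
    calc ∑ a, ∑ b, ∑ y, ∑ s ∈ range (2 * Q + 1), F a b y s
        = ∑ a, ∑ y, ∑ s ∈ range (2 * Q + 1), ∑ b, F a b y s := by
          refine sum_congr rfl fun a _ => ?_
          rw [sum_comm]
          exact sum_congr rfl fun y _ => sum_comm
      _ = _ := by
          rw [sum_comm]
          exact sum_congr rfl fun y _ => sum_comm
  rw [e3]
  refine sum_eq_zero fun y _ => sum_eq_zero fun s _ => ?_
  simp only [← sum_mul, ← map_sum]
  have := hker s y
  unfold amp at this
  rw [this]; simp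

theorem laughlin_unique (n : ℕ) (φ : (Fin (n + 2) → Fin (3 * (n + 2 - 1) + 1)) → ℝ)
    (hanti : Anti φ) (hker : ∀ s x, amp φ s x = 0) :
    ∃ t : ℝ, ∀ x, (φ x : ℂ) = (t : ℂ) * laughlin (n + 2) x := by
  classical
  set p : (Fin (n + 2) → Fin (3 * (n + 2 - 1) + 1)) → ℝ :=
    fun x => φ x * ∏ i, Real.sqrt ((3 * (n + 2 - 1)).choose (x i)) with hp
  have hpa : Anti p := by
    intro π x
    simp only [hp]
    rw [hanti π x, mul_assoc]
    congr 2
    exact Equiv.prod_comp π (fun i => Real.sqrt ((3 * (n + 2 - 1)).choose (x i)))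
  set P : MvPolynomial (Fin (n + 2)) ℝ := ∑ x, monomial (uniqueE x) (p x) with hP
  have h01 : (0 : Fin (n + 2)) ≠ 1 := by simp
  have hc : (X 0 - X 1 : MvPolynomial (Fin (n + 2)) ℝ) ^ 3 ∣ P := by
    refine unique_cube_dvd h01 P ?_ (unique_ker φ hker)
    rw [hP, unique_rename p hpa, Equiv.Perm.sign_swap h01]
    simp
  have hall : ∀ i j : Fin (n + 2), i ≠ j → (X i - X j : MvPolynomial (Fin (n + 2)) ℝ) ^ 3 ∣ P := by
    intro i j hij
    have hj : Equiv.swap 0 i j ≠ 0 := by
      intro h
      have := congrArg (Equiv.swap 0 i) h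
      rw [Equiv.swap_apply_self, Equiv.swap_apply_left] at this
      exact hij this.symm
    let π : Equiv.Perm (Fin (n + 2)) := Equiv.swap 0 i * Equiv.swap 1 (Equiv.swap 0 i j)
    have h0 : π 0 = i := by
      simp only [π, Equiv.Perm.mul_apply]
      rw [Equiv.swap_apply_of_ne_of_ne h01 hj.symm, Equiv.swap_apply_left]
    have h1 : π 1 = j := by
      simp only [π, Equiv.Perm.mul_apply]
      rw [Equiv.swap_apply_left, Equiv.swap_apply_self]
    have h2 := map_dvd (rename (R := ℝ) π) hc
    rw [map_pow, map_sub, rename_X, rename_X, h0, h1, hP, unique_rename p hpa, ← hP] at h2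
    rcases Int.units_eq_one_or (Equiv.Perm.sign π) with h | h <;> rw [h] at h2 <;> simpa using h2
  have hcoeff : ∀ x, coeff (uniqueE x) P = p x := by
    intro x
    rw [hP, coeff_sum, Finset.sum_eq_single x]
    · simp
    · intro y _ hy
      rw [coeff_monomial, if_neg fun h => hy (uniqueE_inj h)]
    · simp
  have hdeg : ∀ k, degreeOf k P ≤ 3 * (n + 2 - 1) := by
    intro k
    rw [degreeOf_le_iff]
    intro m hm
    rw [mem_support_iff, hP, coeff_sum] at hm
    obtain ⟨y, -, hy⟩ := exists_ne_zero_of_sum_ne_zero hm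
    rw [coeff_monomial] at hy
    have : uniqueE y = m := by
      by_contra h
      exact hy (if_neg h)
    rw [← this, uniqueE_apply]
    have := (y k).2
    omega
  obtain ⟨t, ht⟩ := unique_const P hall hdeg
  refine ⟨t, fun x => ?_⟩
  have h1 := hcoeff x
  rw [ht, coeff_C_mul] at h1
  have hne : (∏ i, ((Real.sqrt ((3 * (n + 2 - 1)).choose (x i)) : ℝ) : ℂ)) ≠ 0 := by
    refine prod_ne_zero_iff.2 fun i _ => ?_
    have : 0 < (3 * (n + 2 - 1)).choose (x i) := Nat.choose_pos (by have := (x i).2; omega)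
    exact_mod_cast (Real.sqrt_pos.2 (by exact_mod_cast this)).ne'
  show (φ x : ℂ) = t * (coeff (expo _ x) _ / _)
  rw [unique_coeff, ← mul_div_assoc, eq_div_iff hne]
  simp only [hp] at h1
  exact_mod_cast h1.symm

end Vale.Agent.P359
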