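import Vale.Agent.P359.Gap
import Vale.Agent.P359.HamForm
import Vale.Agent.P359.Unique

/-! Assembly of the Laughlin gap. -/

namespace Vale.Agent.P359

open Finset Filter Topology

theorem reInner_eq {κ : Type} [Fintype κ] (v w : EuclideanSpace ℂ κ) :
    reInner v w = (inner ℂ v w).re := by
  rw [reInner, PiLp.inner_apply]
  congr 1
  refine Finset.sum_congr rfl fun x _ => ?_
  simp [mul_comm]

theorem re_inner_sub_proj {E : Type} [NormedAddCommGroup E] [InnerProductSpace ℂ E]
    [FiniteDimensional ℂ E] (u v : E) (t : ℂ) :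
    (inner ℂ v (v - projOn {u} v)).re ≤ ‖v - t • u‖ ^ 2 := by
  set K := Submodule.span ℂ ({u} : Set E) with hK
  have hp : projOn {u} v = K.starProjection v := rfl
  rw [hp]
  have h1 : K.starProjection v ∈ K := K.starProjection_apply_mem v
  have h2 : v - K.starProjection v ∈ Kᗮ := K.sub_starProjection_mem_orthogonal v
  have h3 : t • u ∈ K := K.smul_mem t (Submodule.subset_span rfl)
  have h4 : inner ℂ (K.starProjection v) (v - K.starProjection v) = 0 :=
    Submodule.inner_right_of_mem_orthogonal h1 h2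
  have h5 : inner ℂ v (v - K.starProjection v) =
      inner ℂ (v - K.starProjection v) (v - K.starProjection v) := by
    rw [inner_sub_left, h4, sub_zero]
  have h6 : inner ℂ (v - K.starProjection v) (K.starProjection v - t • u) = 0 :=
    Submodule.inner_left_of_mem_orthogonal (K.sub_mem h1 h3) h2
  have h7 : v - t • u = (v - K.starProjection v) + (K.starProjection v - t • u) := by abel
  have h8 := norm_add_sq_eq_norm_sq_add_norm_sq_of_inner_eq_zero _ _ h6
  rw [← h7] at h8
  have h9 : (inner ℂ (v - K.starProjection v) (v - K.starProjection v)).re =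
      ‖v - K.starProjection v‖ ^ 2 := by
    simpa using inner_self_eq_norm_sq (𝕜 := ℂ) (v - K.starProjection v)
  rw [h5, h9]
  nlinarith [mul_self_nonneg ‖K.starProjection v - t • u‖]

theorem laughlin_gap : ∃ δ : ℝ, 0 < δ ∧ ∃ N₀ : ℕ, ∀ N : ℕ, N₀ ≤ N →
    ∀ ψ : Tens (3 * (N - 1)) (Fin N), IsFermionic ψ →
      δ * reInner ψ (ψ - projOn {laughlin N} ψ) ≤ reInner ψ (ham (3 * (N - 1)) N ψ) := by
  obtain ⟨Q0, hQ0⟩ := eventually_atTop.mp eventually_gap
  refine ⟨6 / 1000, by norm_num, Q0 + 2, fun N hN ψ hψ => ?_⟩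
  obtain ⟨n, rfl⟩ : ∃ n, N = n + 2 := ⟨N - 2, by omega⟩
  have hQ := hQ0 (3 * (n + 2 - 1)) (by omega) n
  have a1 : Anti fun x => (ψ x).re := by
    intro σ x
    simp only [hψ σ x]
    simp
  have a2 : Anti fun x => (ψ x).im := by
    intro σ x
    simp only [hψ σ x]
    simp
  obtain ⟨φ1, b1, c1, d1⟩ := hQ _ a1
  obtain ⟨φ2, b2, c2, d2⟩ := hQ _ a2
  obtain ⟨t1, e1⟩ := laughlin_unique n φ1 b1 c1
  obtain ⟨t2, e2⟩ := laughlin_unique n φ2 b2 c2
  rw [reInner_eq, reInner_eq, ham_form _ n (by omega) ψ hψ]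
  have h1 := re_inner_sub_proj (laughlin (n + 2)) ψ (t1 + t2 * Complex.I)
  have h2 : ‖ψ - ((t1 : ℂ) + t2 * Complex.I) • laughlin (n + 2)‖ ^ 2 =
      ∑ x, ((ψ x).re - φ1 x) ^ 2 + ∑ x, ((ψ x).im - φ2 x) ^ 2 := by
    rw [EuclideanSpace.norm_sq_eq, ← Finset.sum_add_distrib]
    refine Finset.sum_congr rfl fun x _ => ?_
    have : (ψ - ((t1 : ℂ) + t2 * Complex.I) • laughlin (n + 2)) x =
        ψ x - (φ1 x + φ2 x * Complex.I) := by
      rw [e1, e2]
      simp
      ring
    rw [this, Complex.sq_norm, Complex.normSq_apply]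
    simp
    ring
  rw [h2] at h1
  linarith

end Vale.Agent.P359
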