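import Vale.Agent.P359.FockCAR0

namespace Vale.Agent.P359

open Finset

variable {Q : ℕ}

/-- vacuum expectation of a word of annihilation operators -/
noncomputable def fc_word (Q : ℕ) : (N : ℕ) → (Fin N → Fin (Q + 1)) → Fock Q →ₗ[ℝ] ℝ
  | 0, _ => EuclideanSpace.projₗ ∅
  | N + 1, x => fc_word Q N (Fin.tail x) ∘ₗ ann Q (x 0)

theorem fc_word_zero (x : Fin 0 → Fin (Q + 1)) (f : Fock Q) : fc_word Q 0 x f = f ∅ := rfl

theorem fc_word_succ {N : ℕ} (x : Fin (N + 1) → Fin (Q + 1)) (f : Fock Q) :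
    fc_word Q (N + 1) x f = fc_word Q N (Fin.tail x) (ann Q (x 0) f) := rfl

theorem fc_word_swap : ∀ (N : ℕ) (i : Fin N) (x : Fin (N + 1) → Fin (Q + 1)) (f : Fock Q),
    fc_word Q (N + 1) (x ∘ Equiv.swap i.castSucc i.succ) f = -fc_word Q (N + 1) x f
  | 0, i, _, _ => i.elim0
  | N + 1, i, x, f => by
    refine Fin.cases ?_ (fun j => ?_) i
    · rw [fc_word_succ, fc_word_succ, fc_word_succ, fc_word_succ]
      have h1 : Fin.tail (Fin.tail (x ∘ Equiv.swap (Fin.castSucc 0) (Fin.succ 0))) =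
          Fin.tail (Fin.tail x) := by
        funext k
        simp only [Fin.tail, Function.comp_apply]
        rw [Equiv.swap_apply_of_ne_of_ne]
        · exact Fin.succ_ne_zero _
        · exact fun h => Fin.succ_ne_zero _ (Fin.succ_injective _ h)
      have h2 : (x ∘ Equiv.swap (Fin.castSucc 0) (Fin.succ 0)) 0 = Fin.tail x 0 := by
        simp [Fin.tail]
      have h3 : Fin.tail (x ∘ Equiv.swap (Fin.castSucc 0) (Fin.succ 0)) 0 = x 0 := by
        simp [Fin.tail]
      rw [h1, h2, h3, ← map_neg]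
      congr 1
      exact LinearMap.congr_fun (fc_anti (x 0) (Fin.tail x 0)) f
    · rw [fc_word_succ, fc_word_succ (x := x)]
      have h1 : Fin.tail (x ∘ Equiv.swap j.succ.castSucc j.succ.succ) =
          Fin.tail x ∘ Equiv.swap j.castSucc j.succ := by
        funext k
        simp only [Fin.tail, Function.comp_apply]
        rw [← Fin.succ_castSucc, (Fin.succ_injective _).swap_apply]
      have h2 : (x ∘ Equiv.swap j.succ.castSucc j.succ.succ) 0 = x 0 := by
        simp only [Function.comp_apply]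
        rw [Equiv.swap_apply_of_ne_of_ne]
        · rw [← Fin.succ_castSucc]; exact (Fin.succ_ne_zero _).symm
        · exact (Fin.succ_ne_zero _).symm
      rw [h1, h2, fc_word_swap N j]

theorem fc_word_anti (N : ℕ) (f : Fock Q) : Anti fun x : Fin N → Fin (Q + 1) => fc_word Q N x f := by
  intro σ
  rcases N with _ | N
  · intro x
    rw [Subsingleton.elim σ 1]; simp [fc_word_zero]
  · have hσ : σ ∈ Submonoid.closure
        (Set.range fun i : Fin N => Equiv.swap i.castSucc i.succ) := by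
      rw [Equiv.Perm.mclosure_swap_castSucc_succ]; trivial
    induction hσ using Submonoid.closure_induction with
    | mem τ hτ =>
      obtain ⟨i, rfl⟩ := hτ
      intro x
      simp only
      rw [fc_word_swap, Equiv.Perm.sign_swap (Fin.castSucc_lt_succ (i := i)).ne]
      simp
    | one => intro x; simp
    | mul σ τ _ _ h1 h2 =>
      intro x
      have h3 := h2 (x ∘ σ)
      have h4 := h1 x
      simp only at h3 h4 ⊢
      rw [Equiv.Perm.coe_mul, ← Function.comp_assoc, h3, h4, map_mul]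
      push_cast; ring

theorem fc_ann_sq (N : ℕ) (f : Fock Q) :
    ∑ a, ∑ S with S.card = N, ann Q a f S ^ 2 =
      (N + 1 : ℝ) * ∑ S with S.card = N + 1, f S ^ 2 := by
  have h1 : ∀ a, ∑ S with S.card = N, ann Q a f S ^ 2 =
      ∑ S with S.card = N + 1, if a ∈ S then f S ^ 2 else 0 := by
    intro a
    rw [sum_filter, sum_filter, ← Equiv.sum_comp (fc_toggle a)]
    refine sum_congr rfl fun S _ => ?_
    rw [fc_toggle_apply, fc_ann_apply]
    by_cases h : a ∈ S
    · have h2 := card_erase_add_one h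
      simp only [h, if_true, notMem_erase, if_false, insert_erase h]
      by_cases h3 : S.card = N + 1
      · rw [if_pos h3, if_pos (by omega), mul_pow, sq (fc_sg _ _), fc_sg_sq, one_mul]
      · rw [if_neg h3, if_neg (by omega)]
    · simp [h]
  simp only [h1]
  rw [sum_comm, mul_sum]
  refine sum_congr rfl fun S hS => ?_
  rw [sum_ite_mem, univ_inter, sum_const, (mem_filter.1 hS).2, nsmul_eq_mul]
  push_cast; ring

theorem fc_word_sq (N : ℕ) (f : Fock Q) :
    ∑ x, fc_word Q N x f ^ 2 = (N.factorial : ℝ) * ∑ S with S.card = N, f S ^ 2 := by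
  induction N generalizing f with
  | zero =>
    have : (univ.filter fun S : Finset (Fin (Q + 1)) => S.card = 0) = {∅} := by
      ext S; simp
    rw [this]
    simp [fc_word_zero]
  | succ N ih =>
    rw [← Equiv.sum_comp (Fin.consEquiv fun _ => Fin (Q + 1)), Fintype.sum_prod_type]
    simp only [Fin.consEquiv_apply, fc_word_succ]
    have h1 : ∀ (a : Fin (Q + 1)) (y : Fin N → Fin (Q + 1)),
        Fin.tail ((Fin.consEquiv fun _ => Fin (Q + 1)) (a, y)) = y := fun a y => by
      funext k; simp [Fin.tail]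
    simp only [h1, Fin.cons_zero, ih, ← mul_sum, fc_ann_sq, Nat.factorial_succ]
    push_cast; ring

theorem fc_word_mono (N : ℕ) (f : Fock Q) (x : Fin N → Fin (Q + 1)) (hx : StrictMono x) :
    fc_word Q N x f = f (univ.image x) := by
  induction N generalizing f with
  | zero => simp [fc_word_zero]
  | succ N ih =>
    have hlt : ∀ b ∈ univ.image (Fin.tail x), x 0 < b := by
      intro b hb
      obtain ⟨k, -, rfl⟩ := mem_image.1 hb
      exact hx (Fin.succ_pos k)
    rw [fc_word_succ, ih _ (Fin.tail x) (hx.comp Fin.strictMono_succ), fc_ann_apply]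
    rw [if_neg fun h => lt_irrefl _ (hlt _ h), fc_sg,
      filter_eq_empty_iff.2 fun b hb => (hlt b hb).not_gt]
    have h2 : insert (x 0) (univ.image (Fin.tail x)) = univ.image x := by
      rw [Fin.univ_succ, cons_eq_insert, image_insert, map_eq_image, image_image]
      rfl
    simp [h2]

theorem fc_anti_ext {N : ℕ} {φ ψ : (Fin N → Fin (Q + 1)) → ℝ} (hφ : Anti φ) (hψ : Anti ψ)
    (h : ∀ x, StrictMono x → φ x = ψ x) (x : Fin N → Fin (Q + 1)) : φ x = ψ x := by
  by_cases hx : Function.Injective x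
  · have h1 := h _ ((Tuple.monotone_sort x).strictMono_of_injective
      (hx.comp (Tuple.sort x).injective))
    rw [hφ, hψ] at h1
    refine mul_left_cancel₀ ?_ h1
    exact_mod_cast (Equiv.Perm.sign (Tuple.sort x)).ne_zero
  · have key : ∀ χ : (Fin N → Fin (Q + 1)) → ℝ, Anti χ → χ x = 0 := by
      intro χ hχ
      obtain ⟨i, j, hij, hne⟩ := Function.not_injective_iff.1 hx
      have h1 := hχ (Equiv.swap i j) x
      have h2 : x ∘ Equiv.swap i j = x := funext fun k => Equiv.apply_swap_eq_self hij k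
      rw [h2, Equiv.Perm.sign_swap hne] at h1
      push_cast at h1
      linarith
    rw [key φ hφ, key ψ hψ]

/-- vectors with a fixed particle number -/
def fc_Supp (N : ℕ) (f : Fock Q) : Prop := ∀ S : Finset (Fin (Q + 1)), S.card ≠ N → f S = 0

theorem fc_surj {N : ℕ} {φ : (Fin N → Fin (Q + 1)) → ℝ} (hφ : Anti φ) :
    ∃ f : Fock Q, fc_Supp N f ∧ ∀ x, φ x = fc_word Q N x f := by
  refine ⟨WithLp.toLp 2 fun S => if h : S.card = N then φ (S.orderEmbOfFin h) else 0,
    fun S hS => dif_neg hS, fc_anti_ext hφ (fc_word_anti N _) fun x hx => ?_⟩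
  have h1 : (univ.image x).card = N := by
    rw [card_image_of_injective _ hx.injective]; simp
  rw [fc_word_mono N _ x hx]
  simp only [dif_pos h1]
  congr 1
  exact orderEmbOfFin_unique h1 (fun i => mem_image_of_mem _ (mem_univ i)) hx

theorem fc_supp_chat {N : ℕ} {f : Fock Q} (hf : fc_Supp (N + 1) f) (a : ℕ) :
    fc_Supp N (chat Q a f) := by
  intro S hS
  unfold chat
  split_ifs with h
  · simp only [LinearMap.smul_apply, PiLp.smul_apply, fc_ann_apply]
    split_ifs with h2
    · simp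
    · rw [hf _ (by rw [card_insert_of_notMem h2]; omega)]; simp
  · simp

theorem fc_supp_pair {N : ℕ} {f : Fock Q} (hf : fc_Supp (N + 2) f) (m : ℕ) :
    fc_Supp N (pairA (chat Q) m f) := by
  intro S hS
  simp only [pairA, LinearMap.sum_apply, LinearMap.smul_apply, Module.End.mul_apply,
    WithLp.ofLp_sum, Finset.sum_apply, PiLp.smul_apply]
  exact sum_eq_zero fun p _ => by rw [fc_supp_chat (fc_supp_chat hf _) _ S hS, smul_zero]

theorem fc_amp (hQ : 1 ≤ Q) (n m : ℕ) (f : Fock Q) (x : Fin n → Fin (Q + 1)) :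
    amp (fun y => fc_word Q (n + 2) y f) (m + 1) x =
      Real.sqrt ((Q : ℝ) ^ (m + 1)) * fc_word Q n x (pairA (chat Q) m f) := by
  have hQ' : (0 : ℝ) < Q := by exact_mod_cast hQ
  let F : ℕ → ℕ → ℝ := fun a b => Real.sqrt ((Q : ℝ) ^ (m + 1)) *
    (((a : ℝ) - b) * fc_word Q n x (chat Q b (chat Q a f)))
  have h1 : Real.sqrt ((Q : ℝ) ^ (m + 1)) * fc_word Q n x (pairA (chat Q) m f) =
      ∑ p ∈ antidiagonal (m + 1), F p.1 p.2 := by
    simp only [pairA, LinearMap.sum_apply, LinearMap.smul_apply, Module.End.mul_apply, map_sum,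
      map_smul, smul_eq_mul, mul_sum, F]
  have h2 : amp (fun y => fc_word Q (n + 2) y f) (m + 1) x =
      ∑ a ∈ range (Q + 1), ∑ b ∈ range (Q + 1), if a + b = m + 1 then F a b else 0 := by
    rw [amp, sum_range]
    refine sum_congr rfl fun a _ => ?_
    rw [sum_range]
    refine sum_congr rfl fun b _ => ?_
    split_ifs with h
    · simp only [F, chat, dif_pos a.2, dif_pos b.2, LinearMap.smul_apply, map_smul, smul_eq_mul,
        fc_word_succ, Fin.cons_zero, Fin.tail_cons, Fin.eta]
      have h3 : ∀ c : ℕ, Real.sqrt (Q.choose c) = Real.sqrt ((Q : ℝ) ^ c) * Real.sqrt (uu Q Q c) :=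
        fun c => by
          rw [← Real.sqrt_mul (by positivity), uu]
          congr 1
          field_simp
      rw [h3, h3, ← h, pow_add, Real.sqrt_mul (by positivity)]
      ring
    · rfl
  rw [h1, h2, ← sum_product', ← sum_filter]
  refine sum_subset (fun p hp => ?_) fun p hp hp' => ?_
  · exact mem_antidiagonal.2 (mem_filter.1 hp).2
  · have h3 := mem_antidiagonal.1 hp
    simp only [mem_filter, mem_product, mem_range, h3, and_true, not_and_or] at hp'
    rcases hp' with h | h
    · have h4 : chat Q p.1 = 0 := dif_neg h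
      simp [F, h4]
    · have h4 : chat Q p.2 = 0 := dif_neg h
      simp [F, h4]

theorem fc_amp_zero {n : ℕ} (φ : (Fin (n + 2) → Fin (Q + 1)) → ℝ) (x : Fin n → Fin (Q + 1)) :
    amp φ 0 x = 0 := by
  refine sum_eq_zero fun a _ => sum_eq_zero fun b _ => ?_
  split_ifs with h
  · have ha : (a : ℕ) = 0 := by omega
    have hb : (b : ℕ) = 0 := by omega
    simp [ha, hb]
  · rfl

theorem fock_reduction (Q n : ℕ) (hQ : 1 ≤ Q) (δ : ℝ) (hδ : 0 ≤ δ)
    (hgap : ∀ f : Fock Q, ∃ f0 : Fock Q, (∀ m, pairA (chat Q) m f0 = 0) ∧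
      δ * ‖f - f0‖ ^ 2 ≤
        ∑ m ∈ range (2 * Q - 1), wt (2 * Q - 2) Q m / 4 * ‖pairA (chat Q) m f‖ ^ 2)
    (φ : (Fin (n + 2) → Fin (Q + 1)) → ℝ) (hφ : Anti φ) :
    ∃ φ0 : (Fin (n + 2) → Fin (Q + 1)) → ℝ, Anti φ0 ∧ (∀ s x, amp φ0 s x = 0) ∧
      δ * ∑ x, (φ x - φ0 x) ^ 2 ≤ energy φ := by
  have hQ' : (0 : ℝ) < Q := by exact_mod_cast hQ
  obtain ⟨f, hf, hφf⟩ := fc_surj hφ
  obtain rfl : φ = fun y => fc_word Q (n + 2) y f := funext hφf
  obtain ⟨f0, h0, hle⟩ := hgap f
  refine ⟨fun y => fc_word Q (n + 2) y f0, fc_word_anti _ _, fun s x => ?_, ?_⟩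
  · rcases s with _ | m
    · exact fc_amp_zero _ _
    · rw [fc_amp hQ, h0, map_zero, mul_zero]
  · have h1 : ∑ x, (fc_word Q (n + 2) x f - fc_word Q (n + 2) x f0) ^ 2 ≤
        ((n + 2).factorial : ℝ) * ‖f - f0‖ ^ 2 := by
      simp only [← map_sub]
      rw [fc_word_sq, EuclideanSpace.real_norm_sq_eq]
      exact mul_le_mul_of_nonneg_left
        (sum_le_sum_of_subset_of_nonneg (filter_subset _ _) fun _ _ _ => sq_nonneg _)
        (Nat.cast_nonneg _)
    have h2 : energy (fun y => fc_word Q (n + 2) y f) = ((n + 2).factorial : ℝ) *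
        ∑ m ∈ range (2 * Q - 1), wt (2 * Q - 2) Q m / 4 * ‖pairA (chat Q) m f‖ ^ 2 := by
      rw [energy, mul_sum, mul_sum]
      refine sum_congr rfl fun m _ => ?_
      have h3 : ‖pairA (chat Q) m f‖ ^ 2 = ∑ S with S.card = n, pairA (chat Q) m f S ^ 2 := by
        rw [EuclideanSpace.real_norm_sq_eq]
        refine (sum_subset (filter_subset _ _) fun S _ hS => ?_).symm
        rw [fc_supp_pair hf m S fun h => hS (mem_filter.2 ⟨mem_univ _, h⟩)]; simp
      have h4 : ((n + 2).choose 2 : ℝ) * n.factorial * 2 = (n + 2).factorial := by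
        exact_mod_cast Nat.add_choose_mul_factorial_mul_factorial n 2
      simp only [fc_amp hQ, mul_pow, Real.sq_sqrt (pow_pos hQ' (m + 1)).le, ← sum_div, ← mul_sum]
      rw [fc_word_sq, ← h3, ← h4, wt]
      by_cases hc : ((2 * Q - 2).choose m : ℝ) = 0
      · simp [hc]
      · field_simp
        ring
    rw [h2]
    calc δ * ∑ x, (fc_word Q (n + 2) x f - fc_word Q (n + 2) x f0) ^ 2
        ≤ δ * (((n + 2).factorial : ℝ) * ‖f - f0‖ ^ 2) := mul_le_mul_of_nonneg_left h1 hδ
      _ = ((n + 2).factorial : ℝ) * (δ * ‖f - f0‖ ^ 2) := by ring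
      _ ≤ _ := mul_le_mul_of_nonneg_left hle (Nat.cast_nonneg _)

end Vale.Agent.P359
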