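import Vale.Agent.P359.Basic

namespace Vale.Agent.P359

open Finset

variable {Q : ℕ}

/-- the fermionic sign -/
noncomputable def fc_sg (a : Fin (Q + 1)) (S : Finset (Fin (Q + 1))) : ℝ :=
  (-1) ^ (S.filter (· < a)).card

theorem fc_sg_sq (a : Fin (Q + 1)) (S : Finset (Fin (Q + 1))) : fc_sg a S * fc_sg a S = 1 := by
  rw [fc_sg, ← mul_pow]; simp

theorem fc_sg_insert (a : Fin (Q + 1)) {b : Fin (Q + 1)} {S : Finset (Fin (Q + 1))}
    (hb : b ∉ S) : fc_sg a (insert b S) = if b < a then -fc_sg a S else fc_sg a S := by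
  simp only [fc_sg, filter_insert]
  split_ifs with h
  · rw [card_insert_of_notMem (fun h' => hb (mem_filter.1 h').1), pow_succ]; ring
  · rfl

theorem fc_sg_erase (a : Fin (Q + 1)) {b : Fin (Q + 1)} {S : Finset (Fin (Q + 1))}
    (hb : b ∈ S) : fc_sg a (S.erase b) = if b < a then -fc_sg a S else fc_sg a S := by
  have h := fc_sg_insert a (notMem_erase b S)
  rw [insert_erase hb] at h
  split_ifs at h ⊢ <;> linarith

theorem fc_ann_apply (a : Fin (Q + 1)) (f : Fock Q) (S : Finset (Fin (Q + 1))) :
    ann Q a f S = if a ∈ S then 0 else fc_sg a S * f (insert a S) := rfl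

/-- creation operator -/
noncomputable def fc_cre (Q : ℕ) (a : Fin (Q + 1)) : Module.End ℝ (Fock Q) where
  toFun f := WithLp.toLp 2 fun S => if a ∈ S then fc_sg a S * f (S.erase a) else 0
  map_add' f g := by
    ext S
    by_cases h : a ∈ S <;> simp [h, mul_add]
  map_smul' r f := by
    ext S
    by_cases h : a ∈ S <;> simp [h]
    ring

theorem fc_cre_apply (a : Fin (Q + 1)) (f : Fock Q) (S : Finset (Fin (Q + 1))) :
    fc_cre Q a f S = if a ∈ S then fc_sg a S * f (S.erase a) else 0 := rfl

/-- toggling membership of `a` -/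
def fc_toggle (a : Fin (Q + 1)) : Equiv.Perm (Finset (Fin (Q + 1))) :=
  Function.Involutive.toPerm (fun S => if a ∈ S then S.erase a else insert a S) fun S => by
    by_cases h : a ∈ S
    · simp [h]
    · simp [h]

theorem fc_toggle_apply (a : Fin (Q + 1)) (S : Finset (Fin (Q + 1))) :
    fc_toggle a S = if a ∈ S then S.erase a else insert a S := rfl

theorem fc_adjoint (a : Fin (Q + 1)) : LinearMap.adjoint (ann Q a) = fc_cre Q a := by
  symm
  rw [LinearMap.eq_adjoint_iff]
  intro f g
  simp only [PiLp.inner_apply, RCLike.inner_apply, conj_trivial]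
  rw [← Equiv.sum_comp (fc_toggle a)]
  refine sum_congr rfl fun S _ => ?_
  rw [fc_toggle_apply, fc_cre_apply, fc_ann_apply]
  by_cases h : a ∈ S
  · simp [h]
  · simp only [h, if_false, mem_insert_self, if_true, erase_insert h, fc_sg_insert a h,
      lt_irrefl]
    ring

theorem fc_anti (a b : Fin (Q + 1)) : ann Q a * ann Q b = -(ann Q b * ann Q a) := by
  ext f S
  simp only [Module.End.mul_apply, LinearMap.neg_apply, PiLp.neg_apply, fc_ann_apply, mem_insert]
  by_cases ha : a ∈ S <;> by_cases hb : b ∈ S
  · simp [ha, hb]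
  · simp [ha, hb]
  · simp [ha, hb]
  · rcases lt_trichotomy a b with h | h | h
    · simp only [ha, hb, h.ne, h.ne', or_self, if_false, fc_sg_insert _ ha, fc_sg_insert _ hb,
        h, h.not_gt, if_true, insert_comm a b]
      ring
    · simp [h]
    · simp only [ha, hb, h.ne, h.ne', or_self, if_false, fc_sg_insert _ ha, fc_sg_insert _ hb,
        h, h.not_gt, if_true, insert_comm a b]
      ring

theorem fc_mixed (a b : Fin (Q + 1)) :
    ann Q a * fc_cre Q b + fc_cre Q b * ann Q a = if a = b then 1 else 0 := by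
  ext f S
  simp only [Module.End.mul_apply, LinearMap.add_apply, PiLp.add_apply, fc_ann_apply,
    fc_cre_apply, mem_insert, mem_erase]
  by_cases hab : a = b
  · subst hab
    by_cases ha : a ∈ S
    · simp only [ha, if_true, ne_eq, not_true, false_and, if_false, zero_add,
        fc_sg_erase a ha, lt_irrefl, insert_erase ha, Module.End.one_apply]
      rw [← mul_assoc, fc_sg_sq, one_mul]
    · simp only [ha, if_true, if_false, true_or, add_zero, fc_sg_insert a ha, lt_irrefl,
        erase_insert ha, Module.End.one_apply]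
      rw [← mul_assoc, fc_sg_sq, one_mul]
  · have hba : ¬b = a := fun h => hab h.symm
    by_cases ha : a ∈ S <;> by_cases hb : b ∈ S
    · simp [ha, hb, hab]
    · simp [ha, hb, hab]
    · simp only [ha, hb, hab, if_true, if_false, or_true, and_false, fc_sg_insert b ha,
        fc_sg_erase a hb, erase_insert_of_ne hab, LinearMap.zero_apply, PiLp.zero_apply]
      rcases lt_or_gt_of_ne hab with h | h
      · simp only [h, h.not_gt, if_true, if_false]; ring
      · simp only [h, h.not_gt, if_true, if_false]; ring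
    · simp [ha, hb, hab, hba]

theorem fc_uu_nonneg (Q a : ℕ) : 0 ≤ uu Q Q a := by unfold uu; positivity

theorem isCAR_chat (Q : ℕ) (hQ : 1 ≤ Q) : IsCAR Q (chat Q) := by
  have _ := hQ
  refine ⟨fun a b => ?_, fun a b => ?_⟩
  · unfold chat
    split_ifs with ha hb hb
    · rw [smul_mul_smul_comm, smul_mul_smul_comm, fc_anti, mul_comm, smul_neg]
    · simp
    · simp
    · simp
  · unfold chat
    by_cases ha : a < Q + 1 <;> by_cases hb : b < Q + 1
    · rw [dif_pos ha, dif_pos hb, map_smulₛₗ, fc_adjoint, conj_trivial, smul_mul_smul_comm,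
        smul_mul_smul_comm, mul_comm (Real.sqrt (uu Q Q b)), ← smul_add, fc_mixed]
      by_cases hab : a = b
      · subst hab
        simp [Real.mul_self_sqrt (fc_uu_nonneg Q a)]
      · rw [if_neg hab, if_neg (fun h => hab (Fin.mk.inj_iff.1 h)), smul_zero]
    · rw [dif_neg hb, if_neg (by omega)]; simp
    · rw [dif_neg ha, if_neg (by omega)]; simp
    · rw [dif_neg ha]
      have : uu Q Q a = 0 := by rw [uu, Nat.choose_eq_zero_of_lt (by omega)]; simp
      simp [this]

end Vale.Agent.P359
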