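import Vale.Agent.P359.Local

/-! Rational checks of the linear constraints. -/

namespace Vale.Agent.P359

open Finset

/-- coefficient rows of `(z - 1) ^ n * (2 * z + q) ^ j` -/
def rowZ (q : ℤ) (n : ℕ) : ℕ → List ℤ
  | 0 => (List.range (n + 1)).map fun m => (-1) ^ (n - m) * (n.choose m : ℤ)
  | j + 1 => List.zipWith (· + ·) (0 :: (rowZ q n j).map (2 * ·)) ((rowZ q n j).map (q * ·) ++ [0])

def tabZ (q : ℤ) (n j m : ℕ) : ℤ := (rowZ q n j).getD m 0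

theorem tabZ_base : ∀ q ∈ [(1 : ℤ), 2], ∀ n < 16, ∀ m < n + 1,
    tabZ q n 0 m = (-1) ^ (n - m) * (n.choose m : ℤ) := by decide +kernel

theorem tabZ_step : ∀ q ∈ [(1 : ℤ), 2], ∀ n < 16, ∀ j < 15 - n, ∀ m < n + j + 2,
    tabZ q n (j + 1) m = (if m = 0 then 0 else 2 * tabZ q n j (m - 1)) +
      (if m = n + j + 1 then 0 else q * tabZ q n j m) := by decide +kernel

def nuQ (q : ℤ) (k j : ℕ) : ℚ :=
  ∑ m ∈ range (k + j + 1), (m.factorial : ℚ) / 2 ^ m *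
    (((k + j - m).factorial : ℚ) / (q : ℚ) ^ (k + j - m)) * (tabZ q k j m : ℚ) ^ 2

noncomputable def wwQ (q : ℤ) (k m a n b : ℕ) : ℚ :=
  if m + a = n + b ∧ k ≤ m + a then
    forceN (m + a - k) fun j => (tabZ q k j m : ℚ) * (tabZ q k j n : ℚ) / nuQ q k j
  else 0

noncomputable def linQ (C : ℕ → ℕ → ℕ → ℕ → ℤ) (A : ℕ) (q : ℤ) (k : ℕ) : ℚ :=
  ∑ m ∈ range 8, ∑ a ∈ range A, ∑ n ∈ range 8, ∑ b ∈ range A,
    if m + a = n + b ∧ k ≤ m + a then robQ C A m a n b * wwQ q k m a n b else 0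

theorem nuQ_ne : ∀ q ∈ [(1 : ℤ), 2], ∀ k < 16, ∀ j < 16 - k, nuQ q k j ≠ 0 := by decide +kernel

def kapQ (k : ℕ) : ℚ :=
  (-1) ^ (k + 1) * (1 ^ k / (k.factorial : ℚ) * (((k : ℚ) - 1) * ((k.factorial : ℚ) / 2 ^ k) +
    (k : ℚ) ^ 2 * (((k - 1).factorial : ℚ) / 2 ^ (k - 1))))

theorem lin2_check : ∀ k < 16, 16777216 * kapQ k * 3 + 4 * linQ cc2 9 1 k * 2 < 0 := by
  decide +kernel

theorem lin3_check : ∀ k < 15, 16 * linQ cc3 8 2 k * 2 < 16777216 * 4 := by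
  decide +kernel

theorem cost_check :
    4 * ∑ m ∈ range 8, robQ cc1 1 m 0 m 0 * (2 ^ m / (m.factorial : ℚ)) <
      95 / 100 * 16777216 := by
  decide +kernel

end Vale.Agent.P359
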