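import Vale.Agent.P359.Kappa
import Vale.Agent.P359.NumCheck

/-! The linear constraints of the certificate, in the limit and for large flux. -/

namespace Vale.Agent.P359

open Finset Filter Topology

/-- contribution of the `k`-th irreducible component to an invariant tensor -/
noncomputable def ww (D0 D1 : ℕ) (x : ℝ) (k m a n b : ℕ) : ℝ :=
  if m + a = n + b ∧ k ≤ m + a then
    wv (ee D0 x) (ee D1 x) k (m + a - k) m a * wv (ee D0 x) (ee D1 x) k (m + a - k) n b /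
      nu D0 D1 x k (m + a - k)
  else 0

theorem InvT.eq_sum_ww {D0 D1 : ℕ} {x : ℝ} {G : ℕ → ℕ → ℕ → ℕ → ℝ} (hD : D1 ≤ D0) (hx : 0 < x)
    (hG : InvT D0 D1 x G) {s : ℕ} (hs : s ≤ D1) {m a : ℕ} (h : m + a ≤ s) (n b : ℕ) :
    G m a n b = ∑ k ∈ range (s + 1), tau D0 D1 x G k * ww D0 D1 x k m a n b := by
  by_cases h1 : m + a = n + b
  · rw [hG.block hD hx (s := m + a) (by omega) rfl h1.symm]
    rw [← Finset.sum_subset (s₁ := range (m + a + 1)) (s₂ := range (s + 1))]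
    · refine Finset.sum_congr rfl fun k hk => ?_
      have := Finset.mem_range.mp hk
      rw [ww, if_pos ⟨h1, by omega⟩]
    · intro k hk
      simp only [Finset.mem_range] at hk ⊢
      omega
    · intro k _ hk
      simp only [Finset.mem_range] at hk
      rw [ww, if_neg (by omega), mul_zero]
  · rw [hG.offblock hD hx h1]
    symm
    apply Finset.sum_eq_zero
    intro k _
    rw [ww, if_neg (by omega), mul_zero]

theorem InvT.pairSum_eq {D0 D1 : ℕ} {x : ℝ} {G : ℕ → ℕ → ℕ → ℕ → ℝ} (hD : D1 ≤ D0) (hx : 0 < x)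
    (hG : InvT D0 D1 x G) (C : ℕ → ℕ → ℕ → ℕ → ℝ) {A : ℕ} (hA : A + 7 ≤ D1) :
    pairSum C (A + 1) G =
      ∑ k ∈ range (A + 7 + 1), tau D0 D1 x G k * pairSum C (A + 1) (ww D0 D1 x k) := by
  unfold pairSum
  simp only [Finset.mul_sum]
  rw [← sum4_comm]
  refine Finset.sum_congr rfl fun m hm => Finset.sum_congr rfl fun a ha =>
    Finset.sum_congr rfl fun n _ => Finset.sum_congr rfl fun b _ => ?_
  simp only [Finset.mem_range] at hm ha
  rw [hG.eq_sum_ww hD hx hA (by omega), Finset.mul_sum]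
  refine Finset.sum_congr rfl fun k _ => ?_
  ring

theorem nu_block {D0 D1 : ℕ} (hD : D1 ≤ D0) (x : ℝ) {k j : ℕ} (h : k + j ≤ D1) :
    nu D0 D1 x k j = ∑ m ∈ range (k + j + 1),
      wt D0 x m * wt D1 x (k + j - m) * wv (ee D0 x) (ee D1 x) k j m (k + j - m) ^ 2 := by
  unfold nu
  rw [← Finset.sum_subset (s₁ := range (k + j + 1))]
  · refine Finset.sum_congr rfl fun m hm => ?_
    have := Finset.mem_range.mp hm
    rw [Finset.sum_eq_single (k + j - m)]
    · intro a _ ha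
      rw [wv_eq_zero _ _ _ _ _ _ (by omega)]
      simp
    · intro h1
      exact absurd (Finset.mem_range.mpr (by omega)) h1
  · intro m hm
    simp only [Finset.mem_range] at hm ⊢
    omega
  · intro m _ hm
    simp only [Finset.mem_range] at hm
    apply Finset.sum_eq_zero
    intro a _
    rw [wv_eq_zero _ _ _ _ _ _ (by omega)]
    simp

theorem wv_eq_tabZ {q : ℤ} (hq : q ∈ [(1 : ℤ), 2]) (n j m a : ℕ) (h : n + j ≤ 15)
    (h2 : m + a = n + j) : wv (fun _ => (2 : ℝ)) (fun _ => (q : ℝ)) n j m a = tabZ q n j m := by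
  induction j generalizing m a with
  | zero =>
    rw [tabZ_base q hq n (by omega) m (by omega), wv, if_pos (show m + a = n from h2),
      show n - m = a by omega]
    push_cast
    rfl
  | succ j ih =>
    rw [tabZ_step q hq n (by omega) j (by omega) m (by omega), wv]
    push_cast
    congr 1
    · split_ifs with h1
      · rfl
      · rw [ih _ _ (by omega) (by omega)]
    · by_cases h1 : a = 0
      · rw [if_pos h1, if_pos (by omega)]
      · rw [if_neg h1, if_neg (by omega), ih _ _ (by omega) (by omega)]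

theorem tendsto_ww {D1 : ℕ → ℕ} {q : ℤ} (hq : q ∈ [(1 : ℤ), 2])
    (hD : ∀ᶠ Q : ℕ in atTop, 15 ≤ D1 Q ∧ D1 Q ≤ 2 * Q - 2)
    (h : ∀ i, Tendsto (fun Q : ℕ => ee (D1 Q) Q i) atTop (𝓝 q)) {k m a : ℕ} (hs : m + a ≤ 15)
    (n b : ℕ) :
    Tendsto (fun Q : ℕ => ww (2 * Q - 2) (D1 Q) Q k m a n b) atTop (𝓝 (wwQ q k m a n b)) := by
  have hq0 : (0 : ℝ) < q := by
    simp only [List.mem_cons, List.not_mem_nil, or_false] at hq
    rcases hq with rfl | rfl <;> norm_num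
  unfold ww wwQ
  split_ifs with h1
  swap
  · simp
  rw [forceN_eq]
  obtain ⟨j, hj⟩ : ∃ j, m + a = k + j := ⟨m + a - k, by omega⟩
  rw [show m + a - k = j by omega]
  push_cast
  have hw : ∀ m a, m + a = k + j → Tendsto (fun Q : ℕ => wv (ee (2 * Q - 2) Q) (ee (D1 Q) Q) k j m a)
      atTop (𝓝 (tabZ q k j m)) := by
    intro m a hma
    rw [← wv_eq_tabZ hq k j m a (by omega) hma]
    exact tendsto_wv tendsto_ee2 h k j m a
  refine ((hw m a hj).mul (hw n b (by omega))).div ?_ ?_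
  · have h2 : Tendsto (fun Q : ℕ => ∑ m ∈ range (k + j + 1),
        wt (2 * Q - 2) Q m * wt (D1 Q) Q (k + j - m) *
          wv (ee (2 * Q - 2) Q) (ee (D1 Q) Q) k j m (k + j - m) ^ 2) atTop (𝓝 (nuQ q k j)) := by
      unfold nuQ
      push_cast
      refine tendsto_finsetSum _ fun m hm => ?_
      have := Finset.mem_range.mp hm
      exact ((tendsto_wt two_pos tendsto_ee2 m).mul (tendsto_wt hq0 h _)).mul
        ((hw m _ (by omega)).pow 2)
    refine h2.congr' ?_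
    filter_upwards [hD] with Q hQ
    rw [nu_block hQ.2 _ (by omega)]
  · exact_mod_cast nuQ_ne q hq k (by omega) j (by omega)

theorem tendsto_lin {D1 : ℕ → ℕ} {q : ℤ} (hq : q ∈ [(1 : ℤ), 2])
    (hD : ∀ᶠ Q : ℕ in atTop, 15 ≤ D1 Q ∧ D1 Q ≤ 2 * Q - 2)
    (h : ∀ i, Tendsto (fun Q : ℕ => ee (D1 Q) Q i) atTop (𝓝 q)) (C : ℕ → ℕ → ℕ → ℕ → ℤ)
    {A : ℕ} (hA : A ≤ 9) (k : ℕ) :
    Tendsto (fun Q : ℕ => pairSum (rob C A) A (ww (2 * Q - 2) (D1 Q) Q k)) atTop
      (𝓝 (linQ C A q k)) := by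
  unfold pairSum linQ
  push_cast
  refine tendsto_finsetSum _ fun m hm => tendsto_finsetSum _ fun a ha =>
    tendsto_finsetSum _ fun n _ => tendsto_finsetSum _ fun b _ => ?_
  simp only [Finset.mem_range] at hm ha
  have := (tendsto_ww hq hD h (k := k) (m := m) (a := a) (by omega) n b).const_mul (rob C A m a n b)
  split_ifs with h1
  · simpa [rob] using this
  · simpa [wwQ, h1] using this

theorem tendsto_kap (k : ℕ) : Tendsto (fun Q : ℕ => kap Q k) atTop (𝓝 (kapQ k)) := by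
  unfold kap kapQ
  push_cast
  exact ((tendsto_uu tendsto_ee1 k).mul
    (((tendsto_wt two_pos tendsto_ee2 k).const_mul _).add
      ((tendsto_wt two_pos tendsto_ee2 (k - 1)).const_mul _))).const_mul _

theorem tendsto_ratio (r s : ℝ) : Tendsto (fun Q : ℕ => (r * Q - s) / Q) atTop (𝓝 r) := by
  have h : Tendsto (fun Q : ℕ => r - s / Q) atTop (𝓝 (r - 0)) :=
    tendsto_const_nhds.sub (tendsto_const_div_atTop_nhds_zero_nat _)
  rw [sub_zero] at h
  refine h.congr' ?_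
  filter_upwards [eventually_ge_atTop 1] with Q hQ
  have : (Q : ℝ) ≠ 0 := by positivity
  field_simp

theorem eventually_lin2 : ∀ᶠ Q : ℕ in atTop, ∀ k ∈ range 16,
    16777216 * (kap Q k * (3 * Q - (1 + 2 * k))) ≤
      -(4 * pairSum (rob cc2 9) 9 (ww (2 * Q - 2) Q Q k) * (2 * Q - 1)) := by
  rw [Finset.eventually_all]
  intro k hk
  have h1 := (((tendsto_kap k).const_mul 16777216).mul (tendsto_ratio 3 (1 + 2 * k))).add
    (((tendsto_lin (D1 := fun Q => Q) (q := 1) (by simp)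
      (by filter_upwards [eventually_ge_atTop 15] with Q hQ; omega)
      (by simpa using tendsto_ee1) cc2 le_rfl k).const_mul 4).mul (tendsto_ratio 2 1))
  have h2 : (16777216 * (kapQ k : ℝ) * 3 + 4 * (linQ cc2 9 1 k : ℝ) * 2) < 0 := by
    exact_mod_cast lin2_check k (Finset.mem_range.mp hk)
  filter_upwards [h1.eventually_lt_const h2, eventually_ge_atTop 1] with Q hQ hQ1
  have hx : (0 : ℝ) < Q := by exact_mod_cast hQ1
  rw [← mul_div_assoc, ← mul_div_assoc, ← add_div, div_lt_iff₀ hx] at hQ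
  linarith

theorem eventually_lin3 : ∀ᶠ Q : ℕ in atTop, ∀ k ∈ range 15,
    16 * pairSum (rob cc3 8) 8 (ww (2 * Q - 2) (2 * Q - 2) Q k) * (2 * Q - 1) ≤
      16777216 * (4 * Q - (3 + 2 * k)) := by
  rw [Finset.eventually_all]
  intro k hk
  have h1 := (((tendsto_lin (D1 := fun Q => 2 * Q - 2) (q := 2) (by simp)
      (by filter_upwards [eventually_ge_atTop 15] with Q hQ; omega)
      (by simpa using tendsto_ee2) cc3 (by norm_num : 8 ≤ 9) k).const_mul 16).mul
      (tendsto_ratio 2 1)).sub ((tendsto_ratio 4 (3 + 2 * k)).const_mul 16777216)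
  have h2 : (16 * (linQ cc3 8 2 k : ℝ) * 2 - 16777216 * 4) < 0 := by
    have : (16 * (linQ cc3 8 2 k : ℝ) * 2 < 16777216 * 4) := by
      exact_mod_cast lin3_check k (Finset.mem_range.mp hk)
    linarith
  filter_upwards [h1.eventually_lt_const h2, eventually_ge_atTop 1] with Q hQ hQ1
  have hx : (0 : ℝ) < Q := by exact_mod_cast hQ1
  rw [← mul_div_assoc, ← mul_div_assoc, ← sub_div, div_lt_iff₀ hx] at hQ
  linarith

theorem eventually_cost : ∀ᶠ Q : ℕ in atTop,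
    4 * ∑ m ∈ range 8, rob cc1 1 m 0 m 0 * uu (2 * Q - 2) Q m ≤ 95 / 100 * 16777216 := by
  have h1 : Tendsto (fun Q : ℕ => 4 * ∑ m ∈ range 8, rob cc1 1 m 0 m 0 * uu (2 * Q - 2) Q m)
      atTop (𝓝 (4 * ∑ m ∈ range 8, rob cc1 1 m 0 m 0 * (2 ^ m / (m.factorial : ℝ)))) :=
    (tendsto_finsetSum _ fun m _ => (tendsto_uu tendsto_ee2 m).const_mul _).const_mul _
  have h2 : 4 * ∑ m ∈ range 8, rob cc1 1 m 0 m 0 * (2 ^ m / (m.factorial : ℝ)) <
      95 / 100 * 16777216 := by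
    have := (Rat.cast_lt (K := ℝ)).mpr cost_check
    push_cast at this
    exact this
  filter_upwards [h1.eventually_lt_const h2] with Q hQ
  exact hQ.le

theorem uu_le_half {Q : ℕ} (hQ : 40 ≤ Q) {k : ℕ} (h2 : 2 ≤ k) (hk : k ≤ Q) :
    uu Q Q k ≤ 26 / 25 / 2 ^ k * uu (2 * Q - 2) Q k := by
  have hx : (0 : ℝ) < Q := by exact_mod_cast (show 0 < Q by omega)
  have hQ' : (40 : ℝ) ≤ Q := by exact_mod_cast hQ
  have he2 : ∀ i, ee (2 * Q - 2) Q i = (2 * Q - 2 - i) / Q := by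
    intro i
    unfold ee
    rw [Nat.cast_sub (by omega)]
    push_cast
    ring
  induction k, h2 using Nat.le_induction with
  | base =>
    rw [uu_eq_prod _ hx.ne', uu_eq_prod _ hx.ne']
    simp only [Finset.prod_range_succ, Finset.prod_range_zero, he2]
    simp only [ee]
    rw [← sub_nonneg]
    have : 26 / 25 / 2 ^ 2 * (1 * ((2 * (Q : ℝ) - 2 - (0 : ℕ)) / Q) *
        ((2 * Q - 2 - (1 : ℕ)) / Q) / (Nat.factorial 2 : ℕ)) -
        1 * (((Q : ℝ) - (0 : ℕ)) / Q) * (((Q : ℝ) - (1 : ℕ)) / Q) / (Nat.factorial 2 : ℕ) =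
        (Q - 1) * (Q - 39) / (50 * Q ^ 2) := by
      norm_num [Nat.factorial]
      field_simp
      ring
    rw [this]
    apply div_nonneg _ (by positivity)
    apply mul_nonneg <;> linarith
  | succ k h2 ih =>
    have ih := ih (by omega)
    have e1 := uu_succ Q hx.ne' k
    have e2 := uu_succ (2 * Q - 2) hx.ne' k
    have hk' : (k : ℝ) + 1 ≤ Q := by exact_mod_cast hk
    have h2' : (2 : ℝ) ≤ k := by exact_mod_cast h2
    have h3 : 0 ≤ ee Q Q k := div_nonneg (by linarith) hx.le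
    have h4 : ee Q Q k ≤ ee (2 * Q - 2) Q k / 2 := by
      rw [he2, ee, div_div, div_le_div_iff₀ hx (by positivity)]
      nlinarith
    have h5 := uu_nonneg Q hx.le k
    apply le_of_mul_le_mul_left _ (show (0 : ℝ) < k + 1 by positivity)
    calc ((k : ℝ) + 1) * uu Q Q (k + 1) = ee Q Q k * uu Q Q k := e1
      _ ≤ ee (2 * Q - 2) Q k / 2 * (26 / 25 / 2 ^ k * uu (2 * Q - 2) Q k) :=
          mul_le_mul h4 ih h5 (h3.trans h4)
      _ = 26 / 25 / 2 ^ (k + 1) * (ee (2 * Q - 2) Q k * uu (2 * Q - 2) Q k) := by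
          rw [pow_succ]
          field_simp
      _ = _ := by
          rw [← e2]
          ring

theorem kap_le {Q : ℕ} (hQ : 40 ≤ Q) {k : ℕ} (h3 : 3 ≤ k) (hk : k ≤ Q) :
    kap Q k ≤ 26 / 25 * (3 * k / 2 ^ k) := by
  have hx : (0 : ℝ) < Q := by exact_mod_cast (show 0 < Q by omega)
  obtain ⟨k, rfl⟩ : ∃ j, k = j + 1 := ⟨k - 1, by omega⟩
  have hk' : (k : ℝ) + 1 ≤ Q := by exact_mod_cast hk
  have a1 := uu_le_half hQ (by omega : 2 ≤ k + 1) hk
  have a2 := uu_le_half hQ (by omega : 2 ≤ k) (by omega)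
  have b1 := wt_mul_uu hx (show k + 1 ≤ 2 * Q - 2 by omega)
  have b2 := wt_mul_uu hx (show k ≤ 2 * Q - 2 by omega)
  have c1 := wt_nonneg (2 * Q - 2) hx.le (k + 1)
  have c2 := wt_nonneg (2 * Q - 2) hx.le k
  have d1 : uu Q Q (k + 1) * wt (2 * Q - 2) Q (k + 1) ≤ 26 / 25 / 2 ^ (k + 1) := by
    calc _ ≤ 26 / 25 / 2 ^ (k + 1) * uu (2 * Q - 2) Q (k + 1) * wt (2 * Q - 2) Q (k + 1) :=
          mul_le_mul_of_nonneg_right a1 c1
      _ = _ := by rw [mul_assoc, mul_comm (uu _ _ _), b1, mul_one]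
  have d2 : uu Q Q k * wt (2 * Q - 2) Q k ≤ 26 / 25 / 2 ^ k := by
    calc _ ≤ 26 / 25 / 2 ^ k * uu (2 * Q - 2) Q k * wt (2 * Q - 2) Q k :=
          mul_le_mul_of_nonneg_right a2 c2
      _ = _ := by rw [mul_assoc, mul_comm (uu _ _ _), b2, mul_one]
  have e1 := uu_succ Q hx.ne' k
  have h4 : ee Q Q k ≤ 1 := by
    rw [ee, div_le_one hx]
    have : (0 : ℝ) ≤ k := by positivity
    linarith
  have u0 := uu_nonneg Q hx.le k
  have u1 := uu_nonneg Q hx.le (k + 1)
  have d3 : ((k : ℝ) + 1) * uu Q Q (k + 1) * wt (2 * Q - 2) Q k ≤ 26 / 25 / 2 ^ k := by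
    rw [e1, mul_assoc]
    calc _ ≤ 1 * (uu Q Q k * wt (2 * Q - 2) Q k) :=
          mul_le_mul_of_nonneg_right h4 (mul_nonneg u0 c2)
      _ ≤ _ := by rw [one_mul]; exact d2
  have k0 : (0 : ℝ) ≤ k := by positivity
  set t := uu Q Q (k + 1) * ((((k + 1 : ℕ) : ℝ) - 1) * wt (2 * Q - 2) Q (k + 1) +
    ((k + 1 : ℕ) : ℝ) ^ 2 * wt (2 * Q - 2) Q (k + 1 - 1)) with ht
  have t1 : t = k * (uu Q Q (k + 1) * wt (2 * Q - 2) Q (k + 1)) +
      (k + 1) * (((k : ℝ) + 1) * uu Q Q (k + 1) * wt (2 * Q - 2) Q k) := by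
    rw [ht, Nat.add_sub_cancel]
    push_cast
    ring
  have t0 : 0 ≤ t := by
    rw [t1]
    positivity
  have t2 : t ≤ 26 / 25 * (3 * ((k + 1 : ℕ) : ℝ) / 2 ^ (k + 1)) := by
    rw [t1]
    calc _ ≤ (k : ℝ) * (26 / 25 / 2 ^ (k + 1)) + ((k : ℝ) + 1) * (26 / 25 / 2 ^ k) :=
          add_le_add (mul_le_mul_of_nonneg_left d1 k0) (mul_le_mul_of_nonneg_left d3 (by linarith))
      _ = 26 / 25 * ((3 * (k : ℝ) + 2) / 2 ^ (k + 1)) := by
          rw [pow_succ]
          field_simp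
          ring
      _ ≤ _ := by
          push_cast
          gcongr
          linarith
  unfold kap
  rw [← ht]
  rcases neg_one_pow_eq_or ℝ (k + 1 + 1) with h | h <;> rw [h] <;> linarith

theorem tail_sum (n : ℕ) :
    ∑ k ∈ range n, (((16 + k : ℕ) : ℝ) * ((16 + k : ℕ) + 1) / 2 ^ (16 + k)) ≤ 616 / 65536 := by
  have h : ∀ n : ℕ, ∑ k ∈ range n, (((16 + k : ℕ) : ℝ) * ((16 + k : ℕ) + 1) / 2 ^ (16 + k)) =
      616 / 65536 - (2 * (16 + n : ℝ) ^ 2 + 6 * (16 + n) + 8) / 2 ^ (16 + n) := by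
    intro n
    induction n with
    | zero => norm_num
    | succ n ih =>
      rw [Finset.sum_range_succ, ih, ← add_assoc, pow_succ _ (16 + n)]
      push_cast
      field_simp
      ring
  rw [h]
  have : 0 ≤ (2 * (16 + n : ℝ) ^ 2 + 6 * (16 + n) + 8) / 2 ^ (16 + n) := by positivity
  linarith

end Vale.Agent.P359
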