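import Vale.Agent.P359.State
import Vale.Agent.P359.Numeric
import Vale.Agent.P359.FockCAR

/-! The gap of the second quantised Hamiltonian. -/

namespace Vale.Agent.P359

open Finset Filter Topology

set_option linter.unusedSectionVars false

variable {H : Type} [NormedAddCommGroup H] [InnerProductSpace ℝ H] [FiniteDimensional ℝ H]
variable {Q : ℕ} {c : ℕ → Module.End ℝ H} {ι : Type} [Fintype ι]

/-- the numerical conditions on the flux -/
structure Good (Q : ℕ) : Prop where
  big : 40 ≤ Q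
  lin2 : ∀ k ∈ range 16, 16777216 * (kap Q k * (3 * Q - (1 + 2 * k))) ≤
      -(4 * pairSum (rob cc2 9) 9 (ww (2 * Q - 2) Q Q k) * (2 * Q - 1))
  lin3 : ∀ k ∈ range 15,
    16 * pairSum (rob cc3 8) 8 (ww (2 * Q - 2) (2 * Q - 2) Q k) * (2 * Q - 1) ≤
      16777216 * (4 * Q - (3 + 2 * k))
  cost : 4 * ∑ m ∈ range 8, rob cc1 1 m 0 m 0 * uu (2 * Q - 2) Q m ≤ 95 / 100 * 16777216

theorem eventually_good : ∀ᶠ Q : ℕ in atTop, Good Q := by
  filter_upwards [eventually_ge_atTop 40, eventually_lin2, eventually_lin3, eventually_cost] with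
    Q h1 h2 h3 h4
  exact ⟨h1, h2, h3, h4⟩

theorem pairSum_om (C : ℕ → ℕ → ℕ → ℕ → ℝ) (A : ℕ) (X : ℕ → ℕ → Module.End ℝ H) (v : ι → H)
    (K : Finset ι) : pairSum C A (fun m a n b => om v K (X m a) (X n b)) =
      ∑ k ∈ K, pairSum C A (fun m a n b => inner ℝ (X m a (v k)) (X n b (v k))) := by
  unfold pairSum om
  simp only [Finset.mul_sum]
  rw [sum4_comm]

theorem main_ineq (hc : IsCAR Q c) (hg : Good Q) (hl : LocalIneq c) {v : ι → H} {K : Finset ι}
    (h : InvOm Q c v K) :
    6 / 1000 * om v K 1 (Hm Q c) ≤ om v K (Hm Q c) (Hm Q c) := by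
  have hQ40 := hg.big
  have hQ : 1 ≤ Q := by omega
  have hx : (0 : ℝ) < Q := by exact_mod_cast hQ
  have hQr : (40 : ℝ) ≤ Q := by exact_mod_cast hQ40
  have hD : Q ≤ 2 * Q - 2 := by omega
  have hcast : ((2 * Q - 2 : ℕ) : ℝ) = 2 * Q - 2 := by
    rw [Nat.cast_sub (by omega)]
    push_cast
    ring
  have i0 := h.inv0 hc hQ
  have i2 := h.inv2 hc hQ
  have i3 := h.inv3 hc hQ
  set g := tau (2 * Q - 2) 0 Q (fun m a n b => om v K (op0 c m a) (op0 c n b)) 0 with hgdef
  set g2 := tau (2 * Q - 2) Q Q (fun m a n b => om v K (op2 c m a) (op2 c n b)) with hg2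
  set g3 := tau (2 * Q - 2) (2 * Q - 2) Q (fun m a n b => om v K (op3 c m a) (op3 c n b))
    with hg3
  have p0 : 0 ≤ g := tau_om_nonneg (Nat.zero_le _) hx _ le_rfl
  have p2 : ∀ k ≤ Q, 0 ≤ g2 k := fun k hk => tau_om_nonneg hD hx _ hk
  have p3 : ∀ k ≤ 2 * Q - 2, 0 ≤ g3 k := fun k hk => tau_om_nonneg le_rfl hx _ hk
  have s0 : ∀ m n, om v K (pairA c m) (pairA c n) =
      if m = n then g * uu (2 * Q - 2) Q m else 0 := by
    intro m n
    exact i0.scalar hx m n
  have e1 : om v K 1 (Hm Q c) = g * (2 * Q - 1) / 4 := by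
    rw [om_one_Hm, Finset.sum_congr rfl (g := fun _ => g / 4)]
    · rw [Finset.sum_const, Finset.card_range, nsmul_eq_mul]
      push_cast
      rw [hcast]
      ring
    · intro m hm
      rw [s0, if_pos rfl]
      linear_combination (g / 4) * wt_mul_uu hx (Nat.lt_succ_iff.mp (Finset.mem_range.mp hm))
  have e2 := om_Hm_Hm hc hQ v K
  rw [(invT_exT hQ).pairing hD hx i2, i3.trace le_rfl hx, ← hg2, ← hg3, hcast] at e2
  have e3 : ∑ k ∈ range (Q + 1), tau (2 * Q - 2) Q Q (exT Q) k * g2 k *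
      (2 * (Q : ℝ) - 2 + Q - 2 * k + 1) =
      ∑ k ∈ range (Q + 1), kap Q k * (3 * Q - (1 + 2 * k)) * g2 k := by
    refine Finset.sum_congr rfl fun k hk => ?_
    rw [tau_exT (by omega) (Nat.lt_succ_iff.mp (Finset.mem_range.mp hk))]
    ring
  rw [e3] at e2
  -- the local inequality
  have l0 : 0 ≤ pairSum (rob cc1 1) 1 (fun m a n b => om v K (op1 c m a) (op1 c n b)) +
      (pairSum (rob cc2 9) 9 (fun m a n b => om v K (op2 c m a) (op2 c n b)) +
      pairSum (rob cc3 8) 8 (fun m a n b => om v K (op3 c m a) (op3 c n b))) := by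
    rw [pairSum_om, pairSum_om, pairSum_om, ← Finset.sum_add_distrib, ← Finset.sum_add_distrib]
    exact Finset.sum_nonneg fun k _ => hl (v k)
  have l1 : pairSum (rob cc1 1) 1 (fun m a n b => om v K (op1 c m a) (op1 c n b)) =
      g * ∑ m ∈ range 8, rob cc1 1 m 0 m 0 * uu (2 * Q - 2) Q m := by
    unfold pairSum
    rw [Finset.mul_sum]
    refine Finset.sum_congr rfl fun m hm => ?_
    simp only [Finset.sum_range_one, op1, s0]
    rw [Finset.sum_eq_single m]
    · rw [if_pos rfl]
      ring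
    · intro n _ hn
      simp [hn.symm]
    · intro h'
      exact absurd hm h'
  rw [l1, i2.pairSum_eq hD hx _ (A := 8) (by omega), i3.pairSum_eq le_rfl hx _ (A := 7) (by omega),
    ← hg2, ← hg3] at l0
  -- bounds
  have b1 : g * (4 * ∑ m ∈ range 8, rob cc1 1 m 0 m 0 * uu (2 * Q - 2) Q m) ≤
      g * (95 / 100 * 16777216) := mul_le_mul_of_nonneg_left hg.cost p0
  have b2 : 16777216 * ∑ k ∈ range 16, kap Q k * (3 * Q - (1 + 2 * k)) * g2 k ≤
      -(4 * (2 * Q - 1) * ∑ k ∈ range (8 + 7 + 1),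
        g2 k * pairSum (rob cc2 9) (8 + 1) (ww (2 * Q - 2) Q Q k)) := by
    rw [Finset.mul_sum, Finset.mul_sum, ← Finset.sum_neg_distrib]
    refine Finset.sum_le_sum fun k hk => ?_
    have := mul_le_mul_of_nonneg_right (hg.lin2 k hk)
      (p2 k (by have := Finset.mem_range.mp hk; omega))
    linarith
  have b3 : 16 * (2 * Q - 1) * ∑ k ∈ range (7 + 7 + 1),
      g3 k * pairSum (rob cc3 8) (7 + 1) (ww (2 * Q - 2) (2 * Q - 2) Q k) ≤
      16777216 * ∑ k ∈ range (2 * Q - 2 + 1),
        g3 k * (2 * (Q : ℝ) - 2 + (2 * Q - 2) - 2 * k + 1) := by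
    calc _ ≤ 16777216 * ∑ k ∈ range 15, g3 k * (2 * (Q : ℝ) - 2 + (2 * Q - 2) - 2 * k + 1) := by
          rw [Finset.mul_sum, Finset.mul_sum]
          refine Finset.sum_le_sum fun k hk => ?_
          have := mul_le_mul_of_nonneg_right (hg.lin3 k hk)
            (p3 k (by have := Finset.mem_range.mp hk; omega))
          linarith
      _ ≤ _ := by
          apply mul_le_mul_of_nonneg_left _ (by norm_num)
          apply Finset.sum_le_sum_of_subset_of_nonneg
          · intro k hk
            simp only [Finset.mem_range] at hk ⊢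
            omega
          · intro k hk _
            have hk' : k ≤ 2 * Q - 2 := Nat.lt_succ_iff.mp (Finset.mem_range.mp hk)
            have hk2 : (k : ℝ) ≤ 2 * Q - 2 := by
              rw [← hcast]
              exact_mod_cast hk'
            exact mul_nonneg (p3 k hk') (by linarith)
  have b4 : ∀ k ≤ Q, g2 k ≤ (k + 1) * g := by
    intro k hk
    refine (i2.tau_le hD hx p2 hk).trans ?_
    calc _ ≤ ∑ _m ∈ range (k + 1), g := by
          refine Finset.sum_le_sum fun m hm => ?_
          have hm' : m ≤ k := Nat.lt_succ_iff.mp (Finset.mem_range.mp hm)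
          have t1 := om_op2_le hc v K m (k - m)
          rw [s0, if_pos rfl] at t1
          have t2 := wt_mul_uu hx (show m ≤ 2 * Q - 2 by omega)
          have t3 := wt_mul_uu hx (show k - m ≤ Q by omega)
          calc _ ≤ wt (2 * Q - 2) Q m * wt Q Q (k - m) *
                (uu Q Q (k - m) * (g * uu (2 * Q - 2) Q m)) :=
                mul_le_mul_of_nonneg_left t1
                  (mul_nonneg (wt_nonneg _ hx.le _) (wt_nonneg _ hx.le _))
            _ = g * ((wt (2 * Q - 2) Q m * uu (2 * Q - 2) Q m) *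
                (wt Q Q (k - m) * uu Q Q (k - m))) := by ring
            _ = g := by rw [t2, t3]; ring
      _ = _ := by simp
  have b5 : ∑ k ∈ range (Q + 1), kap Q k * (3 * Q - (1 + 2 * k)) * g2 k ≤
      ∑ k ∈ range 16, kap Q k * (3 * Q - (1 + 2 * k)) * g2 k + 44 / 1000 * (g * (2 * Q - 1)) := by
    obtain ⟨n, hn⟩ : ∃ n, Q + 1 = 16 + n := ⟨Q + 1 - 16, by omega⟩
    rw [hn, Finset.sum_range_add]
    gcongr
    have hg1 : 0 ≤ g * (2 * Q - 1) := mul_nonneg p0 (by linarith)
    calc _ ≤ ∑ k ∈ range n, 26 / 25 * 3 * (3 / 2) * (g * (2 * Q - 1)) *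
            (((16 + k : ℕ) : ℝ) * ((16 + k : ℕ) + 1) / 2 ^ (16 + k)) := by
          refine Finset.sum_le_sum fun k hk => ?_
          have hk' : 16 + k ≤ Q := by
            have := Finset.mem_range.mp hk
            omega
          have hk2 : ((16 + k : ℕ) : ℝ) ≤ Q := by exact_mod_cast hk'
          have hk3 : (16 : ℝ) ≤ ((16 + k : ℕ) : ℝ) := by exact_mod_cast Nat.le_add_right 16 k
          have t1 := kap_le hQ40 (by omega : 3 ≤ 16 + k) hk'
          have t2 := b4 _ hk'
          have t3 := p2 _ hk'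
          set y : ℝ := ((16 + k : ℕ) : ℝ)
          have t4 : 0 ≤ 3 * (Q : ℝ) - (1 + 2 * y) := by linarith
          have t5 : 3 * (Q : ℝ) - (1 + 2 * y) ≤ 3 / 2 * (2 * Q - 1) := by linarith
          have t6 : 0 ≤ 26 / 25 * (3 * y / 2 ^ (16 + k)) := by positivity
          calc _ ≤ 26 / 25 * (3 * y / 2 ^ (16 + k)) * (3 * Q - (1 + 2 * y)) * g2 (16 + k) :=
                mul_le_mul_of_nonneg_right (mul_le_mul_of_nonneg_right t1 t4) t3
            _ ≤ 26 / 25 * (3 * y / 2 ^ (16 + k)) * (3 / 2 * (2 * Q - 1)) * ((y + 1) * g) :=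
                mul_le_mul (mul_le_mul_of_nonneg_left t5 t6) t2 t3
                  (mul_nonneg t6 (by linarith))
            _ = _ := by ring
      _ ≤ 26 / 25 * 3 * (3 / 2) * (g * (2 * Q - 1)) * (616 / 65536) := by
          rw [← Finset.mul_sum]
          exact mul_le_mul_of_nonneg_left (tail_sum n) (by positivity)
      _ ≤ _ := by nlinarith
  have l2 := mul_nonneg (show (0 : ℝ) ≤ 2 * Q - 1 by linarith) l0
  have b1' := mul_le_mul_of_nonneg_left b1 (show (0 : ℝ) ≤ 2 * Q - 1 by linarith)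
  rw [e2, e1]
  nlinarith

theorem gap_of_local (hc : IsCAR Q c) (hg : Good Q) (hl : LocalIneq c) (f : H) :
    ∃ f0 : H, (∀ m, pairA c m f0 = 0) ∧ 6 / 1000 * ‖f - f0‖ ^ 2 ≤
      ∑ m ∈ range (2 * Q - 1), wt (2 * Q - 2) Q m / 4 * ‖pairA c m f‖ ^ 2 := by
  have hQ40 := hg.big
  have hQ : 1 ≤ Q := by omega
  have hx : (0 : ℝ) < Q := by exact_mod_cast hQ
  have hs : (Hm Q c).IsSymmetric := by
    intro x y
    rw [← inner_star_right, star_Hm]
  set b := hs.eigenvectorBasis rfl with hb
  set ev := hs.eigenvalues rfl with hev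
  have hbe : ∀ i, Hm Q c (b i) = ev i • b i := fun i => hs.apply_eigenvectorBasis rfl i
  have hform : ∀ f : H, inner ℝ f (Hm Q c f) =
      ∑ m ∈ range (2 * Q - 2 + 1), wt (2 * Q - 2) Q m / 4 * ‖pairA c m f‖ ^ 2 := by
    intro f
    simp only [Hm, LinearMap.sum_apply, inner_sum, LinearMap.smul_apply, inner_smul_right,
      Module.End.mul_apply, inner_star_right, real_inner_self_eq_norm_sq]
  have hnn : ∀ f : H, ∀ m ∈ range (2 * Q - 2 + 1),
      0 ≤ wt (2 * Q - 2) Q m / 4 * ‖pairA c m f‖ ^ 2 := fun f m _ =>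
    mul_nonneg (div_nonneg (wt_nonneg _ hx.le _) (by norm_num)) (sq_nonneg _)
  have hn1 : ∀ i, inner ℝ (b i) (b i) = 1 := fun i => by
    rw [real_inner_self_eq_norm_sq, b.orthonormal.1 i]
    norm_num
  have hev0 : ∀ i, 0 ≤ ev i := by
    intro i
    have := hform (b i)
    rw [hbe, inner_smul_right, hn1, mul_one] at this
    rw [this]
    exact Finset.sum_nonneg (hnn _)
  have hgap : ∀ i, ev i ≠ 0 → 6 / 1000 ≤ ev i := by
    intro i hi
    have h1 := main_ineq hc hg hl (invOm_of_eigen hc hQ b ev hbe (ev i))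
    set K := univ.filter fun k => ev k = ev i with hK
    have h2 : om b K 1 (Hm Q c) = K.card * ev i := by
      rw [om, Finset.sum_congr rfl (g := fun _ => ev i), Finset.sum_const, nsmul_eq_mul]
      intro k hk
      rw [hbe, inner_smul_right, Module.End.one_apply, hn1, mul_one, (Finset.mem_filter.mp hk).2]
    have h3 : om b K (Hm Q c) (Hm Q c) = K.card * (ev i * ev i) := by
      rw [om, Finset.sum_congr rfl (g := fun _ => ev i * ev i), Finset.sum_const, nsmul_eq_mul]
      intro k hk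
      rw [hbe, inner_smul_right, real_inner_smul_left, hn1, mul_one, (Finset.mem_filter.mp hk).2]
    have h4 : (0 : ℝ) < K.card := by
      have : K.Nonempty := ⟨i, by simp [hK]⟩
      exact_mod_cast this.card_pos
    have h5 : 0 < ev i := lt_of_le_of_ne (hev0 i) (Ne.symm hi)
    rw [h2, h3] at h1
    have h6 : 0 < K.card * ev i := mul_pos h4 h5
    nlinarith
  set x : Fin (Module.finrank ℝ H) → ℝ := fun i => inner ℝ (b i) f with hxdef
  have hf : f = ∑ i, x i • b i := (b.sum_repr' f).symm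
  have hin : ∀ y z : Fin (Module.finrank ℝ H) → ℝ,
      inner ℝ (∑ i, y i • b i) (∑ i, z i • b i) = ∑ i, y i * z i := by
    intro y z
    have := b.orthonormal.inner_sum y z univ
    simpa using this
  refine ⟨∑ i, (if ev i = 0 then x i else 0) • b i, ?_, ?_⟩
  · intro m
    set f0 := ∑ i, (if ev i = 0 then x i else 0) • b i with hf0
    have h1 : Hm Q c f0 = 0 := by
      rw [hf0, map_sum]
      apply Finset.sum_eq_zero
      intro i _
      rw [map_smul, hbe, smul_smul]
      split_ifs with h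
      · rw [h, mul_zero, zero_smul]
      · rw [zero_mul, zero_smul]
    have h2 := hform f0
    rw [h1, inner_zero_right] at h2
    by_cases hm : m ≤ 2 * Q - 2
    · have h3 := (Finset.sum_eq_zero_iff_of_nonneg (hnn f0)).mp h2.symm m
        (Finset.mem_range.mpr (by omega))
      have h4 := wt_pos hx hm
      rcases mul_eq_zero.mp h3 with h5 | h5
      · linarith
      · simpa using h5
    · rw [hc.pairA_eq_zero hQ (by omega), LinearMap.zero_apply]
  · rw [show 2 * Q - 1 = 2 * Q - 2 + 1 by omega, ← hform]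
    have h1 : f - ∑ i, (if ev i = 0 then x i else 0) • b i =
        ∑ i, (if ev i = 0 then 0 else x i) • b i := by
      conv_lhs => rw [hf]
      rw [← Finset.sum_sub_distrib]
      refine Finset.sum_congr rfl fun i _ => ?_
      split_ifs <;> simp
    have h2 : Hm Q c f = ∑ i, (x i * ev i) • b i := by
      conv_lhs => rw [hf]
      rw [map_sum]
      refine Finset.sum_congr rfl fun i _ => ?_
      rw [map_smul, hbe, smul_smul]
    rw [h1, ← real_inner_self_eq_norm_sq, hin, h2]
    conv_rhs => rw [hf]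
    rw [hin, Finset.mul_sum]
    refine Finset.sum_le_sum fun i _ => ?_
    split_ifs with h
    · simp [h]
    · have := hgap i h
      nlinarith [mul_self_nonneg (x i)]

theorem eventually_gap : ∀ᶠ Q : ℕ in atTop, ∀ (n : ℕ)
    (φ : (Fin (n + 2) → Fin (Q + 1)) → ℝ), Anti φ →
    ∃ φ0 : (Fin (n + 2) → Fin (Q + 1)) → ℝ, Anti φ0 ∧ (∀ s x, amp φ0 s x = 0) ∧
      6 / 1000 * ∑ x, (φ x - φ0 x) ^ 2 ≤ energy φ := by
  filter_upwards [eventually_good, eventually_localIneq] with Q hg hl n φ hφ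
  have hQ : 1 ≤ Q := le_trans (by norm_num) hg.big
  exact fock_reduction Q n hQ _ (by norm_num) (gap_of_local (isCAR_chat Q hQ) hg hl) φ hφ

end Vale.Agent.P359
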