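import Vale.Agent.P359.Basic

namespace Vale.Agent.P359

open Finset

theorem wv_eq_zero {K : Type} [CommRing K] (e0 e1 : ℕ → K) (n j m a : ℕ) (h : m + a ≠ n + j) :
    wv e0 e1 n j m a = 0 := by
  induction j generalizing m a with
  | zero => simp only [wv]; rw [if_neg (by omega)]
  | succ j ih =>
    simp only [wv]
    by_cases hm : m = 0 <;> by_cases ha : a = 0
    · simp [hm, ha]
    · rw [if_pos hm, if_neg ha, ih _ _ (by omega)]; simp
    · rw [if_neg hm, if_pos ha, ih _ _ (by omega)]; simp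
    · rw [if_neg hm, if_neg ha, ih _ _ (by omega), ih _ _ (by omega)]; simp

variable {D0 D1 : ℕ} {x : ℝ} {T G : ℕ → ℕ → ℕ → ℕ → ℝ}

/-- weighted inner product -/
noncomputable def ts_ip (D0 D1 : ℕ) (x : ℝ) (p q : ℕ → ℕ → ℝ) : ℝ :=
  ∑ m ∈ range (D0 + 1), ∑ a ∈ range (D1 + 1), wt D0 x m * wt D1 x a * p m a * q m a

/-- raising operator -/
noncomputable def ts_Jp (D0 D1 : ℕ) (x : ℝ) (p : ℕ → ℕ → ℝ) : ℕ → ℕ → ℝ := fun m a =>
  (if m = 0 then 0 else ee D0 x (m - 1) * p (m - 1) a) +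
    (if a = 0 then 0 else ee D1 x (a - 1) * p m (a - 1))

/-- lowering operator -/
noncomputable def ts_Jm (p : ℕ → ℕ → ℝ) : ℕ → ℕ → ℝ := fun m a =>
  ((m : ℝ) + 1) * p (m + 1) a + ((a : ℝ) + 1) * p m (a + 1)

/-- support condition -/
def ts_Supp (D0 D1 : ℕ) (p : ℕ → ℕ → ℝ) : Prop := ∀ m a, D0 < m ∨ D1 < a → p m a = 0

/-- the basis vectors -/
noncomputable def ts_w (D0 D1 : ℕ) (x : ℝ) (k j : ℕ) : ℕ → ℕ → ℝ := wv (ee D0 x) (ee D1 x) k j

theorem ts_w_succ (k j : ℕ) : ts_w D0 D1 x k (j + 1) = ts_Jp D0 D1 x (ts_w D0 D1 x k j) := by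
  funext m a
  simp only [ts_w, ts_Jp, wv]

theorem ts_wt_pos {D m : ℕ} (hx : 0 < x) (hm : m ≤ D) : 0 < wt D x m := by
  have : (0 : ℝ) < D.choose m := by exact_mod_cast Nat.choose_pos hm
  unfold wt; positivity

theorem ts_wt_succ {D m : ℕ} (hx : 0 < x) (hm : m < D) :
    wt D x (m + 1) * ee D x m = ((m : ℝ) + 1) * wt D x m := by
  have h1 : (0 : ℝ) < D.choose m := by exact_mod_cast Nat.choose_pos hm.le
  have h2 : (0 : ℝ) < D.choose (m + 1) := by exact_mod_cast Nat.choose_pos hm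
  have h3 : (D.choose (m + 1) : ℝ) * ((m : ℝ) + 1) = D.choose m * ((D : ℝ) - m) := by
    have := Nat.choose_succ_right_eq D m
    rw [← Nat.cast_sub hm.le]
    exact_mod_cast this
  unfold wt ee
  field_simp
  linear_combination (-(x ^ (m + 1))) * h3

theorem ts_adj1 {D : ℕ} (hx : 0 < x) (f g : ℕ → ℝ) (hg : g (D + 1) = 0) :
    ∑ m ∈ range (D + 1), wt D x m * (if m = 0 then 0 else ee D x (m - 1) * f (m - 1)) * g m =
      ∑ m ∈ range (D + 1), wt D x m * f m * (((m : ℝ) + 1) * g (m + 1)) := by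
  rw [sum_range_succ', sum_range_succ, hg]
  simp only [if_pos, mul_zero, zero_mul, add_zero, Nat.add_sub_cancel, Nat.succ_ne_zero,
    if_false]
  refine sum_congr rfl fun m hm => ?_
  have := ts_wt_succ hx (mem_range.1 hm)
  calc wt D x (m + 1) * (ee D x m * f m) * g (m + 1)
      = (wt D x (m + 1) * ee D x m) * f m * g (m + 1) := by ring
    _ = _ := by rw [this]; ring

theorem ts_ip_comm (p q : ℕ → ℕ → ℝ) : ts_ip D0 D1 x p q = ts_ip D0 D1 x q p :=
  sum_congr rfl fun _ _ => sum_congr rfl fun _ _ => by ring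

theorem ts_adj (hx : 0 < x) (p : ℕ → ℕ → ℝ) {q : ℕ → ℕ → ℝ} (hq : ts_Supp D0 D1 q) :
    ts_ip D0 D1 x (ts_Jp D0 D1 x p) q = ts_ip D0 D1 x p (ts_Jm q) := by
  simp only [ts_ip, ts_Jp, ts_Jm, mul_add, add_mul, sum_add_distrib]
  have h1 : ∑ m ∈ range (D0 + 1), ∑ a ∈ range (D1 + 1), wt D0 x m * wt D1 x a *
      (if m = 0 then 0 else ee D0 x (m - 1) * p (m - 1) a) * q m a =
      ∑ m ∈ range (D0 + 1), ∑ a ∈ range (D1 + 1),
        wt D0 x m * wt D1 x a * p m a * (((m : ℝ) + 1) * q (m + 1) a) := by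
    rw [sum_comm, sum_comm (s := range (D0 + 1))]
    refine sum_congr rfl fun a _ => ?_
    have := ts_adj1 (D := D0) hx (fun m => p m a) (fun m => wt D1 x a * q m a)
      (by simp [hq (D0 + 1) a (Or.inl (Nat.lt_succ_self _))])
    refine (sum_congr rfl fun m _ => ?_).trans (this.trans (sum_congr rfl fun m _ => ?_)) <;> ring
  have h2 : ∑ m ∈ range (D0 + 1), ∑ a ∈ range (D1 + 1), wt D0 x m * wt D1 x a *
      (if a = 0 then 0 else ee D1 x (a - 1) * p m (a - 1)) * q m a =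
      ∑ m ∈ range (D0 + 1), ∑ a ∈ range (D1 + 1),
        wt D0 x m * wt D1 x a * p m a * (((a : ℝ) + 1) * q m (a + 1)) := by
    refine sum_congr rfl fun m _ => ?_
    have := ts_adj1 (D := D1) hx (fun a => p m a) (fun a => wt D0 x m * q m a)
      (by simp [hq m (D1 + 1) (Or.inr (Nat.lt_succ_self _))])
    refine (sum_congr rfl fun a _ => ?_).trans (this.trans (sum_congr rfl fun a _ => ?_)) <;> ring
  rw [h1, h2]
  simp only [mul_add, add_mul, sum_add_distrib]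

theorem ts_w_supp (hD : D1 ≤ D0) {k : ℕ} (hk : k ≤ D1) (j : ℕ) :
    ts_Supp D0 D1 (ts_w D0 D1 x k j) := by
  induction j with
  | zero => exact fun m a h => wv_eq_zero _ _ _ _ _ _ (by omega)
  | succ j ih =>
    intro m a h
    rw [ts_w_succ, ts_Jp]
    have h1 : (if m = 0 then 0 else ee D0 x (m - 1) * ts_w D0 D1 x k j (m - 1) a) = 0 := by
      split_ifs with hm
      · rfl
      · by_cases h2 : m - 1 = D0
        · simp [h2, ee]
        · rw [ih _ _ (by omega), mul_zero]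
    have h2 : (if a = 0 then 0 else ee D1 x (a - 1) * ts_w D0 D1 x k j m (a - 1)) = 0 := by
      split_ifs with ha
      · rfl
      · by_cases h2 : a - 1 = D1
        · simp [h2, ee]
        · rw [ih _ _ (by omega), mul_zero]
    rw [h1, h2, add_zero]

theorem ts_comm (p : ℕ → ℕ → ℝ) (m a : ℕ) :
    ts_Jm (ts_Jp D0 D1 x p) m a = ts_Jp D0 D1 x (ts_Jm p) m a +
      (((D0 : ℝ) + D1 - 2 * ((m + a : ℕ) : ℝ)) / x) * p m a := by
  rcases m with _ | m <;> rcases a with _ | a <;> simp [ts_Jm, ts_Jp, ee] <;> ring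

/-- the lowering coefficient -/
noncomputable def ts_c (D0 D1 : ℕ) (x : ℝ) (k j : ℕ) : ℝ :=
  ((j : ℝ) + 1) * ((D0 : ℝ) + D1 - 2 * k - j) / x

theorem ts_Jm_zero (k : ℕ) : ts_Jm (ts_w D0 D1 x k 0) = fun _ _ => 0 := by
  funext m a
  simp only [ts_Jm, ts_w, wv]
  by_cases h : m + 1 + a = k
  · rw [if_pos h, if_pos (by omega)]
    have h1 := Nat.choose_succ_right_eq k m
    have h2 : k - m = a + 1 := by omega
    rw [h2] at h1
    have h3 : (k.choose (m + 1) : ℝ) * ((m : ℝ) + 1) = k.choose m * ((a : ℝ) + 1) := by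
      exact_mod_cast h1
    rw [pow_succ]
    linear_combination (-1) ^ a * h3
  · rw [if_neg h, if_neg (by omega)]; simp

theorem ts_Jp_smul (c : ℝ) (p : ℕ → ℕ → ℝ) (m a : ℕ) :
    ts_Jp D0 D1 x (fun m a => c * p m a) m a = c * ts_Jp D0 D1 x p m a := by
  simp only [ts_Jp]
  split_ifs <;> ring

theorem ts_Jm_succ (k j : ℕ) :
    ts_Jm (ts_w D0 D1 x k (j + 1)) = fun m a => ts_c D0 D1 x k j * ts_w D0 D1 x k j m a := by
  induction j with
  | zero =>
    funext m a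
    rw [ts_w_succ, ts_comm, ts_Jm_zero]
    have h0 : ts_Jp D0 D1 x (fun _ _ => 0) m a = 0 := by simp [ts_Jp]
    rw [h0, zero_add]
    by_cases h : m + a = k + 0
    · rw [h]; simp [ts_c]
    · rw [ts_w, wv_eq_zero _ _ _ _ _ _ h]; simp
  | succ j ih =>
    funext m a
    rw [ts_w_succ k (j + 1), ts_comm, ih, ts_Jp_smul, ← ts_w_succ]
    by_cases h : m + a = k + (j + 1)
    · rw [h]; simp only [ts_c]; push_cast; ring
    · rw [ts_w, wv_eq_zero _ _ _ _ _ _ h]; simp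

theorem ts_orth (hD : D1 ≤ D0) (hx : 0 < x) (B : (ℕ → ℕ → ℝ) → (ℕ → ℕ → ℝ) → ℝ)
    (hs : ∀ p q, B p q = B q p)
    (hadj : ∀ p q, ts_Supp D0 D1 q → B (ts_Jp D0 D1 x p) q = B p (ts_Jm q))
    (hsm : ∀ p q (c : ℝ), B p (fun m a => c * q m a) = c * B p q)
    {k k' : ℕ} (hk : k ≤ D1) (hk' : k' ≤ D1) (j j' : ℕ) :
    B (ts_w D0 D1 x k j) (ts_w D0 D1 x k' j') = if k = k' ∧ j = j' then
      (∏ i ∈ range j, ts_c D0 D1 x k i) * B (ts_w D0 D1 x k 0) (ts_w D0 D1 x k 0) else 0 := by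
  have hz : ∀ p, B p (fun _ _ => 0) = 0 := fun p => by
    simpa using hsm p (fun _ _ => 0) 0
  have ha : ∀ k k', k' ≤ D1 → ∀ j, B (ts_w D0 D1 x k (j + 1)) (ts_w D0 D1 x k' 0) = 0 := by
    intro k k' hk' j
    rw [ts_w_succ, hadj _ _ (ts_w_supp hD hk' 0), ts_Jm_zero, hz]
  have hb : ∀ k k', k' ≤ D1 → ∀ j j', B (ts_w D0 D1 x k (j + 1)) (ts_w D0 D1 x k' (j' + 1)) =
      ts_c D0 D1 x k' j' * B (ts_w D0 D1 x k j) (ts_w D0 D1 x k' j') := by
    intro k k' hk' j j'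
    rw [ts_w_succ k j, hadj _ _ (ts_w_supp hD hk' _), ts_Jm_succ, hsm]
  induction j generalizing j' with
  | zero =>
    rcases j' with _ | j'
    · by_cases h : k = k'
      · subst h; simp
      · rw [if_neg (by simp [h])]
        have h1 := hb k k' hk' 0 0
        have h2 := hb k' k hk 0 0
        rw [hs, h1, hs (ts_w D0 D1 x k' 0)] at h2
        have h3 : ts_c D0 D1 x k' 0 - ts_c D0 D1 x k 0 ≠ 0 := by
          have h4 : ts_c D0 D1 x k' 0 - ts_c D0 D1 x k 0 = 2 * ((k : ℝ) - k') / x := by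
            simp only [ts_c]; push_cast; ring
          rw [h4]
          exact div_ne_zero (mul_ne_zero two_ne_zero
            (sub_ne_zero.2 (by exact_mod_cast h))) hx.ne'
        exact (mul_eq_zero.1 (by rw [sub_mul, h2, sub_self])).resolve_left h3
    · rw [hs, ha _ _ hk, if_neg (by omega)]
  | succ j ih =>
    rcases j' with _ | j'
    · rw [ha _ _ hk', if_neg (by omega)]
    · rw [hb _ _ hk', ih]
      by_cases h : k = k' ∧ j = j'
      · obtain ⟨rfl, rfl⟩ := h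
        simp only [and_self, if_true, prod_range_succ]; ring
      · rw [if_neg h, if_neg (by omega), mul_zero]

theorem ts_nu_eq (k j : ℕ) :
    nu D0 D1 x k j = ts_ip D0 D1 x (ts_w D0 D1 x k j) (ts_w D0 D1 x k j) :=
  sum_congr rfl fun _ _ => sum_congr rfl fun _ _ => by simp only [ts_w]; ring

theorem ts_ip_smul (p q : ℕ → ℕ → ℝ) (c : ℝ) :
    ts_ip D0 D1 x p (fun m a => c * q m a) = c * ts_ip D0 D1 x p q := by
  simp only [ts_ip, mul_sum]
  exact sum_congr rfl fun _ _ => sum_congr rfl fun _ _ => by ring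

theorem ts_ip_w (hD : D1 ≤ D0) (hx : 0 < x) {k k' : ℕ} (hk : k ≤ D1) (hk' : k' ≤ D1)
    (j j' : ℕ) :
    ts_ip D0 D1 x (ts_w D0 D1 x k j) (ts_w D0 D1 x k' j') = if k = k' ∧ j = j' then
      (∏ i ∈ range j, ts_c D0 D1 x k i) * nu D0 D1 x k 0 else 0 := by
  rw [ts_nu_eq]
  exact ts_orth hD hx _ ts_ip_comm (fun p q hq => ts_adj hx p hq) ts_ip_smul hk hk' j j'

theorem ts_nu_prod (hD : D1 ≤ D0) (hx : 0 < x) {k : ℕ} (hk : k ≤ D1) (j : ℕ) :
    nu D0 D1 x k j = (∏ i ∈ range j, ts_c D0 D1 x k i) * nu D0 D1 x k 0 := by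
  rw [ts_nu_eq, ts_ip_w hD hx hk hk]; simp

theorem nu_pos (hD : D1 ≤ D0) (hx : 0 < x) {n j : ℕ} (hn : n ≤ D1) (hj : j ≤ D0 + D1 - 2 * n) :
    0 < nu D0 D1 x n j := by
  rw [ts_nu_prod hD hx hn]
  refine mul_pos (prod_pos fun i hi => ?_) ?_
  · have h1 : 2 * n + i < D0 + D1 := by have := mem_range.1 hi; omega
    have h2 : (2 * n + i : ℝ) < D0 + D1 := by exact_mod_cast h1
    have h3 : 0 < (D0 : ℝ) + D1 - 2 * n - i := by linarith
    unfold ts_c; positivity
  · have hnn : ∀ m ∈ range (D0 + 1), ∀ a ∈ range (D1 + 1),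
        0 ≤ wt D0 x m * wt D1 x a * wv (ee D0 x) (ee D1 x) n 0 m a ^ 2 := fun m hm a ha => by
      have h1 := ts_wt_pos hx (Nat.lt_succ_iff.1 (mem_range.1 hm))
      have h2 := ts_wt_pos hx (Nat.lt_succ_iff.1 (mem_range.1 ha))
      positivity
    have hn0 : n ∈ range (D0 + 1) := mem_range.2 (by omega)
    refine sum_pos' (fun m hm => sum_nonneg (hnn m hm)) ⟨n, hn0,
      sum_pos' (hnn n hn0) ⟨0, mem_range.2 (by omega), ?_⟩⟩
    have h1 := ts_wt_pos hx (hn.trans hD)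
    have h2 := ts_wt_pos hx (Nat.zero_le D1)
    simp only [wv, add_zero, if_true, pow_zero, Nat.choose_self, Nat.cast_one, mul_one, one_pow]
    positivity

theorem ts_card (hD : D1 ≤ D0) :
    ∑ k ∈ range (D1 + 1), (D0 + D1 - 2 * k + 1) = (D0 + 1) * (D1 + 1) := by
  have h1 : ∑ k ∈ range (D1 + 1), (D0 + D1 - 2 * k + 1) + (∑ k ∈ range (D1 + 1), k) * 2 =
      (D1 + 1) * (D0 + D1 + 1) := by
    rw [sum_mul, ← sum_add_distrib,
      sum_congr rfl (g := fun _ => D0 + D1 + 1) fun k hk => by have := mem_range.1 hk; omega]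
    simp
  rw [sum_range_id_mul_two, Nat.add_sub_cancel] at h1
  nlinarith

theorem ts_complete (hD : D1 ≤ D0) (hx : 0 < x) {m a n b : ℕ} (hm : m ≤ D0) (ha : a ≤ D1)
    (hn : n ≤ D0) (hb : b ≤ D1) :
    ∑ k ∈ range (D1 + 1), ∑ j ∈ range (D0 + D1 - 2 * k + 1),
      ts_w D0 D1 x k j m a * (ts_w D0 D1 x k j n b * (wt D0 x n * wt D1 x b) / nu D0 D1 x k j) =
      if m = n ∧ a = b then 1 else 0 := by
  classical
  let I : Finset (ℕ × ℕ) := range (D0 + 1) ×ˢ range (D1 + 1)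
  let K : Finset (Σ _ : ℕ, ℕ) := (range (D1 + 1)).sigma fun k => range (D0 + D1 - 2 * k + 1)
  have hcard : Fintype.card K = Fintype.card I := by
    simp only [Fintype.card_coe, K, I, card_sigma, card_product, card_range]
    exact ts_card hD
  let M : Matrix I K ℝ := fun α κ => ts_w D0 D1 x κ.1.1 κ.1.2 α.1.1 α.1.2
  let N : Matrix K I ℝ := fun κ α => ts_w D0 D1 x κ.1.1 κ.1.2 α.1.1 α.1.2 *
    (wt D0 x α.1.1 * wt D1 x α.1.2) / nu D0 D1 x κ.1.1 κ.1.2
  have h1 : N * M = 1 := by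
    ext ⟨⟨k, j⟩, hκ⟩ ⟨⟨k', j'⟩, hκ'⟩
    have hk := mem_sigma.1 hκ
    have hk' := mem_sigma.1 hκ'
    simp only [mem_range] at hk hk'
    have hnu := nu_pos hD hx (n := k) (j := j) (by omega) (by omega)
    have h2 := ts_ip_w hD hx (k := k) (k' := k') (by omega) (by omega) j j'
    rw [← ts_nu_prod hD hx (by omega)] at h2
    rw [Matrix.mul_apply]
    simp only [M, N]
    rw [sum_coe_sort I fun α => ts_w D0 D1 x k j α.1 α.2 *
      (wt D0 x α.1 * wt D1 x α.2) / nu D0 D1 x k j * ts_w D0 D1 x k' j' α.1 α.2, sum_product]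
    have h3 : ∑ m ∈ range (D0 + 1), ∑ a ∈ range (D1 + 1), ts_w D0 D1 x k j m a *
        (wt D0 x m * wt D1 x a) / nu D0 D1 x k j * ts_w D0 D1 x k' j' m a =
        ts_ip D0 D1 x (ts_w D0 D1 x k j) (ts_w D0 D1 x k' j') / nu D0 D1 x k j := by
      simp only [ts_ip, sum_div]
      exact sum_congr rfl fun _ _ => sum_congr rfl fun _ _ => by ring
    rw [h3, h2, Matrix.one_apply]
    by_cases h : k = k' ∧ j = j'
    · obtain ⟨rfl, rfl⟩ := h
      simp [hnu.ne']
    · rw [if_neg h, if_neg, zero_div]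
      intro h'
      apply h
      simpa using h'
  have h2 : M * N = 1 := (Matrix.mul_eq_one_comm_of_equiv (Fintype.equivOfCardEq hcard)).1 h1
  have hα : (m, a) ∈ I := mem_product.2 ⟨mem_range.2 (by omega), mem_range.2 (by omega)⟩
  have hβ : (n, b) ∈ I := mem_product.2 ⟨mem_range.2 (by omega), mem_range.2 (by omega)⟩
  have h3 := congrFun (congrFun h2 ⟨_, hα⟩) ⟨_, hβ⟩
  rw [Matrix.mul_apply, Matrix.one_apply] at h3
  simp only [M, N] at h3
  rw [sum_coe_sort K fun κ => ts_w D0 D1 x κ.1 κ.2 m a * (ts_w D0 D1 x κ.1 κ.2 n b *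
    (wt D0 x n * wt D1 x b) / nu D0 D1 x κ.1 κ.2), sum_sigma] at h3
  rw [h3]
  simp

theorem ts_expand (hD : D1 ≤ D0) (hx : 0 < x) {p : ℕ → ℕ → ℝ} (hp : ts_Supp D0 D1 p)
    (m a : ℕ) :
    p m a = ∑ k ∈ range (D1 + 1), ∑ j ∈ range (D0 + D1 - 2 * k + 1),
      ts_ip D0 D1 x (ts_w D0 D1 x k j) p / nu D0 D1 x k j * ts_w D0 D1 x k j m a := by
  by_cases h : D0 < m ∨ D1 < a
  · rw [hp m a h]
    refine (sum_eq_zero fun k hk => sum_eq_zero fun j _ => ?_).symm
    rw [ts_w_supp hD (Nat.lt_succ_iff.1 (mem_range.1 hk)) j m a h, mul_zero]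
  · have h1 : ∑ n ∈ range (D0 + 1), ∑ b ∈ range (D1 + 1),
        (if m = n ∧ a = b then 1 else 0) * p n b = p m a := by
      rw [sum_eq_single m, sum_eq_single a]
      · simp
      · intro b _ hb; simp [hb.symm]
      · intro hb; exact absurd (mem_range.2 (by omega)) hb
      · intro n _ hn; simp [hn.symm]
      · intro hn; exact absurd (mem_range.2 (by omega)) hn
    rw [← h1]
    have h2 : ∀ n ∈ range (D0 + 1), ∀ b ∈ range (D1 + 1),
        (if m = n ∧ a = b then 1 else 0) * p n b =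
        ∑ k ∈ range (D1 + 1), ∑ j ∈ range (D0 + D1 - 2 * k + 1),
          wt D0 x n * wt D1 x b * ts_w D0 D1 x k j n b * p n b / nu D0 D1 x k j *
            ts_w D0 D1 x k j m a := by
      intro n hn b hb
      rw [← ts_complete hD hx (by omega) (by omega) (Nat.lt_succ_iff.1 (mem_range.1 hn))
        (Nat.lt_succ_iff.1 (mem_range.1 hb))]
      simp only [sum_mul]
      exact sum_congr rfl fun _ _ => sum_congr rfl fun _ _ => by ring
    rw [sum_congr rfl fun n hn => sum_congr rfl fun b hb => h2 n hn b hb]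
    simp only [ts_ip, sum_div, sum_mul]
    rw [sum_congr rfl fun n _ => sum_comm, sum_comm]
    refine sum_congr rfl fun k _ => ?_
    rw [sum_congr rfl fun n _ => sum_comm, sum_comm]

/-- the tensor applied to a vector -/
noncomputable def ts_app (D0 D1 : ℕ) (x : ℝ) (T : ℕ → ℕ → ℕ → ℕ → ℝ) (q : ℕ → ℕ → ℝ) :
    ℕ → ℕ → ℝ := fun m a => ts_ip D0 D1 x q (T m a)

theorem ts_app_supp (hT : InvT D0 D1 x T) (q : ℕ → ℕ → ℝ) :
    ts_Supp D0 D1 (ts_app D0 D1 x T q) := fun m a h => by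
  simp [ts_app, ts_ip, hT.supp m a _ _ h]

theorem ts_om_eq (p q : ℕ → ℕ → ℝ) : ts_ip D0 D1 x p (ts_app D0 D1 x T q) =
    ∑ m ∈ range (D0 + 1), ∑ a ∈ range (D1 + 1), ∑ n ∈ range (D0 + 1), ∑ b ∈ range (D1 + 1),
      wt D0 x m * wt D1 x a * p m a * (wt D0 x n * wt D1 x b * q n b) * T m a n b := by
  simp only [ts_ip, ts_app, mul_sum]
  exact sum_congr rfl fun _ _ => sum_congr rfl fun _ _ => sum_congr rfl fun _ _ =>
    sum_congr rfl fun _ _ => by ring

theorem ts_om_comm (hT : InvT D0 D1 x T) (p q : ℕ → ℕ → ℝ) :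
    ts_ip D0 D1 x p (ts_app D0 D1 x T q) = ts_ip D0 D1 x q (ts_app D0 D1 x T p) := by
  rw [ts_om_eq, ts_om_eq, sum_congr rfl fun m _ => sum_comm, sum_comm]
  refine sum_congr rfl fun n _ => ?_
  rw [sum_congr rfl fun m _ => sum_comm, sum_comm]
  exact sum_congr rfl fun _ _ => sum_congr rfl fun _ _ => sum_congr rfl fun _ _ => by
    rw [hT.symm]; ring

theorem ts_Jm_app (hx : 0 < x) (hT : InvT D0 D1 x T) {q : ℕ → ℕ → ℝ} (hq : ts_Supp D0 D1 q) :
    ts_Jm (ts_app D0 D1 x T q) = ts_app D0 D1 x T (ts_Jm q) := by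
  funext m a
  have h1 : ts_Jp D0 D1 x (T m a) =
      fun n b => ((m : ℝ) + 1) * T (m + 1) a n b + ((a : ℝ) + 1) * T m (a + 1) n b := by
    funext n b
    rw [hT.rel]; rfl
  simp only [ts_app]
  rw [ts_ip_comm (ts_Jm q), ← ts_adj hx _ hq, h1]
  simp only [ts_Jm, ts_app, ts_ip, mul_sum, ← sum_add_distrib]
  exact sum_congr rfl fun _ _ => sum_congr rfl fun _ _ => by ring

theorem ts_om_w (hD : D1 ≤ D0) (hx : 0 < x) (hT : InvT D0 D1 x T) {k k' : ℕ} (hk : k ≤ D1)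
    (hk' : k' ≤ D1) (j j' : ℕ) :
    ts_ip D0 D1 x (ts_w D0 D1 x k j) (ts_app D0 D1 x T (ts_w D0 D1 x k' j')) =
      if k = k' ∧ j = j' then tau D0 D1 x T k * nu D0 D1 x k j else 0 := by
  have h1 := ts_orth hD hx (fun p q => ts_ip D0 D1 x p (ts_app D0 D1 x T q)) (ts_om_comm hT)
    (fun p q hq => by rw [ts_adj hx p (ts_app_supp hT q), ts_Jm_app hx hT hq])
    (fun p q c => by
      rw [← ts_ip_smul]
      congr 1
      funext m a
      simp only [ts_app]
      rw [ts_ip_comm, ts_ip_smul, ts_ip_comm]) hk hk' j j'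
  have h2 : ts_ip D0 D1 x (ts_w D0 D1 x k 0) (ts_app D0 D1 x T (ts_w D0 D1 x k 0)) =
      tau D0 D1 x T k * nu D0 D1 x k 0 := by
    rw [tau, div_mul_cancel₀ _ (nu_pos hD hx hk (Nat.zero_le _)).ne', ts_om_eq]
    rfl
  rw [h1, h2, ts_nu_prod hD hx hk j]
  split_ifs
  · ring
  · rfl

theorem ts_eigen (hD : D1 ≤ D0) (hx : 0 < x) (hT : InvT D0 D1 x T) {k j : ℕ} (hk : k ≤ D1)
    (hj : j ≤ D0 + D1 - 2 * k) (m a : ℕ) :
    ts_app D0 D1 x T (ts_w D0 D1 x k j) m a = tau D0 D1 x T k * ts_w D0 D1 x k j m a := by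
  rw [ts_expand hD hx (ts_app_supp hT _), sum_eq_single k, sum_eq_single j]
  · rw [ts_om_w hD hx hT hk hk, if_pos ⟨rfl, rfl⟩, mul_div_assoc,
      div_self (nu_pos hD hx hk hj).ne', mul_one]
  · intro j' _ hj'
    rw [ts_om_w hD hx hT hk hk, if_neg (by tauto), zero_div, zero_mul]
  · intro h; exact absurd (mem_range.2 (by omega)) h
  · intro k' hk' hne
    refine sum_eq_zero fun j' _ => ?_
    rw [ts_om_w hD hx hT (Nat.lt_succ_iff.1 (mem_range.1 hk')) hk, if_neg (by tauto), zero_div,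
      zero_mul]
  · intro h; exact absurd (mem_range.2 (by omega)) h

theorem InvT.expand (hD : D1 ≤ D0) (hx : 0 < x) (hT : InvT D0 D1 x T) (m a n b : ℕ) :
    T m a n b = ∑ k ∈ range (D1 + 1), ∑ j ∈ range (D0 + D1 - 2 * k + 1),
      tau D0 D1 x T k * wv (ee D0 x) (ee D1 x) k j m a * wv (ee D0 x) (ee D1 x) k j n b /
        nu D0 D1 x k j := by
  have h1 : ts_Supp D0 D1 (T m a) := fun n b h => by rw [hT.symm, hT.supp _ _ _ _ h]
  rw [ts_expand hD hx h1 n b]
  refine sum_congr rfl fun k hk => sum_congr rfl fun j hj => ?_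
  have h2 := ts_eigen hD hx hT (Nat.lt_succ_iff.1 (mem_range.1 hk))
    (Nat.lt_succ_iff.1 (mem_range.1 hj)) m a
  simp only [ts_app] at h2
  rw [h2]
  simp only [ts_w]; ring

theorem InvT.offblock (hD : D1 ≤ D0) (hx : 0 < x) (hT : InvT D0 D1 x T) {m a n b : ℕ}
    (h : m + a ≠ n + b) : T m a n b = 0 := by
  rw [hT.expand hD hx]
  refine sum_eq_zero fun k _ => sum_eq_zero fun j _ => ?_
  by_cases h1 : m + a = k + j
  · rw [wv_eq_zero _ _ k j n b (by omega)]; simp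
  · rw [wv_eq_zero _ _ k j m a h1]; simp

theorem InvT.block (hD : D1 ≤ D0) (hx : 0 < x) (hT : InvT D0 D1 x T) {s m a n b : ℕ}
    (hs : s ≤ D1) (h1 : m + a = s) (h2 : n + b = s) :
    T m a n b = ∑ k ∈ range (s + 1),
      tau D0 D1 x T k * (wv (ee D0 x) (ee D1 x) k (s - k) m a *
        wv (ee D0 x) (ee D1 x) k (s - k) n b / nu D0 D1 x k (s - k)) := by
  rw [hT.expand hD hx, ← sum_subset (range_subset_range.2 (Nat.succ_le_succ hs))]
  · refine sum_congr rfl fun k hk => ?_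
    have hk' := mem_range.1 hk
    rw [sum_eq_single (s - k)]
    · ring
    · intro j _ hj
      rw [wv_eq_zero _ _ k j n b (by omega)]; simp
    · intro h; exact absurd (mem_range.2 (by omega)) h
  · intro k _ hk
    have hk' : ¬k < s + 1 := fun h => hk (mem_range.2 h)
    refine sum_eq_zero fun j _ => ?_
    rw [wv_eq_zero _ _ k j m a (by omega)]; simp

theorem ts_count (hD : D1 ≤ D0) {k : ℕ} (hk : k ≤ D1) (c : ℝ) :
    ∑ _j ∈ range (D0 + D1 - 2 * k + 1), c = c * ((D0 : ℝ) + D1 - 2 * k + 1) := by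
  rw [sum_const, card_range, nsmul_eq_mul, mul_comm]
  congr 1
  push_cast [Nat.cast_sub (by omega : 2 * k ≤ D0 + D1)]
  ring

theorem InvT.pairing (hD : D1 ≤ D0) (hx : 0 < x) (hT : InvT D0 D1 x T) (hG : InvT D0 D1 x G) :
    ∑ m ∈ range (D0 + 1), ∑ a ∈ range (D1 + 1), ∑ n ∈ range (D0 + 1), ∑ b ∈ range (D1 + 1),
      wt D0 x m * wt D1 x a * (wt D0 x n * wt D1 x b) * (T m a n b * G m a n b) =
    ∑ k ∈ range (D1 + 1),
      tau D0 D1 x T k * tau D0 D1 x G k * ((D0 : ℝ) + D1 - 2 * k + 1) := by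
  have h1 : ∀ m a, ∑ n ∈ range (D0 + 1), ∑ b ∈ range (D1 + 1),
      wt D0 x m * wt D1 x a * (wt D0 x n * wt D1 x b) * (T m a n b * G m a n b) =
      ∑ k ∈ range (D1 + 1), ∑ j ∈ range (D0 + D1 - 2 * k + 1),
        tau D0 D1 x T k * tau D0 D1 x G k / nu D0 D1 x k j *
          (wt D0 x m * wt D1 x a * wv (ee D0 x) (ee D1 x) k j m a ^ 2) := by
    intro m a
    simp only [hT.expand hD hx m a, sum_mul, mul_sum]
    rw [sum_congr rfl fun n _ => sum_comm, sum_comm]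
    refine sum_congr rfl fun k hk => ?_
    rw [sum_congr rfl fun n _ => sum_comm, sum_comm]
    refine sum_congr rfl fun j hj => ?_
    have h2 := ts_eigen hD hx hG (Nat.lt_succ_iff.1 (mem_range.1 hk))
      (Nat.lt_succ_iff.1 (mem_range.1 hj)) m a
    simp only [ts_app, ts_ip, ts_w] at h2
    calc _ = tau D0 D1 x T k / nu D0 D1 x k j *
          (wt D0 x m * wt D1 x a * wv (ee D0 x) (ee D1 x) k j m a) *
          ∑ n ∈ range (D0 + 1), ∑ b ∈ range (D1 + 1),
            wt D0 x n * wt D1 x b * wv (ee D0 x) (ee D1 x) k j n b * G m a n b := by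
          simp only [mul_sum]
          exact sum_congr rfl fun _ _ => sum_congr rfl fun _ _ => by ring
      _ = _ := by rw [h2]; ring
  simp only [h1]
  rw [sum_congr rfl fun n _ => sum_comm, sum_comm]
  refine sum_congr rfl fun k hk => ?_
  have hk' := Nat.lt_succ_iff.1 (mem_range.1 hk)
  rw [sum_congr rfl fun n _ => sum_comm, sum_comm, ← ts_count hD hk']
  refine sum_congr rfl fun j hj => ?_
  simp only [← mul_sum]
  exact div_mul_cancel₀ _ (nu_pos hD hx hk' (Nat.lt_succ_iff.1 (mem_range.1 hj))).ne'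

theorem InvT.trace (hD : D1 ≤ D0) (hx : 0 < x) (hG : InvT D0 D1 x G) :
    ∑ m ∈ range (D0 + 1), ∑ a ∈ range (D1 + 1), wt D0 x m * wt D1 x a * G m a m a =
    ∑ k ∈ range (D1 + 1), tau D0 D1 x G k * ((D0 : ℝ) + D1 - 2 * k + 1) := by
  have h1 : ∀ m a, wt D0 x m * wt D1 x a * G m a m a =
      ∑ k ∈ range (D1 + 1), ∑ j ∈ range (D0 + D1 - 2 * k + 1),
        tau D0 D1 x G k / nu D0 D1 x k j *
          (wt D0 x m * wt D1 x a * wv (ee D0 x) (ee D1 x) k j m a ^ 2) := by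
    intro m a
    simp only [hG.expand hD hx m a, mul_sum]
    exact sum_congr rfl fun _ _ => sum_congr rfl fun _ _ => by ring
  simp only [h1]
  rw [sum_congr rfl fun n _ => sum_comm, sum_comm]
  refine sum_congr rfl fun k hk => ?_
  have hk' := Nat.lt_succ_iff.1 (mem_range.1 hk)
  rw [sum_congr rfl fun n _ => sum_comm, sum_comm, ← ts_count hD hk']
  refine sum_congr rfl fun j hj => ?_
  simp only [← mul_sum]
  exact div_mul_cancel₀ _ (nu_pos hD hx hk' (Nat.lt_succ_iff.1 (mem_range.1 hj))).ne'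

theorem ts_antidiag (hD : D1 ≤ D0) {s : ℕ} (hs : s ≤ D1) (f : ℕ → ℕ → ℝ)
    (hf : ∀ m a, m + a ≠ s → f m a = 0) :
    ∑ m ∈ range (D0 + 1), ∑ a ∈ range (D1 + 1), f m a = ∑ m ∈ range (s + 1), f m (s - m) := by
  rw [← sum_subset (range_subset_range.2 (Nat.succ_le_succ (hs.trans hD)))]
  · refine sum_congr rfl fun m hm => ?_
    have hm' := mem_range.1 hm
    rw [sum_eq_single (s - m)]
    · intro a _ ha; exact hf _ _ (by omega)
    · intro h; exact absurd (mem_range.2 (by omega)) h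
  · intro m _ hm
    have hm' : ¬m < s + 1 := fun h => hm (mem_range.2 h)
    exact sum_eq_zero fun a _ => hf _ _ (by omega)

theorem InvT.tau_le (hD : D1 ≤ D0) (hx : 0 < x) (hG : InvT D0 D1 x G)
    (hpos : ∀ k ≤ D1, 0 ≤ tau D0 D1 x G k) {k : ℕ} (hk : k ≤ D1) :
    tau D0 D1 x G k ≤
      ∑ m ∈ range (k + 1), wt D0 x m * wt D1 x (k - m) * G m (k - m) m (k - m) := by
  have h1 : ∑ m ∈ range (k + 1), wt D0 x m * wt D1 x (k - m) * G m (k - m) m (k - m) =
      ∑ l ∈ range (k + 1), tau D0 D1 x G l := by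
    rw [sum_congr rfl fun m hm => by
      rw [hG.block hD hx hk (m := m) (a := k - m) (n := m) (b := k - m)
        (by have := mem_range.1 hm; omega) (by have := mem_range.1 hm; omega), mul_sum], sum_comm]
    refine sum_congr rfl fun l hl => ?_
    have hl' := mem_range.1 hl
    have h2 := nu_pos hD hx (n := l) (j := k - l) (by omega) (by omega)
    have h3 : nu D0 D1 x l (k - l) = ∑ m ∈ range (k + 1),
        wt D0 x m * wt D1 x (k - m) * wv (ee D0 x) (ee D1 x) l (k - l) m (k - m) ^ 2 :=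
      ts_antidiag hD hk _ fun m a h => by rw [wv_eq_zero _ _ _ _ _ _ (by omega)]; simp
    calc _ = tau D0 D1 x G l / nu D0 D1 x l (k - l) * ∑ m ∈ range (k + 1),
        wt D0 x m * wt D1 x (k - m) * wv (ee D0 x) (ee D1 x) l (k - l) m (k - m) ^ 2 := by
          rw [mul_sum]
          exact sum_congr rfl fun _ _ => by ring
      _ = _ := by rw [← h3, div_mul_cancel₀ _ h2.ne']
  rw [h1]
  exact single_le_sum (f := fun l => tau D0 D1 x G l)
    (fun l hl => hpos l (by have := mem_range.1 hl; omega)) (mem_range.2 (Nat.lt_succ_self k))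

theorem InvT.tau_formula (hD : D1 ≤ D0) (hx : 0 < x) (hT : InvT D0 D1 x T) {k : ℕ}
    (hk : k ≤ D1) :
    tau D0 D1 x T k * (-1) ^ k = ∑ m ∈ range (k + 1),
      wt D0 x m * wt D1 x (k - m) * ((-1) ^ (k - m) * (k.choose m : ℝ)) * T 0 k m (k - m) := by
  have h1 := ts_eigen hD hx hT hk (Nat.zero_le _) 0 k
  simp only [ts_app, ts_ip] at h1
  rw [ts_antidiag hD hk _ fun m a h => by
    rw [ts_w, wv_eq_zero _ _ _ _ _ _ (by omega)]; simp] at h1
  have h2 : ts_w D0 D1 x k 0 0 k = (-1) ^ k := by simp [ts_w, wv]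
  rw [← h2, ← h1]
  refine sum_congr rfl fun m hm => ?_
  have hm' := mem_range.1 hm
  simp only [ts_w, wv]
  rw [if_pos (by omega)]

theorem InvT.scalar (hx : 0 < x) (hG : InvT D0 0 x G) (m n : ℕ) :
    G m 0 n 0 = if m = n then tau D0 0 x G 0 * uu D0 x m else 0 := by
  by_cases hmn : m = n
  · subst hmn
    rw [if_pos rfl]
    by_cases hm : m ≤ D0
    · have h1 := ts_complete (Nat.zero_le D0) hx hm le_rfl hm le_rfl
      have h2 := ts_wt_pos hx hm
      have h3 : wt 0 x 0 = 1 := by simp [wt]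
      have h4 : uu D0 x m = (wt D0 x m)⁻¹ := by simp [uu, wt]
      rw [if_pos ⟨rfl, rfl⟩, h3, mul_one] at h1
      rw [hG.expand (Nat.zero_le D0) hx, h4, ← mul_one (wt D0 x m)⁻¹, ← h1]
      simp only [mul_sum, zero_add, range_one, sum_singleton]
      refine sum_congr rfl fun j _ => ?_
      simp only [ts_w]
      field_simp
    · rw [hG.supp _ _ _ _ (Or.inl (by omega)), uu, Nat.choose_eq_zero_of_lt (by omega)]
      simp
  · rw [if_neg hmn, hG.offblock (Nat.zero_le D0) hx (by omega)]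

end Vale.Agent.P359
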