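import Vale.Agent.P359.Limits
import Vale.Agent.P359.TwoSpin

/-! The exchange tensor and its eigenvalues. -/

namespace Vale.Agent.P359

open Finset

/-- the exchange tensor -/
noncomputable def exT (Q : ℕ) (m a n b : ℕ) : ℝ :=
  if m + a = n + b ∧ a ≤ n + 1 then
    ((a : ℝ) - (n + 1 - a : ℕ)) * ((b : ℝ) - (n + 1 - a : ℕ)) *
      (uu Q Q (n + 1 - a) * uu Q Q a * uu Q Q b)
  else 0

theorem exT_eq (Q : ℕ) {m a n b d : ℕ} (h1 : a + d = n + 1) (h2 : b + d = m + 1) :
    exT Q m a n b = ((a : ℝ) - d) * ((b : ℝ) - d) * (uu Q Q d * uu Q Q a * uu Q Q b) := by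
  rw [exT, if_pos (by omega), show n + 1 - a = d by omega]

theorem exT_zero (Q : ℕ) {m a n b : ℕ} (h : m + a ≠ n + b ∨ n + 1 < a) : exT Q m a n b = 0 := by
  rw [exT, if_neg (by omega)]

theorem invT_exT {Q : ℕ} (hQ : 1 ≤ Q) : InvT (2 * Q - 2) Q Q (exT Q) := by
  have hx : (0 : ℝ) < Q := by exact_mod_cast hQ
  have hs := uu_succ Q hx.ne'
  have he2 : ∀ i, ee (2 * Q - 2) Q i = (2 * Q - 2 - i) / Q := by
    intro i
    unfold ee
    rw [Nat.cast_sub (by omega)]
    push_cast
    ring
  refine ⟨?_, ?_, ?_⟩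
  · intro m a n b
    by_cases h : m + a = n + b ∧ a ≤ n + 1
    · obtain ⟨d, hd⟩ : ∃ d, a + d = n + 1 := ⟨n + 1 - a, by omega⟩
      rw [exT_eq Q hd (by omega), exT_eq Q (d := d) (by omega) hd]
      ring
    · rw [exT_zero Q (by omega), exT_zero Q (by omega)]
  · intro m a n b h
    by_cases h' : m + a = n + b ∧ a ≤ n + 1
    · obtain ⟨d, hd⟩ : ∃ d, a + d = n + 1 := ⟨n + 1 - a, by omega⟩
      rw [exT_eq Q hd (show b + d = m + 1 by omega)]
      by_cases h1 : Q < a
      · simp [uu_eq_zero _ h1]
      · by_cases h2 : Q < b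
        · simp [uu_eq_zero _ h2]
        · by_cases h3 : Q < d
          · simp [uu_eq_zero _ h3]
          · have : b = d := by omega
            simp [this]
    · rw [exT_zero Q (by omega)]
  · intro m a n b
    by_cases h : m + 1 + a = n + b
    swap
    · rw [exT_zero Q (by omega), exT_zero Q (by omega)]
      split_ifs with h1 h2 h2
      · simp
      · rw [exT_zero Q (by omega)]
        simp
      · rw [exT_zero Q (by omega)]
        simp
      · rw [exT_zero Q (by omega), exT_zero Q (by omega)]
        simp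
    rcases lt_trichotomy a (n + 1) with ha | ha | ha
    · obtain ⟨d, rfl⟩ : ∃ d, n = a + d := ⟨n - a, by omega⟩
      have hm : (m : ℝ) = d + b - 1 := by
        have : ((m + 1 : ℕ) : ℝ) = ((d + b : ℕ) : ℝ) := by rw [show m + 1 = d + b by omega]
        push_cast at this
        linarith
      have t3 : (if a + d = 0 then 0 else
          ee (2 * Q - 2) Q (a + d - 1) * exT Q m a (a + d - 1) b) =
          (2 * Q - 1 - a - d) / Q * (((a : ℝ) - d) * ((b : ℝ) - d) *
            (uu Q Q d * uu Q Q a * uu Q Q b)) := by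
        split_ifs with h1
        · have h2 : a = 0 := by omega
          have h3 : d = 0 := by omega
          simp [h2, h3]
        · rw [exT_eq Q (d := d) (by omega) (by omega), he2, Nat.cast_sub (by omega)]
          push_cast
          ring
      have t4 : (if b = 0 then 0 else ee Q Q (b - 1) * exT Q m a (a + d) (b - 1)) =
          ((a : ℝ) - (d + 1)) * ((b : ℝ) - 1 - (d + 1)) *
            (uu Q Q (d + 1) * uu Q Q a * (b * uu Q Q b)) := by
        cases b with
        | zero => simp
        | succ b =>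
          rw [if_neg (Nat.succ_ne_zero b), Nat.add_sub_cancel,
            exT_eq Q (d := d + 1) (by omega) (by omega)]
          push_cast
          rw [hs b]
          ring
      rw [t3, t4, exT_eq Q (d := d + 1) (by omega) (by omega),
        exT_eq Q (d := d) (by omega) (by omega), hm]
      have h1 := hs a
      have h2 := hs d
      unfold ee at h1 h2
      push_cast
      linear_combination ((a : ℝ) + 1 - d) * ((b : ℝ) - d) * uu Q Q d * uu Q Q b * h1 +
        ((a : ℝ) - (d + 1)) * ((b : ℝ) - d) * uu Q Q a * uu Q Q b * h2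
    · subst ha
      obtain rfl : b = m + 1 + 1 := by omega
      rw [exT_eq Q (d := 0) (by omega) (by omega), exT_zero Q (by omega),
        if_neg (Nat.succ_ne_zero (m + 1)), Nat.add_sub_cancel,
        exT_eq Q (d := 0) (m := m) (n := n) (b := m + 1) (by omega) (by omega)]
      have t3 : (if n = 0 then 0 else
          ee (2 * Q - 2) Q (n - 1) * exT Q m (n + 1) (n - 1) (m + 1 + 1)) = 0 := by
        split_ifs with h1
        · rfl
        · rw [exT_zero Q (by omega), mul_zero]
      rw [t3]
      have h1 := hs (m + 1)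
      push_cast at h1 ⊢
      linear_combination ((m : ℝ) + 1) * ((n : ℝ) + 1) * uu Q Q 0 * uu Q Q (n + 1) * h1
    · rw [exT_zero Q (by omega), exT_zero Q (by omega)]
      split_ifs with h1 h2 h2
      · simp
      · rw [exT_zero Q (by omega)]
        simp
      · rw [exT_zero Q (by omega)]
        simp
      · rw [exT_zero Q (by omega), exT_zero Q (by omega)]
        simp

/-- the eigenvalues of the exchange tensor -/
noncomputable def kap (Q k : ℕ) : ℝ :=
  (-1) ^ (k + 1) * (uu Q Q k * (((k : ℝ) - 1) * wt (2 * Q - 2) Q k +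
    (k : ℝ) ^ 2 * wt (2 * Q - 2) Q (k - 1)))

theorem tau_exT {Q : ℕ} (hQ : 2 ≤ Q) {k : ℕ} (hk : k ≤ Q) :
    tau (2 * Q - 2) Q Q (exT Q) k = kap Q k := by
  have hx : (0 : ℝ) < Q := by exact_mod_cast (show 0 < Q by omega)
  have h := (invT_exT (show 1 ≤ Q by omega)).tau_formula (by omega) hx hk
  have u1 : uu Q Q 1 = 1 := by
    simp [uu, hx.ne']
  have w1 : wt Q Q 1 = 1 := by
    simp [wt, hx.ne']
  have w0 : wt Q Q 0 = 1 := by simp [wt]
  have hsq : ((-1 : ℝ) ^ k) * (-1) ^ k = 1 := by
    rw [← mul_pow]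
    simp
  have e : tau (2 * Q - 2) Q Q (exT Q) k =
      (-1) ^ k * (tau (2 * Q - 2) Q Q (exT Q) k * (-1) ^ k) := by
    linear_combination (-tau (2 * Q - 2) Q Q (exT Q) k) * hsq
  rw [e, h, kap]
  cases k with
  | zero =>
    rw [Finset.sum_range_one, exT_eq Q (d := 1) (by omega) (by omega)]
    simp [u1, uu_zero, w0]
  | succ k =>
    rw [Finset.sum_range_succ, Finset.sum_range_succ, Finset.sum_eq_zero]
    · rw [show k + 1 - k = 1 by omega, Nat.sub_self, Nat.add_sub_cancel,
        exT_eq Q (d := 0) (by omega) (by omega), exT_eq Q (d := 1) (by omega) (by omega)]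
      simp only [u1, uu_zero, w0, w1, Nat.choose_self, Nat.choose_succ_self_right]
      push_cast
      ring
    · intro m hm
      have := Finset.mem_range.mp hm
      rw [exT_zero Q (by omega), mul_zero]

end Vale.Agent.P359
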