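import Vale.Agent.P359.Basic

/-! Limits of the weights as the flux tends to infinity. -/

namespace Vale.Agent.P359

open Finset Filter Topology

theorem sum4_comm {α β γ δ ε : Type} (s1 : Finset α) (s2 : Finset β) (s3 : Finset γ)
    (s4 : Finset δ) (t : Finset ε) (F : α → β → γ → δ → ε → ℝ) :
    ∑ a ∈ s1, ∑ b ∈ s2, ∑ c ∈ s3, ∑ d ∈ s4, ∑ e ∈ t, F a b c d e =
      ∑ e ∈ t, ∑ a ∈ s1, ∑ b ∈ s2, ∑ c ∈ s3, ∑ d ∈ s4, F a b c d e := by
  rw [Finset.sum_comm (s := t)]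
  refine Finset.sum_congr rfl fun a _ => ?_
  rw [Finset.sum_comm (s := t)]
  refine Finset.sum_congr rfl fun b _ => ?_
  rw [Finset.sum_comm (s := t)]
  refine Finset.sum_congr rfl fun c _ => ?_
  rw [Finset.sum_comm (s := t)]

theorem sum22_comm {α β γ δ : Type} (s1 : Finset α) (s2 : Finset β) (s3 : Finset γ)
    (s4 : Finset δ) (F : α → β → γ → δ → ℝ) :
    ∑ a ∈ s1, ∑ b ∈ s2, ∑ c ∈ s3, ∑ d ∈ s4, F a b c d =
      ∑ c ∈ s3, ∑ d ∈ s4, ∑ a ∈ s1, ∑ b ∈ s2, F a b c d := by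
  calc ∑ a ∈ s1, ∑ b ∈ s2, ∑ c ∈ s3, ∑ d ∈ s4, F a b c d
      = ∑ a ∈ s1, ∑ c ∈ s3, ∑ d ∈ s4, ∑ b ∈ s2, F a b c d := by
        refine Finset.sum_congr rfl fun a _ => ?_
        rw [Finset.sum_comm]
        refine Finset.sum_congr rfl fun c _ => ?_
        rw [Finset.sum_comm]
    _ = _ := by
        rw [Finset.sum_comm]
        refine Finset.sum_congr rfl fun c _ => ?_
        rw [Finset.sum_comm]

theorem uu_succ (D : ℕ) {x : ℝ} (hx : x ≠ 0) (a : ℕ) :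
    ((a : ℝ) + 1) * uu D x (a + 1) = ee D x a * uu D x a := by
  unfold uu ee
  have h : ((D.choose (a + 1) : ℝ)) * (a + 1) = D.choose a * ((D : ℝ) - a) := by
    rcases le_or_gt a D with h | h
    · have := Nat.choose_succ_right_eq D a
      have h2 : ((D.choose (a + 1) * (a + 1) : ℕ) : ℝ) = ((D.choose a * (D - a) : ℕ) : ℝ) := by
        rw [this]
      push_cast [Nat.cast_sub h] at h2
      exact h2
    · rw [Nat.choose_eq_zero_of_lt h, Nat.choose_eq_zero_of_lt (by omega)]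
      simp
  rw [pow_succ]
  field_simp
  linear_combination h

theorem uu_zero (D : ℕ) (x : ℝ) : uu D x 0 = 1 := by simp [uu]

theorem uu_eq_prod (D : ℕ) {x : ℝ} (hx : x ≠ 0) (a : ℕ) :
    uu D x a = (∏ i ∈ range a, ee D x i) / a.factorial := by
  induction a with
  | zero => simp [uu]
  | succ a ih =>
    have h := uu_succ D hx a
    rw [Finset.prod_range_succ, Nat.factorial_succ]
    have h1 : ((a : ℝ) + 1) ≠ 0 := by positivity
    have h2 : (a.factorial : ℝ) ≠ 0 := by positivity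
    rw [ih] at h
    push_cast
    field_simp
    field_simp at h
    linear_combination h

theorem wt_eq_inv (D : ℕ) (x : ℝ) (a : ℕ) : wt D x a = (uu D x a)⁻¹ := by
  simp [wt, uu]

theorem uu_nonneg (D : ℕ) {x : ℝ} (hx : 0 ≤ x) (a : ℕ) : 0 ≤ uu D x a := by
  unfold uu
  positivity

theorem wt_nonneg (D : ℕ) {x : ℝ} (hx : 0 ≤ x) (a : ℕ) : 0 ≤ wt D x a := by
  unfold wt
  positivity

theorem uu_pos {D : ℕ} {x : ℝ} (hx : 0 < x) {a : ℕ} (ha : a ≤ D) : 0 < uu D x a := by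
  unfold uu
  have := Nat.choose_pos ha
  positivity

theorem wt_pos {D : ℕ} {x : ℝ} (hx : 0 < x) {a : ℕ} (ha : a ≤ D) : 0 < wt D x a := by
  rw [wt_eq_inv]
  exact inv_pos.mpr (uu_pos hx ha)

theorem wt_mul_uu {D : ℕ} {x : ℝ} (hx : 0 < x) {a : ℕ} (ha : a ≤ D) :
    wt D x a * uu D x a = 1 := by
  rw [wt_eq_inv]
  exact inv_mul_cancel₀ (uu_pos hx ha).ne'

theorem uu_eq_zero {D : ℕ} (x : ℝ) {a : ℕ} (ha : D < a) : uu D x a = 0 := by
  simp [uu, Nat.choose_eq_zero_of_lt ha]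

theorem tendsto_ee1 (i : ℕ) : Tendsto (fun Q : ℕ => ee Q Q i) atTop (𝓝 1) := by
  have h : Tendsto (fun Q : ℕ => 1 - (i : ℝ) / Q) atTop (𝓝 (1 - 0)) :=
    tendsto_const_nhds.sub (tendsto_const_div_atTop_nhds_zero_nat _)
  rw [sub_zero] at h
  refine h.congr' ?_
  filter_upwards [eventually_ge_atTop 1] with Q hQ
  have : (Q : ℝ) ≠ 0 := by positivity
  unfold ee
  field_simp

theorem tendsto_ee2 (i : ℕ) : Tendsto (fun Q : ℕ => ee (2 * Q - 2) Q i) atTop (𝓝 2) := by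
  have h : Tendsto (fun Q : ℕ => 2 - ((i : ℝ) + 2) / Q) atTop (𝓝 (2 - 0)) :=
    tendsto_const_nhds.sub (tendsto_const_div_atTop_nhds_zero_nat _)
  rw [sub_zero] at h
  refine h.congr' ?_
  filter_upwards [eventually_ge_atTop 1] with Q hQ
  have : (Q : ℝ) ≠ 0 := by positivity
  unfold ee
  rw [Nat.cast_sub (by omega)]
  push_cast
  field_simp
  ring

theorem tendsto_uu {D : ℕ → ℕ} {q : ℝ}
    (h : ∀ i, Tendsto (fun Q : ℕ => ee (D Q) Q i) atTop (𝓝 q)) (a : ℕ) :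
    Tendsto (fun Q : ℕ => uu (D Q) Q a) atTop (𝓝 (q ^ a / a.factorial)) := by
  have h1 : Tendsto (fun Q : ℕ => (∏ i ∈ range a, ee (D Q) Q i) / (a.factorial : ℝ)) atTop
      (𝓝 ((∏ _i ∈ range a, q) / a.factorial)) :=
    (tendsto_finsetProd _ fun i _ => h i).div_const _
  rw [Finset.prod_const, Finset.card_range] at h1
  refine h1.congr' ?_
  filter_upwards [eventually_ge_atTop 1] with Q hQ
  rw [uu_eq_prod _ (by positivity)]

theorem tendsto_wt {D : ℕ → ℕ} {q : ℝ} (hq : 0 < q)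
    (h : ∀ i, Tendsto (fun Q : ℕ => ee (D Q) Q i) atTop (𝓝 q)) (a : ℕ) :
    Tendsto (fun Q : ℕ => wt (D Q) Q a) atTop (𝓝 (a.factorial / q ^ a)) := by
  have h1 := (tendsto_uu h a).inv₀ (by positivity)
  rw [inv_div] at h1
  simpa only [wt_eq_inv] using h1

theorem tendsto_wv {e0 e1 : ℕ → ℕ → ℝ} {f0 f1 : ℕ → ℝ}
    (h0 : ∀ i, Tendsto (fun Q : ℕ => e0 Q i) atTop (𝓝 (f0 i)))
    (h1 : ∀ i, Tendsto (fun Q : ℕ => e1 Q i) atTop (𝓝 (f1 i))) (n j m a : ℕ) :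
    Tendsto (fun Q : ℕ => wv (e0 Q) (e1 Q) n j m a) atTop (𝓝 (wv f0 f1 n j m a)) := by
  induction j generalizing m a with
  | zero => exact tendsto_const_nhds
  | succ j ih =>
    simp only [wv]
    apply Tendsto.add
    · split_ifs
      · exact tendsto_const_nhds
      · exact (h0 _).mul (ih _ _)
    · split_ifs
      · exact tendsto_const_nhds
      · exact (h1 _).mul (ih _ _)

end Vale.Agent.P359
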