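import Vale.Agent.P359.Basic

namespace Vale.Agent.P359

open Finset

/-- the set of low orbitals encoded by the bitmask `i` -/
def windowS (Q i : ℕ) : Finset (Fin (Q + 1)) :=
  univ.filter fun a : Fin (Q + 1) => a.val < 9 ∧ i.testBit a.val

/-- the rescaling factor attached to the bitmask `i` -/
noncomputable def windowFac (Q i : ℕ) : ℝ :=
  ∏ a ∈ range 9, if i.testBit a then Real.sqrt (uu Q Q a) else 1

/-- the sets of high orbitals -/
def windowO (Q : ℕ) : Finset (Finset (Fin (Q + 1))) :=
  univ.filter fun o => ∀ a ∈ o, 9 ≤ a.val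

/-- restriction of a Fock vector to a window -/
noncomputable def windowRes (Q : ℕ) (o : Finset (Fin (Q + 1))) : Fock Q →ₗ[ℝ] (ℕ → ℝ) where
  toFun f := fun i => f (windowS Q i ∪ o) * windowFac Q i
  map_add' f g := by
    ext i
    simp [add_mul]
  map_smul' r f := by
    ext i
    simp [mul_assoc]

lemma window_testBit : ∀ a < 9, ∀ i < 512, Nat.testBit i a = false → ∀ b < 9,
    Nat.testBit (i + 2 ^ a) b = (decide (b = a) || Nat.testBit i b) := by
  decide +kernel

lemma window_inj : ∀ i < 512, i = ∑ a ∈ range 9, if Nat.testBit i a then 2 ^ a else 0 := by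
  decide +kernel

lemma window_surj : ∀ s : Finset (Fin 9), ∃ i < 512, ∀ a : Fin 9, Nat.testBit i a ↔ a ∈ s := by
  have h : ∀ s : Finset (Fin 9), (∑ a ∈ s, 2 ^ a.val) < 512 ∧
      ∀ a : Fin 9, Nat.testBit (∑ a ∈ s, 2 ^ a.val) a ↔ a ∈ s := by
    decide +kernel
  exact fun s => ⟨_, h s⟩

lemma window_uu_pos {Q a : ℕ} (hQ : 8 ≤ Q) (ha : a < 9) : 0 < uu Q Q a := by
  have h1 : 0 < Q.choose a := Nat.choose_pos (by omega)
  have h2 : (0 : ℝ) < Q := by exact_mod_cast (by omega : 0 < Q)
  unfold uu
  positivity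

lemma window_wt_uu {Q a : ℕ} (hQ : 8 ≤ Q) (ha : a < 9) : wt Q Q a * uu Q Q a = 1 := by
  have h1 : (0 : ℝ) < Q.choose a := by exact_mod_cast Nat.choose_pos (by omega : a ≤ Q)
  have h2 : (0 : ℝ) < Q := by exact_mod_cast (by omega : 0 < Q)
  unfold wt uu
  field_simp

lemma window_fac_sq {Q : ℕ} (hQ : 8 ≤ Q) (i : ℕ) :
    (∏ a ∈ range 9, if i.testBit a then wt Q Q a else 1) * (windowFac Q i * windowFac Q i) = 1 := by
  unfold windowFac
  rw [← prod_mul_distrib, ← prod_mul_distrib]
  refine prod_eq_one fun a ha => ?_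
  have ha' := mem_range.1 ha
  split_ifs
  · rw [Real.mul_self_sqrt (window_uu_pos hQ ha').le, window_wt_uu hQ ha']
  · norm_num

lemma window_chat {Q : ℕ} (hQ : 8 ≤ Q) {o : Finset (Fin (Q + 1))} (ho : o ∈ windowO Q) {a : ℕ}
    (ha : a < 9) (f : Fock Q) {i : ℕ} (hi : i < 512) :
    windowRes Q o (chat Q a f) i = pc a (windowRes Q o f) i := by
  have haQ : a < Q + 1 := by omega
  have ho' : ∀ b ∈ o, 9 ≤ b.val := by simpa [windowO] using ho
  have hmem : (⟨a, haQ⟩ : Fin (Q + 1)) ∈ windowS Q i ∪ o ↔ i.testBit a := by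
    simp only [mem_union, windowS, mem_filter, mem_univ, true_and]
    constructor
    · rintro (h | h)
      · exact h.2
      · have := ho' _ h
        simp only at this
        omega
    · exact fun h => Or.inl ⟨ha, h⟩
  have hchat : (chat Q a f) (windowS Q i ∪ o) = Real.sqrt (uu Q Q a) *
      (if (⟨a, haQ⟩ : Fin (Q + 1)) ∈ windowS Q i ∪ o then 0 else
        (-1) ^ ((windowS Q i ∪ o).filter (· < (⟨a, haQ⟩ : Fin (Q + 1)))).card *
          f (insert ⟨a, haQ⟩ (windowS Q i ∪ o))) := by
    simp only [chat, dif_pos haQ]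
    rfl
  show (chat Q a f) (windowS Q i ∪ o) * windowFac Q i =
    if i.testBit a then 0 else (-1) ^ cnt a i *
      (f (windowS Q (i + 2 ^ a) ∪ o) * windowFac Q (i + 2 ^ a))
  rw [hchat]
  by_cases hb : i.testBit a
  · rw [if_pos (hmem.2 hb), if_pos hb]; simp
  · rw [if_neg (fun h => hb (hmem.1 h)), if_neg hb]
    have hb' : Nat.testBit i a = false := by simpa using hb
    have hbit := window_testBit a ha i hi hb'
    have hS : windowS Q (i + 2 ^ a) ∪ o = insert ⟨a, haQ⟩ (windowS Q i ∪ o) := by
      rw [← insert_union]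
      congr 1
      ext b
      simp only [windowS, mem_filter, mem_univ, true_and, mem_insert, Fin.ext_iff]
      constructor
      · rintro ⟨h1, h2⟩
        rw [hbit b h1] at h2
        simp only [Bool.or_eq_true, decide_eq_true_eq] at h2
        exact h2.imp id fun h => ⟨h1, h⟩
      · rintro (h | ⟨h1, h2⟩)
        · refine ⟨by omega, ?_⟩
          rw [hbit b (by omega)]
          simp [h]
        · refine ⟨h1, ?_⟩
          rw [hbit b h1]
          simp [h2]
    have hF : windowFac Q (i + 2 ^ a) = Real.sqrt (uu Q Q a) * windowFac Q i := by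
      unfold windowFac
      rw [← mul_prod_erase _ _ (mem_range.2 ha), ← mul_prod_erase (range 9) _ (mem_range.2 ha),
        hbit a ha, if_neg hb]
      simp only [decide_true, Bool.true_or, if_true, one_mul]
      congr 1
      refine prod_congr rfl fun b hb2 => ?_
      have h1 := mem_erase.1 hb2
      rw [hbit b (mem_range.1 h1.2)]
      simp [h1.1]
    have hC : ((windowS Q i ∪ o).filter (· < (⟨a, haQ⟩ : Fin (Q + 1)))).card = cnt a i := by
      unfold cnt
      refine card_bij (fun b _ => b.val) ?_ ?_ ?_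
      · intro b hb2
        simp only [mem_filter, mem_union, windowS, mem_univ, true_and, Fin.lt_def] at hb2
        simp only [mem_filter, mem_range]
        refine ⟨hb2.2, ?_⟩
        rcases hb2.1 with h | h
        · exact h.2
        · have := ho' _ h
          omega
      · intro b _ c _ h
        exact Fin.ext h
      · intro b hb2
        simp only [mem_filter, mem_range] at hb2
        refine ⟨⟨b, by omega⟩, ?_, rfl⟩
        simp only [mem_filter, mem_union, windowS, mem_univ, true_and, Fin.lt_def]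
        exact ⟨Or.inl ⟨by omega, hb2.2⟩, hb2.1⟩
    rw [hS, hF, hC]
    ring

lemma window_sum {Q : ℕ} (hQ : 8 ≤ Q) (F : Finset (Fin (Q + 1)) → ℝ) :
    ∑ o ∈ windowO Q, ∑ i ∈ range 512, F (windowS Q i ∪ o) = ∑ S, F S := by
  rw [← sum_product' (windowO Q) (range 512) (fun o i => F (windowS Q i ∪ o))]
  refine sum_bij (fun p _ => windowS Q p.2 ∪ p.1) (fun _ _ => mem_univ _) ?_ ?_ (fun _ _ => rfl)
  · rintro ⟨o, i⟩ h1 ⟨o', j⟩ h2 h
    simp only [mem_product, mem_range, windowO, mem_filter, mem_univ, true_and] at h1 h2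
    have key : ∀ b : Fin (Q + 1), (b.val < 9 ∧ i.testBit b.val) ∨ b ∈ o ↔
        (b.val < 9 ∧ j.testBit b.val) ∨ b ∈ o' := fun b => by
      have := Finset.ext_iff.1 h b
      simpa only [mem_union, windowS, mem_filter, mem_univ, true_and] using this
    have e1 : o = o' := by
      ext b
      constructor
      · intro hb
        rcases (key b).1 (Or.inr hb) with h' | h'
        · have := h1.1 b hb; omega
        · exact h'
      · intro hb
        rcases (key b).2 (Or.inr hb) with h' | h'
        · have := h2.1 b hb; omega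
        · exact h'
    have e2 : i = j := by
      rw [window_inj i h1.2, window_inj j h2.2]
      refine sum_congr rfl fun a ha => ?_
      have ha' := mem_range.1 ha
      have hk := key ⟨a, by omega⟩
      have n1 : (⟨a, by omega⟩ : Fin (Q + 1)) ∉ o := fun hb => by
        have := h1.1 _ hb
        simp only at this
        omega
      have n2 : (⟨a, by omega⟩ : Fin (Q + 1)) ∉ o' := fun hb => by
        have := h2.1 _ hb
        simp only at this
        omega
      simp only [n1, n2, or_false, ha', true_and] at hk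
      by_cases hi : i.testBit a
      · rw [if_pos hi, if_pos (hk.1 hi)]
      · rw [if_neg hi, if_neg (fun h' => hi (hk.2 h'))]
    rw [e1, e2]
  · intro S _
    obtain ⟨i, hi, hbit⟩ := window_surj
      (univ.filter fun a : Fin 9 => (⟨a.val, by omega⟩ : Fin (Q + 1)) ∈ S)
    refine ⟨(S.filter fun b => 9 ≤ b.val, i), ?_, ?_⟩
    · simp only [mem_product, mem_range, windowO, mem_filter, mem_univ, true_and]
      exact ⟨fun a ha => ha.2, hi⟩
    · ext b
      simp only [mem_union, windowS, mem_filter, mem_univ, true_and]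
      constructor
      · rintro (⟨h1, h2⟩ | h)
        · have := (hbit ⟨b.val, h1⟩).1 h2
          simpa using this
        · exact h.1
      · intro hb
        by_cases h9 : b.val < 9
        · left
          refine ⟨h9, (hbit ⟨b.val, h9⟩).2 ?_⟩
          simpa using hb
        · right
          exact ⟨hb, by omega⟩

theorem exists_window (Q : ℕ) (hQ : 8 ≤ Q) :
    ∃ (O : Finset (Finset (Fin (Q + 1))))
      (res : Finset (Fin (Q + 1)) → Fock Q →ₗ[ℝ] (ℕ → ℝ)),
      (∀ o ∈ O, ∀ a < 9, ∀ f, ∀ i < 512, res o (chat Q a f) i = pc a (res o f) i) ∧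
      ∀ f g : Fock Q, inner ℝ f g = ∑ o ∈ O, ∑ i ∈ range 512,
        (∏ a ∈ range 9, if i.testBit a then wt Q Q a else 1) * (res o f i * res o g i) := by
  refine ⟨windowO Q, windowRes Q, fun o ho a ha f i hi => window_chat hQ ho ha f hi, fun f g => ?_⟩
  have e : ∀ o i, (∏ a ∈ range 9, if Nat.testBit i a then wt Q Q a else 1) *
      (windowRes Q o f i * windowRes Q o g i) = f (windowS Q i ∪ o) * g (windowS Q i ∪ o) := by
    intro o i
    have := window_fac_sq hQ i
    show _ * (f (windowS Q i ∪ o) * windowFac Q i * (g (windowS Q i ∪ o) * windowFac Q i)) = _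
    linear_combination (f (windowS Q i ∪ o) * g (windowS Q i ∪ o)) * this
  simp only [e]
  rw [window_sum hQ (fun S => f S * g S), PiLp.inner_apply]
  refine sum_congr rfl fun S _ => ?_
  simp [mul_comm]

end Vale.Agent.P359
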