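import Vale.Agent.P359.CertSound
import Vale.Agent.P359.CheckAll
import Vale.Agent.P359.Window
import Vale.Agent.P359.Limits

/-! The local operator inequality. -/

namespace Vale.Agent.P359

open Finset Filter Topology

section families

variable {H : Type} [AddCommGroup H] [Module ℝ H]

noncomputable def op1 (c : ℕ → Module.End ℝ H) (m _a : ℕ) : Module.End ℝ H := pairA c m

noncomputable def op2 (c : ℕ → Module.End ℝ H) (m a : ℕ) : Module.End ℝ H := c a * pairA c m

noncomputable def op3 (c : ℕ → Module.End ℝ H) (m a : ℕ) : Module.End ℝ H :=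
  pairA c a * pairA c m

end families

/-- the coefficients with a safety margin on the diagonal -/
def robQ (C : ℕ → ℕ → ℕ → ℕ → ℤ) (A : ℕ) (m a n b : ℕ) : ℚ :=
  (C m a n b : ℚ) + if m = n ∧ a = b then
    (1 / 1000000 : ℚ) * ∑ n' ∈ range 8, ∑ b' ∈ range A, |(C m a n' b' : ℚ)| else 0

/-- quadruple sum against a table -/
noncomputable def pairSum (C : ℕ → ℕ → ℕ → ℕ → ℝ) (A : ℕ) (G : ℕ → ℕ → ℕ → ℕ → ℝ) : ℝ :=
  ∑ m ∈ range 8, ∑ a ∈ range A, ∑ n ∈ range 8, ∑ b ∈ range A, C m a n b * G m a n b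

noncomputable def rob (C : ℕ → ℕ → ℕ → ℕ → ℤ) (A : ℕ) (m a n b : ℕ) : ℝ := (robQ C A m a n b : ℝ)

theorem robust (C : ℕ → ℕ → ℕ → ℕ → ℤ) (A : ℕ)
    (hC : ∀ m < 8, ∀ a < A, ∀ n < 8, ∀ b < A, C m a n b = C n b m a) (u : ℕ → ℕ → ℝ) (θ : ℝ)
    (hθ : |θ - 1| ≤ 1 / 2000000) :
    pairSum (fun m a n b => (C m a n b : ℝ)) A (fun m a n b => u m a * u n b) ≤
      θ * pairSum (rob C A) A (fun m a n b => u m a * u n b) := by
  set q := pairSum (fun m a n b => (C m a n b : ℝ)) A (fun m a n b => u m a * u n b) with hq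
  set R := ∑ m ∈ range 8, ∑ a ∈ range A, ∑ n ∈ range 8, ∑ b ∈ range A,
    |(C m a n b : ℝ)| * u m a ^ 2 with hR
  have hR' : R = ∑ m ∈ range 8, ∑ a ∈ range A, ∑ n ∈ range 8, ∑ b ∈ range A,
      |(C m a n b : ℝ)| * u n b ^ 2 := by
    rw [hR, sum22_comm]
    refine Finset.sum_congr rfl fun m hm => Finset.sum_congr rfl fun a ha =>
      Finset.sum_congr rfl fun n hn => Finset.sum_congr rfl fun b hb => ?_
    simp only [Finset.mem_range] at hm ha hn hb
    rw [hC _ hn _ hb _ hm _ ha]
  have h1 : pairSum (rob C A) A (fun m a n b => u m a * u n b) = q + 1 / 1000000 * R := by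
    rw [hq, hR]
    simp only [pairSum, Finset.mul_sum, ← Finset.sum_add_distrib]
    refine Finset.sum_congr rfl fun m hm => Finset.sum_congr rfl fun a ha => ?_
    have e : ∀ n b, rob C A m a n b = C m a n b + if m = n ∧ a = b then
        ∑ n' ∈ range 8, ∑ b' ∈ range A, 1 / 1000000 * |(C m a n' b' : ℝ)| else 0 := by
      intro n b
      simp only [rob, robQ]
      split_ifs
      · push_cast
        simp only [Finset.mul_sum]
      · simp
    simp only [e, add_mul, Finset.sum_add_distrib]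
    congr 1
    rw [Finset.sum_eq_single m]
    · rw [Finset.sum_eq_single a]
      · simp only [and_self, if_true, Finset.sum_mul]
        refine Finset.sum_congr rfl fun _ _ => Finset.sum_congr rfl fun _ _ => ?_
        ring
      · intro b _ hb
        simp [hb.symm]
      · intro h
        exact absurd ha h
    · intro n _ hn
      simp [hn.symm]
    · intro h
      exact absurd hm h
  have h2 : |q| ≤ R := by
    have : 2 * |q| ≤ R + R := by
      nth_rewrite 2 [hR']
      rw [hR, hq, pairSum]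
      simp only [← Finset.sum_add_distrib]
      have e : ∀ t : ℝ, 2 * |t| = |2 * t| := fun t => by rw [abs_mul]; simp
      rw [e]
      simp only [Finset.mul_sum]
      refine (Finset.abs_sum_le_sum_abs _ _).trans (Finset.sum_le_sum fun m _ => ?_)
      refine (Finset.abs_sum_le_sum_abs _ _).trans (Finset.sum_le_sum fun a _ => ?_)
      refine (Finset.abs_sum_le_sum_abs _ _).trans (Finset.sum_le_sum fun n _ => ?_)
      refine (Finset.abs_sum_le_sum_abs _ _).trans (Finset.sum_le_sum fun b _ => ?_)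
      have h3 : |2 * (u m a * u n b)| ≤ u m a ^ 2 + u n b ^ 2 := by
        rw [abs_le]
        constructor <;> nlinarith [sq_nonneg (u m a + u n b), sq_nonneg (u m a - u n b)]
      calc |2 * ((C m a n b : ℝ) * (u m a * u n b))|
          = |(C m a n b : ℝ)| * |2 * (u m a * u n b)| := by
            rw [← abs_mul]
            congr 1
            ring
        _ ≤ |(C m a n b : ℝ)| * (u m a ^ 2 + u n b ^ 2) :=
            mul_le_mul_of_nonneg_left h3 (abs_nonneg _)
        _ = _ := by ring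
    linarith
  rw [h1]
  have h3 : |(θ - 1) * q| ≤ 1 / 2000000 * R := by
    rw [abs_mul]
    exact mul_le_mul hθ h2 (abs_nonneg _) (by norm_num)
  have hR0 : 0 ≤ R := (abs_nonneg _).trans h2
  have h4 := (abs_le.mp h3).1
  have h5 := (abs_le.mp hθ).1
  nlinarith

/-- operators that only look at the window -/
def Loc (Y : Module.End ℝ (ℕ → ℝ)) : Prop :=
  ∀ g : ℕ → ℝ, (∀ i < 512, g i = 0) → ∀ i < 512, Y g i = 0

theorem Loc.congr {Y : Module.End ℝ (ℕ → ℝ)} (hY : Loc Y) {g h : ℕ → ℝ}
    (e : ∀ i < 512, g i = h i) {i : ℕ} (hi : i < 512) : Y g i = Y h i := by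
  have := hY (g - h) (fun j hj => by simp [e j hj]) i hi
  rw [map_sub, Pi.sub_apply] at this
  linarith

theorem add_lt_window : ∀ a < 9, ∀ i < 512, i.testBit a = false → i + 2 ^ a < 512 := by
  decide +kernel

theorem loc_pc {a : ℕ} (ha : a < 9) : Loc (pc a) := by
  intro g hg i hi
  rw [pc_apply]
  cases h : i.testBit a
  · rw [hg _ (add_lt_window a ha i hi h)]
    simp
  · simp

theorem Loc.mul {Y Z : Module.End ℝ (ℕ → ℝ)} (hY : Loc Y) (hZ : Loc Z) : Loc (Y * Z) :=
  fun g hg i hi => hY _ (hZ g hg) i hi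

theorem loc_pairA {m : ℕ} (hm : m < 8) : Loc (pairA pc m) := by
  intro g hg i hi
  simp only [pairA, LinearMap.sum_apply, Finset.sum_apply, LinearMap.smul_apply, Pi.smul_apply]
  apply Finset.sum_eq_zero
  intro p hp
  have : p.1 + p.2 = m + 1 := by simpa using hp
  rw [((loc_pc (a := p.2) (by omega)).mul (loc_pc (a := p.1) (by omega))) g hg i hi, smul_zero]

theorem bf_expand (C : ℕ → ℕ → ℕ → ℕ → ℝ) (w : ℕ → ℝ) (A : ℕ)
    (Y : ℕ → ℕ → Module.End ℝ (ℕ → ℝ)) (hY : ∀ m < 8, ∀ a < A, Loc (Y m a)) (g : ℕ → ℝ) :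
    bf w C A (fun m a => Y m a g) (fun m a => Y m a g) =
      ∑ S ∈ range 512, ∑ T ∈ range 512, g S * g T *
        bf w C A (fun m a => Y m a (Pi.single S 1)) (fun m a => Y m a (Pi.single T 1)) := by
  have h1 : ∀ m ∈ range 8, ∀ a ∈ range A, ∀ i ∈ range 512,
      Y m a g i = ∑ S ∈ range 512, g S * Y m a (Pi.single S 1) i := by
    intro m hm a ha i hi
    have e : ∀ j < 512, g j = (∑ S ∈ range 512, g S • (Pi.single S 1 : ℕ → ℝ)) j := by
      intro j hj
      rw [Finset.sum_apply, Finset.sum_eq_single j]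
      · simp
      · intro b _ hb
        simp [hb.symm]
      · intro h
        exact absurd (Finset.mem_range.mpr hj) h
    rw [(hY m (Finset.mem_range.mp hm) a (Finset.mem_range.mp ha)).congr e
      (Finset.mem_range.mp hi), map_sum, Finset.sum_apply]
    refine Finset.sum_congr rfl fun S _ => ?_
    rw [map_smul]
    rfl
  unfold bf
  generalize range 512 = K at h1 ⊢
  generalize range 8 = M at h1 ⊢
  generalize range A = N at h1 ⊢
  have h2 : ∀ i ∈ K, ∀ m ∈ M, ∀ a ∈ N, ∀ n ∈ M, ∀ b ∈ N,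
      w i * (C m a n b * (Y m a g i * Y n b g i)) = ∑ S ∈ K, ∑ T ∈ K, g S * g T *
        (w i * (C m a n b * (Y m a (Pi.single S 1) i * Y n b (Pi.single T 1) i))) := by
    intro i hi m hm a ha n hn b hb
    rw [h1 m hm a ha i hi, h1 n hn b hb i hi, Finset.sum_mul_sum]
    simp only [Finset.mul_sum]
    refine Finset.sum_congr rfl fun _ _ => Finset.sum_congr rfl fun _ _ => ?_
    ring
  simp only [Finset.mul_sum]
  rw [Finset.sum_congr rfl fun i hi => Finset.sum_congr rfl fun m hm =>
    Finset.sum_congr rfl fun a ha => Finset.sum_congr rfl fun n hn =>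
    Finset.sum_congr rfl fun b hb => h2 i hi m hm a ha n hn b hb]
  rw [Finset.sum_congr rfl fun i _ => sum4_comm _ _ _ _ _ _, Finset.sum_comm]
  refine Finset.sum_congr rfl fun S _ => ?_
  rw [Finset.sum_congr rfl fun i _ => sum4_comm _ _ _ _ _ _, Finset.sum_comm]

theorem den_single (S : ℕ) : den [(S, 1)] = Pi.single S 1 := by simp [den]

theorem window_nonneg (g : ℕ → ℝ) :
    0 ≤ bf (fun i => (wF 9 i : ℝ)) (fun m a n b => (cc1 m a n b : ℝ)) 1
        (fun m a => op1 pc m a g) (fun m a => op1 pc m a g) +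
      (bf (fun i => (wF 9 i : ℝ)) (fun m a n b => (cc2 m a n b : ℝ)) 9
        (fun m a => op2 pc m a g) (fun m a => op2 pc m a g) +
      bf (fun i => (wF 9 i : ℝ)) (fun m a n b => (cc3 m a n b : ℝ)) 8
        (fun m a => op3 pc m a g) (fun m a => op3 pc m a g)) := by
  rw [bf_expand _ _ 1 (op1 pc) (fun m hm _ _ => loc_pairA hm),
    bf_expand _ _ 9 (op2 pc) (fun m hm _ ha => (loc_pc ha).mul (loc_pairA hm)),
    bf_expand _ _ 8 (op3 pc) (fun m hm _ ha => (loc_pairA ha).mul (loc_pairA hm))]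
  refine (mEnt_nonneg check_all g).trans_eq ?_
  rw [← Finset.sum_add_distrib, ← Finset.sum_add_distrib]
  refine Finset.sum_congr rfl fun S hS => ?_
  rw [← Finset.sum_add_distrib, ← Finset.sum_add_distrib]
  refine Finset.sum_congr rfl fun T _ => ?_
  have g1 := checkKey_grade (Finset.mem_range.mp hS) (check_all S (Finset.mem_range.mp hS))
  have e1 : ∀ S, (fun m a => op1 pc m a (Pi.single S 1)) = fun m a => den (ll1 S m a) := by
    intro S
    funext m a
    rw [ll1, den_pushA, den_single, op1]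
  have e2 : ∀ S, (fun m a => op2 pc m a (Pi.single S 1)) = fun m a => den (ll2 S m a) := by
    intro S
    funext m a
    rw [ll2, den_pushC, den_pushA, den_single, op2, Module.End.mul_apply]
  have e3 : ∀ S, (fun m a => op3 pc m a (Pi.single S 1)) = fun m a => den (ll3 S m a) := by
    intro S
    funext m a
    rw [ll3, den_pushA, den_pushA, den_single, op3, Module.End.mul_apply]
  rw [e1, e1, e2, e2, e3, e3, bf_den cc1 1 _ _ (gradeOK_lt g1.1),
    bf_den cc2 9 _ _ (gradeOK_lt g1.2.1), bf_den cc3 8 _ _ (gradeOK_lt g1.2.2)]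
  have : mEnt S T = ipAll cc1 (fl1 T) (fl1 S) +
    (ipAll cc2 (fl2 T) (fl2 S) + ipAll cc3 (fl3 T) (fl3 S)) := rfl
  rw [this]
  push_cast
  simp only [fl1, fl2, fl3]
  ring

theorem cc1_symm : ∀ m < 8, ∀ a < 1, ∀ n < 8, ∀ b < 1, cc1 m a n b = cc1 n b m a := by
  decide +kernel

theorem cc2_symm : ∀ m < 8, ∀ a < 9, ∀ n < 8, ∀ b < 9, cc2 m a n b = cc2 n b m a := by
  decide +kernel

theorem cc3_symm : ∀ m < 8, ∀ a < 8, ∀ n < 8, ∀ b < 8, cc3 m a n b = cc3 n b m a := by
  decide +kernel

/-- the local inequality -/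
def LocalIneq {H : Type} [NormedAddCommGroup H] [InnerProductSpace ℝ H]
    (c : ℕ → Module.End ℝ H) : Prop :=
  ∀ f : H, 0 ≤
    pairSum (rob cc1 1) 1 (fun m a n b => inner ℝ (op1 c m a f) (op1 c n b f)) +
    (pairSum (rob cc2 9) 9 (fun m a n b => inner ℝ (op2 c m a f) (op2 c n b f)) +
    pairSum (rob cc3 8) 8 (fun m a n b => inner ℝ (op3 c m a f) (op3 c n b f)))

theorem eventually_weights : ∀ᶠ Q : ℕ in atTop, ∀ i ∈ range 512, ∃ θ : ℝ,
    |θ - 1| ≤ 1 / 2000000 ∧
      (∏ a ∈ range 9, if i.testBit a then wt Q Q a else 1) = θ * wF 9 i := by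
  rw [Finset.eventually_all]
  intro i _
  have hpos : (0 : ℝ) < wF 9 i := by
    rw [wF_eq]
    apply Finset.prod_pos
    intro a _
    split_ifs
    · exact_mod_cast Nat.factorial_pos a
    · exact one_pos
  have h1 : Tendsto (fun Q : ℕ => (∏ a ∈ range 9, if i.testBit a then wt Q Q a else 1) / wF 9 i)
      atTop (𝓝 ((wF 9 i : ℝ) / wF 9 i)) := by
    apply Tendsto.div_const
    rw [wF_eq]
    apply tendsto_finsetProd
    intro a _
    split_ifs
    · simpa using tendsto_wt one_pos tendsto_ee1 a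
    · exact tendsto_const_nhds
  rw [div_self hpos.ne'] at h1
  filter_upwards [Metric.tendsto_nhds.mp h1 (1 / 2000000) (by norm_num)] with Q hQ
  refine ⟨_, (Real.dist_eq _ _ ▸ hQ).le, ?_⟩
  rw [div_mul_cancel₀ _ hpos.ne']

theorem eventually_localIneq : ∀ᶠ Q : ℕ in atTop, LocalIneq (chat Q) := by
  filter_upwards [eventually_weights, eventually_ge_atTop 8] with Q hw hQ
  obtain ⟨O, res, h1, h2⟩ := exists_window Q hQ
  intro f
  have hA : ∀ o ∈ O, ∀ m < 8, ∀ f, ∀ i < 512,
      res o (pairA (chat Q) m f) i = pairA pc m (res o f) i := by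
    intro o ho m hm f i hi
    simp only [pairA, LinearMap.sum_apply, map_sum, Finset.sum_apply, LinearMap.smul_apply,
      map_smul, Pi.smul_apply, Module.End.mul_apply]
    refine Finset.sum_congr rfl fun p hp => ?_
    have : p.1 + p.2 = m + 1 := by simpa using hp
    rw [h1 o ho p.2 (by omega) _ i hi,
      (loc_pc (a := p.2) (by omega)).congr (h1 o ho p.1 (by omega) f) hi]
  have r1 : ∀ o ∈ O, ∀ m < 8, ∀ a < 1, ∀ i < 512,
      res o (op1 (chat Q) m a f) i = op1 pc m a (res o f) i :=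
    fun o ho m hm _ _ i hi => hA o ho m hm f i hi
  have r2 : ∀ o ∈ O, ∀ m < 8, ∀ a < 9, ∀ i < 512,
      res o (op2 (chat Q) m a f) i = op2 pc m a (res o f) i := by
    intro o ho m hm a ha i hi
    simp only [op2, Module.End.mul_apply]
    rw [h1 o ho a ha _ i hi, (loc_pc ha).congr (hA o ho m hm f) hi]
  have r3 : ∀ o ∈ O, ∀ m < 8, ∀ a < 8, ∀ i < 512,
      res o (op3 (chat Q) m a f) i = op3 pc m a (res o f) i := by
    intro o ho m hm a ha i hi
    simp only [op3, Module.End.mul_apply]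
    rw [hA o ho a ha _ i hi, (loc_pairA ha).congr (hA o ho m hm f) hi]
  have key1 : ∀ (C : ℕ → ℕ → ℕ → ℕ → ℤ) (A : ℕ) (X : ℕ → ℕ → Module.End ℝ (Fock Q))
      (Y : ℕ → ℕ → Module.End ℝ (ℕ → ℝ)),
      (∀ m < 8, ∀ a < A, ∀ n < 8, ∀ b < A, C m a n b = C n b m a) →
      (∀ o ∈ O, ∀ m < 8, ∀ a < A, ∀ i < 512, res o (X m a f) i = Y m a (res o f) i) →
      ∑ o ∈ O, bf (fun i => (wF 9 i : ℝ)) (fun m a n b => (C m a n b : ℝ)) A
        (fun m a => Y m a (res o f)) (fun m a => Y m a (res o f)) ≤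
      pairSum (rob C A) A (fun m a n b => inner ℝ (X m a f) (X n b f)) := by
    intro C A X Y hC hXY
    have e : pairSum (rob C A) A (fun m a n b => inner ℝ (X m a f) (X n b f)) =
        ∑ o ∈ O, ∑ i ∈ range 512, (∏ a ∈ range 9, if i.testBit a then wt Q Q a else 1) *
          pairSum (rob C A) A (fun m a n b => Y m a (res o f) i * Y n b (res o f) i) := by
      have h3 : ∀ m ∈ range 8, ∀ a ∈ range A, ∀ n ∈ range 8, ∀ b ∈ range A,
          rob C A m a n b * inner ℝ (X m a f) (X n b f) = ∑ o ∈ O, ∑ i ∈ range 512,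
            (∏ a ∈ range 9, if i.testBit a then wt Q Q a else 1) *
              (rob C A m a n b * (Y m a (res o f) i * Y n b (res o f) i)) := by
        intro m hm a ha n hn b hb
        rw [h2, Finset.mul_sum]
        refine Finset.sum_congr rfl fun o ho => ?_
        rw [Finset.mul_sum]
        refine Finset.sum_congr rfl fun i hi => ?_
        rw [hXY o ho m (Finset.mem_range.mp hm) a (Finset.mem_range.mp ha) i
          (Finset.mem_range.mp hi), hXY o ho n (Finset.mem_range.mp hn) b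
          (Finset.mem_range.mp hb) i (Finset.mem_range.mp hi)]
        ring
      unfold pairSum
      rw [Finset.sum_congr rfl fun m hm => Finset.sum_congr rfl fun a ha =>
        Finset.sum_congr rfl fun n hn => Finset.sum_congr rfl fun b hb => h3 m hm a ha n hn b hb]
      generalize range 512 = K
      generalize range 8 = M
      generalize range A = N
      simp only [Finset.mul_sum]
      rw [sum4_comm]
      refine Finset.sum_congr rfl fun o _ => ?_
      rw [sum4_comm]
    rw [e]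
    refine Finset.sum_le_sum fun o _ => Finset.sum_le_sum fun i hi => ?_
    obtain ⟨θ, hθ, hw⟩ := hw i hi
    have hpos : (0 : ℝ) ≤ wF 9 i := by
      rw [wF_eq]
      apply Finset.prod_nonneg
      intro a _
      split_ifs <;> positivity
    rw [hw, mul_comm θ, mul_assoc]
    exact mul_le_mul_of_nonneg_left (robust C A hC (fun m a => Y m a (res o f) i) θ hθ) hpos
  refine le_trans ?_ (add_le_add (key1 cc1 1 _ (op1 pc) cc1_symm r1)
    (add_le_add (key1 cc2 9 _ (op2 pc) cc2_symm r2) (key1 cc3 8 _ (op3 pc) cc3_symm r3)))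
  rw [← Finset.sum_add_distrib, ← Finset.sum_add_distrib]
  exact Finset.sum_nonneg fun o _ => window_nonneg _

end Vale.Agent.P359
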