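import Vale.Agent.P359.Core
import Vale.Agent.P359.Kappa
import Vale.Agent.P359.Local

/-! The invariant state on an eigenspace of the Hamiltonian. -/

namespace Vale.Agent.P359

open Finset

set_option linter.unusedSectionVars false

variable {H : Type} [NormedAddCommGroup H] [InnerProductSpace ℝ H] [FiniteDimensional ℝ H]
variable {Q : ℕ} {c : ℕ → Module.End ℝ H} {ι : Type} [Fintype ι]

/-- the bilinear form given by a finite family of vectors -/
noncomputable def om (v : ι → H) (K : Finset ι) (X Y : Module.End ℝ H) : ℝ :=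
  ∑ k ∈ K, inner ℝ (X (v k)) (Y (v k))

section om

variable (v : ι → H) (K : Finset ι)

theorem om_symm (X Y : Module.End ℝ H) : om v K X Y = om v K Y X :=
  Finset.sum_congr rfl fun _ _ => real_inner_comm _ _

theorem om_nonneg (X : Module.End ℝ H) : 0 ≤ om v K X X :=
  Finset.sum_nonneg fun _ _ => real_inner_self_nonneg

theorem om_zero_left (Y : Module.End ℝ H) : om v K 0 Y = 0 := by simp [om]

theorem om_zero_right (Y : Module.End ℝ H) : om v K Y 0 = 0 := by simp [om]

theorem om_add_left (X X' Y : Module.End ℝ H) :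
    om v K (X + X') Y = om v K X Y + om v K X' Y := by
  simp [om, inner_add_left, Finset.sum_add_distrib]

theorem om_add_right (X Y Y' : Module.End ℝ H) :
    om v K X (Y + Y') = om v K X Y + om v K X Y' := by
  simp [om, inner_add_right, Finset.sum_add_distrib]

theorem om_sub_left (X X' Y : Module.End ℝ H) :
    om v K (X - X') Y = om v K X Y - om v K X' Y := by
  simp [om, inner_sub_left, Finset.sum_sub_distrib]

theorem om_sub_right (X Y Y' : Module.End ℝ H) :
    om v K X (Y - Y') = om v K X Y - om v K X Y' := by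
  simp [om, inner_sub_right, Finset.sum_sub_distrib]

theorem om_smul_left (r : ℝ) (X Y : Module.End ℝ H) : om v K (r • X) Y = r * om v K X Y := by
  simp [om, inner_smul_left, Finset.mul_sum]

theorem om_smul_right (r : ℝ) (X Y : Module.End ℝ H) : om v K X (r • Y) = r * om v K X Y := by
  simp [om, inner_smul_right, Finset.mul_sum]

theorem om_sum_left {κ : Type} (s : Finset κ) (X : κ → Module.End ℝ H) (Y : Module.End ℝ H) :
    om v K (∑ i ∈ s, X i) Y = ∑ i ∈ s, om v K (X i) Y := by
  simp only [om, LinearMap.sum_apply, sum_inner]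
  exact Finset.sum_comm

theorem om_sum_right {κ : Type} (s : Finset κ) (X : Module.End ℝ H) (Y : κ → Module.End ℝ H) :
    om v K X (∑ i ∈ s, Y i) = ∑ i ∈ s, om v K X (Y i) := by
  simp only [om, LinearMap.sum_apply, inner_sum]
  exact Finset.sum_comm

theorem om_star_left (J X Y : Module.End ℝ H) : om v K (star J * X) Y = om v K X (J * Y) :=
  Finset.sum_congr rfl fun _ _ => inner_star_left _ _ _

theorem om_star_right (J X Y : Module.End ℝ H) : om v K X (star J * Y) = om v K (J * X) Y :=
  Finset.sum_congr rfl fun _ _ => inner_star_right _ _ _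

end om

theorem om_mul_right (b : OrthonormalBasis ι ℝ H) (ev : ι → ℝ) (T J : Module.End ℝ H)
    (hT : star T = T) (hb : ∀ i, T (b i) = ev i • b i) (hJ : br J T = 0) (l : ℝ)
    (X Y : Module.End ℝ H) :
    om b (univ.filter fun k => ev k = l) (X * J) Y =
      om b (univ.filter fun k => ev k = l) X (Y * star J) := by
  have h0 : ∀ i k, ev i ≠ ev k → inner ℝ (b i) (J (b k)) = 0 := by
    intro i k hik
    have h1 : T * J = J * T := sub_eq_zero.mp hJ
    have h2 : inner ℝ (b i) ((T * J) (b k)) = inner ℝ (b i) ((J * T) (b k)) := by rw [h1]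
    rw [Module.End.mul_apply, Module.End.mul_apply, hb, map_smul, inner_smul_right,
      ← inner_star_left, hT, hb, real_inner_smul_left] at h2
    have h3 : (ev i - ev k) * inner ℝ (b i) (J (b k)) = 0 := by linarith
    exact (mul_eq_zero.mp h3).resolve_left (sub_ne_zero.mpr hik)
  set K := univ.filter fun k => ev k = l with hK
  have h1 : ∀ k ∈ K, J (b k) = ∑ i ∈ K, inner ℝ (b i) (J (b k)) • b i := by
    intro k hk
    conv_lhs => rw [← b.sum_repr' (J (b k))]
    symm
    apply Finset.sum_subset (Finset.subset_univ _)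
    intro i _ hi
    rw [h0 i k, zero_smul]
    simp only [hK, Finset.mem_filter, Finset.mem_univ, true_and] at hk hi
    rw [hk]
    exact hi
  have h2 : ∀ i ∈ K, star J (b i) = ∑ k ∈ K, inner ℝ (b i) (J (b k)) • b k := by
    intro i hi
    conv_lhs => rw [← b.sum_repr' (star J (b i))]
    symm
    have e : ∀ k, inner ℝ (b k) (star J (b i)) = inner ℝ (b i) (J (b k)) := by
      intro k
      rw [inner_star_right, real_inner_comm]
    simp only [e]
    apply Finset.sum_subset (Finset.subset_univ _)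
    intro k _ hk
    rw [h0 i k, zero_smul]
    simp only [hK, Finset.mem_filter, Finset.mem_univ, true_and] at hk hi
    rw [hi]
    exact fun h => hk h.symm
  unfold om
  simp only [Module.End.mul_apply]
  calc ∑ k ∈ K, inner ℝ (X (J (b k))) (Y (b k))
      = ∑ k ∈ K, ∑ i ∈ K, inner ℝ (b i) (J (b k)) * inner ℝ (X (b i)) (Y (b k)) := by
        refine Finset.sum_congr rfl fun k hk => ?_
        conv_lhs => rw [h1 k hk]
        simp only [map_sum, map_smul, sum_inner, real_inner_smul_left]
    _ = ∑ i ∈ K, ∑ k ∈ K, inner ℝ (b i) (J (b k)) * inner ℝ (X (b i)) (Y (b k)) :=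
        Finset.sum_comm
    _ = _ := by
        refine Finset.sum_congr rfl fun i hi => ?_
        rw [h2 i hi]
        simp only [map_sum, map_smul, inner_sum, inner_smul_right]

/-- the abstract invariance property -/
def InvOm (Q : ℕ) (c : ℕ → Module.End ℝ H) (v : ι → H) (K : Finset ι) : Prop :=
  ∀ X Y, om v K (br (Jm Q c) X) Y = om v K X (br (star (Jm Q c)) Y)

theorem invOm_of_eigen (hc : IsCAR Q c) (hQ : 1 ≤ Q) (b : OrthonormalBasis ι ℝ H) (ev : ι → ℝ)
    (hb : ∀ i, Hm Q c (b i) = ev i • b i) (l : ℝ) :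
    InvOm Q c b (univ.filter fun k => ev k = l) := by
  intro X Y
  simp only [br]
  rw [om_sub_left, om_sub_right, om_mul_right b ev _ _ star_Hm hb (hc.br_Jm_Hm hQ),
    om_star_right]

variable {v : ι → H} {K : Finset ι}

theorem InvOm.invT (h : InvOm Q c v K) {D0 D1 : ℕ} (X : ℕ → ℕ → Module.End ℝ H)
    (h0 : ∀ m a, D0 < m ∨ D1 < a → X m a = 0)
    (h1 : ∀ m a, br (Jm Q c) (X m a) =
      ((m : ℝ) + 1) • X (m + 1) a + ((a : ℝ) + 1) • X m (a + 1))
    (h2 : ∀ n b, br (star (Jm Q c)) (X n b) =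
      (if n = 0 then 0 else ee D0 Q (n - 1) • X (n - 1) b) +
        (if b = 0 then 0 else ee D1 Q (b - 1) • X n (b - 1))) :
    InvT D0 D1 Q fun m a n b => om v K (X m a) (X n b) := by
  refine ⟨fun m a n b => om_symm _ _ _ _, fun m a n b hh => ?_, fun m a n b => ?_⟩
  · simp only [h0 m a hh, om_zero_left]
  · have := h (X m a) (X n b)
    rw [h1, h2, om_add_left, om_add_right, om_smul_left, om_smul_left] at this
    simp only [this]
    congr 1 <;> split_ifs <;> simp only [om_zero_right, om_smul_right]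

theorem tau_om_nonneg {D0 D1 : ℕ} (hD : D1 ≤ D0) (hx : (0 : ℝ) < Q)
    (X : ℕ → ℕ → Module.End ℝ H) {k : ℕ} (hk : k ≤ D1) :
    0 ≤ tau D0 D1 Q (fun m a n b => om v K (X m a) (X n b)) k := by
  apply div_nonneg _ (nu_pos hD hx hk (Nat.zero_le _)).le
  have := om_nonneg v K (∑ m ∈ range (D0 + 1), ∑ a ∈ range (D1 + 1),
    (wt D0 Q m * wt D1 Q a * wv (ee D0 Q) (ee D1 Q) k 0 m a) • X m a)
  simp only [om_sum_left, om_sum_right, om_smul_left, om_smul_right, Finset.mul_sum] at this
  refine this.trans_eq ?_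
  rw [sum22_comm]
  refine Finset.sum_congr rfl fun _ _ => Finset.sum_congr rfl fun _ _ =>
    Finset.sum_congr rfl fun _ _ => Finset.sum_congr rfl fun _ _ => ?_
  ring

/-- the family for the pair density matrix -/
noncomputable def op0 (c : ℕ → Module.End ℝ H) (m a : ℕ) : Module.End ℝ H :=
  if a = 0 then pairA c m else 0

theorem InvOm.inv0 (h : InvOm Q c v K) (hc : IsCAR Q c) (hQ : 1 ≤ Q) :
    InvT (2 * Q - 2) 0 Q fun m a n b => om v K (op0 c m a) (op0 c n b) := by
  apply h.invT
  · intro m a hh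
    unfold op0
    split_ifs with ha
    · exact hc.pairA_eq_zero hQ (by omega)
    · rfl
  · intro m a
    unfold op0
    by_cases ha : a = 0
    · simp [ha, hc.br_Jm_A hQ]
    · simp [ha, br_zero]
  · intro n b
    unfold op0
    rcases b with _ | _ | b
    · simp [hc.br_Jp_A hQ]
    · simp [br_zero, ee]
    · simp [br_zero]

theorem InvOm.inv2 (h : InvOm Q c v K) (hc : IsCAR Q c) (hQ : 1 ≤ Q) :
    InvT (2 * Q - 2) Q Q fun m a n b => om v K (op2 c m a) (op2 c n b) := by
  apply h.invT
  · intro m a hh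
    unfold op2
    rcases hh with hh | hh
    · rw [hc.pairA_eq_zero hQ hh, mul_zero]
    · rw [hc.eq_zero hh, zero_mul]
  · intro m a
    simp only [op2, br_mul, hc.br_Jm_A hQ, hc.br_Jm_c hQ, mul_smul_comm, smul_mul_assoc]
  · intro n b
    simp only [op2, br_mul, hc.br_Jp_A hQ, hc.br_Jp_c hQ]
    congr 1 <;> split_ifs <;> simp

theorem InvOm.inv3 (h : InvOm Q c v K) (hc : IsCAR Q c) (hQ : 1 ≤ Q) :
    InvT (2 * Q - 2) (2 * Q - 2) Q fun m a n b => om v K (op3 c m a) (op3 c n b) := by
  apply h.invT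
  · intro m a hh
    unfold op3
    rcases hh with hh | hh
    · rw [hc.pairA_eq_zero hQ hh, mul_zero]
    · rw [hc.pairA_eq_zero hQ hh, zero_mul]
  · intro m a
    simp only [op3, br_mul, hc.br_Jm_A hQ, mul_smul_comm, smul_mul_assoc]
  · intro n b
    simp only [op3, br_mul, hc.br_Jp_A hQ]
    congr 1 <;> split_ifs <;> simp

theorem om_one_Hm (v : ι → H) (K : Finset ι) :
    om v K 1 (Hm Q c) = ∑ m ∈ range (2 * Q - 2 + 1),
      wt (2 * Q - 2) Q m / 4 * om v K (pairA c m) (pairA c m) := by
  simp only [Hm, om_sum_right, om_smul_right, om_star_right, mul_one]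

theorem exchange_reindex (hc : IsCAR Q c) (hQ : 1 ≤ Q) (v : ι → H) (K : Finset ι) (m n : ℕ) :
    ∑ p ∈ antidiagonal (m + 1),
      (if p.1 ≤ n + 1 then ((p.1 : ℝ) - p.2) * ((p.1 : ℝ) - (n + 1 - p.1 : ℕ)) * uu Q Q p.1
        else 0) * om v K (op2 c m (n + 1 - p.1)) (op2 c n p.2) =
    ∑ a ∈ range (Q + 1), ∑ b ∈ range (Q + 1),
      wt Q Q a * wt Q Q b * (exT Q m a n b * om v K (op2 c m a) (op2 c n b)) := by
  have hx : (0 : ℝ) < Q := by exact_mod_cast hQ
  rw [← Finset.sum_product']
  apply Finset.sum_bij_ne_zero (fun p _ _ => (n + 1 - p.1, p.2))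
  · intro p _ hne
    simp only [Finset.mem_product, Finset.mem_range]
    constructor
    · by_contra h
      apply hne
      rw [op2, hc.eq_zero (by omega), zero_mul, om_zero_left, mul_zero]
    · by_contra h
      apply hne
      rw [op2.eq_1 c n, hc.eq_zero (a := p.2) (by omega), zero_mul, om_zero_right, mul_zero]
  · intro p hp _ q hq _ h
    have h1 : p.1 + p.2 = m + 1 := by simpa using hp
    have h2 : q.1 + q.2 = m + 1 := by simpa using hq
    simp only [Prod.mk.injEq] at h
    ext <;> omega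
  · rintro ⟨a, b⟩ hab hne
    simp only [Finset.mem_product, Finset.mem_range] at hab
    have h1 : m + a = n + b ∧ a ≤ n + 1 := by
      by_contra h
      apply hne
      simp only
      rw [exT_zero Q (by omega)]
      simp
    have h2 : n + 1 - (n + 1 - a) = a := by omega
    refine ⟨(n + 1 - a, b), by simp; omega, ?_, by simp [h2]⟩
    intro h
    apply hne
    simp only [h2, if_pos (Nat.sub_le (n + 1) a)] at h ⊢
    rw [exT_eq Q (d := n + 1 - a) (by omega) (by omega)]
    linear_combination (wt Q Q a * wt Q Q b * uu Q Q a * uu Q Q b) * h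
  · intro p hp hne
    have h1 : p.1 + p.2 = m + 1 := by simpa using hp
    have h2 : p.1 ≤ n + 1 := by
      by_contra h
      apply hne
      rw [if_neg h, zero_mul]
    have h3 : n + 1 - p.1 ≤ Q := by
      by_contra h
      apply hne
      rw [op2, hc.eq_zero (by omega), zero_mul, om_zero_left, mul_zero]
    have h4 : p.2 ≤ Q := by
      by_contra h
      apply hne
      rw [op2.eq_1 c n, hc.eq_zero (a := p.2) (by omega), zero_mul, om_zero_right, mul_zero]
    simp only [if_pos h2]
    rw [exT_eq Q (d := p.1) (by omega) (by omega)]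
    have e1 := wt_mul_uu hx h3
    have e2 := wt_mul_uu hx h4
    set t := om v K (op2 c m (n + 1 - p.1)) (op2 c n p.2)
    set u := ((p.1 : ℝ) - p.2) * ((p.1 : ℝ) - (n + 1 - p.1 : ℕ)) * uu Q Q p.1 * t
    calc u = u * (wt Q Q (n + 1 - p.1) * uu Q Q (n + 1 - p.1)) * (wt Q Q p.2 * uu Q Q p.2) := by
          rw [e1, e2]; ring
      _ = _ := by ring

theorem om_Hm_Hm (hc : IsCAR Q c) (hQ : 1 ≤ Q) (v : ι → H) (K : Finset ι) :
    om v K (Hm Q c) (Hm Q c) = om v K 1 (Hm Q c) -
      1 / 4 * ∑ m ∈ range (2 * Q - 2 + 1), ∑ a ∈ range (Q + 1), ∑ n ∈ range (2 * Q - 2 + 1),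
        ∑ b ∈ range (Q + 1), wt (2 * Q - 2) Q m * wt Q Q a * (wt (2 * Q - 2) Q n * wt Q Q b) *
          (exT Q m a n b * om v K (op2 c m a) (op2 c n b)) +
      1 / 16 * ∑ m ∈ range (2 * Q - 2 + 1), ∑ n ∈ range (2 * Q - 2 + 1),
        wt (2 * Q - 2) Q m * wt (2 * Q - 2) Q n * om v K (op3 c m n) (op3 c m n) := by
  have hx : (0 : ℝ) < Q := by exact_mod_cast hQ
  have h1 : ∀ m n, om v K (star (pairA c m) * pairA c m) (star (pairA c n) * pairA c n) =
      om v K (op3 c m n) (op3 c m n) +
      (if m = n then 4 * uu (2 * Q - 2) Q m else 0) * om v K (pairA c m) (pairA c n) -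
      4 * ∑ a ∈ range (Q + 1), ∑ b ∈ range (Q + 1),
        wt Q Q a * wt Q Q b * (exT Q m a n b * om v K (op2 c m a) (op2 c n b)) := by
    intro m n
    rw [om_star_left, ← mul_assoc, hc.pairA_mul_star, sum_sq_uu hQ, sub_mul, add_mul, om_sub_right,
      om_add_right, mul_assoc, om_star_right, hc.pairA_comm m n, smul_mul_assoc, one_mul,
      om_smul_right, smul_mul_assoc, om_smul_right, Finset.sum_mul, om_sum_right,
      ← exchange_reindex hc hQ]
    simp only [smul_mul_assoc, om_smul_right, mul_assoc, om_star_right, op2, op3]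
  have h2 : om v K (Hm Q c) (Hm Q c) = ∑ m ∈ range (2 * Q - 2 + 1), ∑ n ∈ range (2 * Q - 2 + 1),
      wt (2 * Q - 2) Q m / 4 * (wt (2 * Q - 2) Q n / 4 *
        om v K (star (pairA c m) * pairA c m) (star (pairA c n) * pairA c n)) := by
    rw [Hm, om_sum_left]
    refine Finset.sum_congr rfl fun m _ => ?_
    rw [om_smul_left, om_sum_right, Finset.mul_sum]
    refine Finset.sum_congr rfl fun n _ => ?_
    rw [om_smul_right]
  rw [h2, om_one_Hm, Finset.mul_sum, Finset.mul_sum, ← Finset.sum_sub_distrib,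
    ← Finset.sum_add_distrib]
  refine Finset.sum_congr rfl fun m hm => ?_
  have hm' : m ≤ 2 * Q - 2 := Nat.lt_succ_iff.mp (Finset.mem_range.mp hm)
  rw [Finset.sum_comm (s := range (Q + 1))]
  have e : wt (2 * Q - 2) Q m / 4 * om v K (pairA c m) (pairA c m) =
      ∑ n ∈ range (2 * Q - 2 + 1), wt (2 * Q - 2) Q n / 4 * (wt (2 * Q - 2) Q m / 4 *
        ((if m = n then 4 * uu (2 * Q - 2) Q m else 0) * om v K (pairA c m) (pairA c n))) := by
    rw [Finset.sum_eq_single m]
    · rw [if_pos rfl]
      linear_combination (-(wt (2 * Q - 2) Q m / 4 * om v K (pairA c m) (pairA c m))) *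
        wt_mul_uu hx hm'
    · intro n _ hn
      simp [hn.symm]
    · intro h
      exact absurd hm h
  rw [e, Finset.mul_sum, Finset.mul_sum, ← Finset.sum_sub_distrib, ← Finset.sum_add_distrib]
  refine Finset.sum_congr rfl fun n _ => ?_
  have e2 : ∑ a ∈ range (Q + 1), ∑ b ∈ range (Q + 1),
      (wt (2 * Q - 2) Q m * wt Q Q a * (wt (2 * Q - 2) Q n * wt Q Q b) *
        (exT Q m a n b * om v K (op2 c m a) (op2 c n b))) =
      wt (2 * Q - 2) Q n * (wt (2 * Q - 2) Q m * ∑ a ∈ range (Q + 1),
        ∑ b ∈ range (Q + 1), (wt Q Q a * wt Q Q b *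
          (exT Q m a n b * om v K (op2 c m a) (op2 c n b)))) := by
    simp only [Finset.mul_sum]
    refine Finset.sum_congr rfl fun _ _ => Finset.sum_congr rfl fun _ _ => ?_
    ring
  rw [e2, h1]
  ring

theorem om_op2_le (hc : IsCAR Q c) (v : ι → H) (K : Finset ι) (m a : ℕ) :
    om v K (op2 c m a) (op2 c m a) ≤ uu Q Q a * om v K (pairA c m) (pairA c m) := by
  have h := hc.mixed' a a
  rw [if_pos rfl] at h
  have h1 : star (c a) * c a = uu Q Q a • (1 : Module.End ℝ H) - c a * star (c a) := by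
    rw [h]
    abel
  have h2 := om_nonneg v K (star (c a) * pairA c m)
  rw [om_star_left] at h2
  rw [op2, ← om_star_right, ← mul_assoc, h1, sub_mul, om_sub_right, smul_mul_assoc, one_mul,
    om_smul_right, mul_assoc]
  linarith

end Vale.Agent.P359
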